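import Crest.Agent.R165.D2.Base

/-! # R165/D2/Alg1 (owner helper6): monomial reduction, Pauli bounds, contractions, degree two -/

set_option autoImplicit false
set_option linter.unusedVariables false
noncomputable section
open Classical

namespace Crest.Agent.R165.D2

local notation "ιE" => ExteriorAlgebra.ι ℝ

/-! ### part a -/

/-- induction on `l` (`wedge_cons`, `iota_mul_wedge`) -/
theorem wedge_split {I : Type} {A B : Set (GV I)} (l : List (GV I)) (hl : ∀ u ∈ l, u ∈ A ∪ B) :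
    ∃ (lB lA : List (GV I)) (ε : ℝ), |ε| ≤ 1 ∧ (∀ u ∈ lB, u ∈ B) ∧ (∀ u ∈ lA, u ∈ A) ∧ wedge l = ε • (wedge lB * wedge lA) := by
  induction l with
  | nil => exact ⟨[], [], 1, by simp, by simp, by simp, by simp [wedge_nil]⟩
  | cons u l ih =>
    obtain ⟨lB, lA, ε, h1, h2, h3, h4⟩ := ih fun v hv => hl v (List.mem_cons_of_mem _ hv)
    rcases hl u List.mem_cons_self with hu | hu
    · refine ⟨lB, u :: lA, ε * (-1) ^ lB.length, by simpa [abs_mul] using h1, h2, List.forall_mem_cons.2 ⟨hu, h3⟩, ?_⟩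
      rw [wedge_cons, h4, mul_smul_comm, ← mul_assoc, iota_mul_wedge, smul_mul_assoc, smul_smul, wedge_cons, mul_assoc]
    · refine ⟨u :: lB, lA, ε, h1, List.forall_mem_cons.2 ⟨hu, h2⟩, h3, ?_⟩
      rw [wedge_cons, h4, mul_smul_comm, wedge_cons, mul_assoc]

theorem involute_wedge {I : Type} (l : List (GV I)) :
    CliffordAlgebra.involute (wedge l) = (-1 : ℝ) ^ l.length • wedge l := by
  induction l with
  | nil => simp [wedge_nil]
  | cons u l ih =>
    rw [wedge_cons, map_mul, ih, CliffordAlgebra.involute_ι, List.length_cons, pow_succ, mul_neg_one, neg_smul, neg_mul,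
      mul_smul_comm]

theorem flipV_sf {u : GV Ix} (hu : SF u) : flipV u = u := by
  rw [flipV, vmap, Finsupp.linearCombination_apply]
  conv_rhs => rw [← u.sum_single]
  refine Finsupp.sum_congr ?_
  rintro (i | q) hi
  · simp [dl]
  · exact absurd (hu q) (Finsupp.mem_support_iff.1 hi)
theorem flipV_src {u : GV Ix} (hu : Src u) : flipV u = -u := by
  obtain ⟨k, b, t, rfl⟩ := hu
  rw [map_smul, ← smul_neg]
  simp [flipV, vmap, dz]

theorem a1a_gbd {I J : Type} {U : Set (GV I)} {U' : Set (GV J)} (R : Gr I →ₗ[ℝ] Gr J) {κ : ℝ} (hκ : 0 ≤ κ)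
    (h : ∀ l : List (GV I), (∀ u ∈ l, u ∈ U) → GBd U' (R (wedge l)) κ) {F : Gr I} {c : ℝ} (hc : GBd U F c) :
    GBd U' (R F) (κ * c) := by
  obtain ⟨L, h1, rfl, h2⟩ := hc
  refine GBd.mono ?_ subset_rfl (mul_le_mul_of_nonneg_left h2 hκ)
  clear h2
  induction L with
  | nil => simpa using GBd.zero U'
  | cons p L ih =>
    rw [List.map_cons, List.map_cons, List.sum_cons, List.sum_cons, map_add, map_smul, mul_add, mul_comm κ]
    exact ((h _ (h1 p List.mem_cons_self)).smul _).add (ih fun q hq => h1 q (List.mem_cons_of_mem _ hq))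

theorem a1a_flip_src (l : List (GV Ix)) (hl : ∀ u ∈ l, Src u) :
    gmap flipV (wedge l) = (-1 : ℝ) ^ l.length • wedge l := by
  induction l with
  | nil => simp [wedge_nil]
  | cons u l ih =>
    rw [wedge_cons, map_mul, ih fun v hv => hl v (List.mem_cons_of_mem _ hv), gmap_iota,
      flipV_src (hl u List.mem_cons_self), map_neg, List.length_cons, pow_succ, mul_neg_one, neg_smul, neg_mul,
      mul_smul_comm]

theorem a1a_flip_sf (l : List (GV Ix)) (hl : ∀ u ∈ l, SF u) : gmap flipV (wedge l) = wedge l := by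
  rw [gmap_wedge, List.map_congr_left (f := flipV) (g := id) fun u hu => flipV_sf (hl u hu), List.map_id]

/-- **monomial reduction.** `Π = ¼ (1 + gmap flipV) ∘ (1 + involute)` fixes `F` (`involute` fixes even elements:
`CliffordAlgebra.involute_eq_of_mem_even`) and sends `wedge lB * wedge lA` to itself (both lengths even) or to `0`;
so `R F = Σ a • R (Π (wedge l))`, induct on the list of monomials. -/
theorem gbd_lin {J : Type} {A B : Set (GV Ix)} {U' : Set (GV J)} (hA : ∀ u ∈ A, SF u) (hB : ∀ u ∈ B, Src u)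
    (R : Gr Ix →ₗ[ℝ] Gr J) {κ : ℝ} (hκ : 0 ≤ κ)
    (h : ∀ lB lA : List (GV Ix), (∀ u ∈ lB, u ∈ B) → (∀ u ∈ lA, u ∈ A) → Even lB.length → Even lA.length →
      GBd U' (R (wedge lB * wedge lA)) κ)
    {F : Al} (hF : flipS F = F) {c : ℝ} (hc : GBd (A ∪ B) (F : Gr Ix) c) : GBd U' (R F) (κ * c) := by
  let P : Gr Ix →ₗ[ℝ] Gr Ix := (1 / 4 : ℝ) • ((LinearMap.id + (gmap flipV).toLinearMap) ∘ₗ
    (LinearMap.id + CliffordAlgebra.involute.toLinearMap))
  have hP : ∀ (x : Gr Ix) (s t : ℝ), CliffordAlgebra.involute x = s • x → gmap flipV x = t • x →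
      P x = ((1 + s) * (1 + t) / 4) • x := by
    intro x s t h1 h2
    simp only [P, LinearMap.smul_apply, LinearMap.comp_apply, LinearMap.add_apply, LinearMap.id_apply,
      AlgHom.toLinearMap_apply, h1, map_add, map_smul, h2]
    module
  have h1 : P F = F := by
    rw [hP F 1 1 (by rw [one_smul]; exact CliffordAlgebra.involute_eq_of_mem_even F.2)
      (by rw [one_smul]; exact congrArg Subtype.val hF)]
    norm_num
  rw [← h1]
  refine a1a_gbd (R ∘ₗ P) hκ (fun l hl => ?_) hc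
  obtain ⟨lB, lA, ε, h2, h3, h4, h5⟩ := wedge_split l hl
  rw [h5, map_smul, LinearMap.comp_apply, hP _ ((-1) ^ lB.length * (-1) ^ lA.length) ((-1) ^ lB.length)
    (by rw [map_mul, involute_wedge, involute_wedge, smul_mul_smul_comm])
    (by rw [map_mul, a1a_flip_src _ fun u hu => hB u (h3 u hu), a1a_flip_sf _ fun u hu => hA u (h4 u hu), smul_mul_assoc])]
  refine (GBd.smul ?_ ε).mono subset_rfl (mul_le_of_le_one_left hκ h2)
  rcases Nat.even_or_odd lB.length with hb | hb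
  · rcases Nat.even_or_odd lA.length with ha | ha
    · rw [hb.neg_one_pow, ha.neg_one_pow, show ((1 : ℝ) + 1 * 1) * (1 + 1) / 4 = 1 by norm_num, one_smul]
      exact h lB lA h3 h4 hb ha
    · rw [hb.neg_one_pow, ha.neg_one_pow, show ((1 : ℝ) + 1 * -1) * (1 + 1) / 4 = 0 by norm_num, zero_smul, map_zero]
      exact (GBd.zero _).mono subset_rfl hκ
  · rw [hb.neg_one_pow, add_neg_cancel, mul_zero, zero_div, zero_smul, map_zero]
    exact (GBd.zero _).mono subset_rfl hκ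

/-- a functional bounded on monomials -/
theorem abs_lin_le {I : Type} {U : Set (GV I)} (R : Gr I →ₗ[ℝ] ℝ) {κ : ℝ} (hκ : 0 ≤ κ)
    (h : ∀ l : List (GV I), (∀ u ∈ l, u ∈ U) → |R (wedge l)| ≤ κ) {F : Gr I} {c : ℝ} (hc : GBd U F c) :
    |R F| ≤ κ * c := by
  obtain ⟨L, h1, rfl, h2⟩ := hc
  refine le_trans ?_ (mul_le_mul_of_nonneg_left h2 hκ)
  clear h2
  induction L with
  | nil => simp
  | cons p L ih =>
    rw [List.map_cons, List.map_cons, List.sum_cons, List.sum_cons, map_add, map_smul, mul_add, mul_comm κ]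
    refine (abs_add_le _ _).trans (add_le_add ?_ (ih fun q hq => h1 q (List.mem_cons_of_mem _ hq)))
    rw [smul_eq_mul, abs_mul]
    exact mul_le_mul_of_nonneg_left (h _ (h1 p List.mem_cons_self)) (abs_nonneg _)

/-! ### part b: Pauli bounds (`pauli_wedge` with `src = ∅`, `l = List.ofFn l.get`, or direct inductions) -/

theorem gbd_pow {I : Type} {U' : Set (GV I)} {κ : ℝ} (hκ : 0 ≤ κ) (l : List (GV I)) (hl : ∀ u ∈ l, In κ U' u) :
    GBd U' (wedge l) (κ ^ l.length) := by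
  induction l with
  | nil => simpa [wedge_nil] using GBd.one U'
  | cons u l ih =>
    rw [wedge_cons, List.length_cons, pow_succ']
    exact (In.gbd (hl u (List.mem_cons_self ..)) hκ).mul (ih fun w hw => hl w (List.mem_cons_of_mem _ hw))

theorem pauli0 {I : Type} {U' : Set (GV I)} {κ : ℝ} (hκ : 0 ≤ κ) (hκ1 : κ ≤ 1) (l : List (GV I)) (hl : ∀ u ∈ l, In κ U' u)
    (h2 : 2 ≤ l.length) : GBd U' (wedge l) (κ ^ 2) := by
  exact (gbd_pow hκ l hl).mono le_rfl (pow_le_pow_of_le_one hκ hκ1 h2)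

/-- the Pauli weights: at most `k` factors `κ₀` among `n` -/
def alg1b_b (κ₀ κ₁ : ℝ) : ℕ → ℕ → ℝ
  | _, 0 => 1
  | 0, n + 1 => κ₁ * alg1b_b κ₀ κ₁ 0 n
  | k + 1, n + 1 => κ₁ * alg1b_b κ₀ κ₁ (k + 1) n + κ₀ * alg1b_b κ₀ κ₁ k n

theorem alg1b_b0 (κ₀ κ₁ : ℝ) (n : ℕ) : alg1b_b κ₀ κ₁ 0 n = κ₁ ^ n := by
  induction n with
  | zero => simp [alg1b_b]
  | succ n ih => rw [alg1b_b, ih, pow_succ']

theorem alg1b_nonneg {κ₀ κ₁ : ℝ} (h₀ : 0 ≤ κ₀) (h₁ : 0 ≤ κ₁) (k n : ℕ) : 0 ≤ alg1b_b κ₀ κ₁ k n := by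
  induction n generalizing k with
  | zero => simp [alg1b_b]
  | succ n ih =>
    cases k with
    | zero => rw [alg1b_b]; exact mul_nonneg h₁ (ih 0)
    | succ k => rw [alg1b_b]; exact add_nonneg (mul_nonneg h₁ (ih _)) (mul_nonneg h₀ (ih _))

theorem alg1b_rk1 {I : Type} (φ : I → ℝ) (ζ u : GV I) : rk1 φ ζ u = pr u φ • ζ := by
  simp [rk1, pr]

theorem alg1b_main {I : Type} {U' : Set (GV I)} {κ₀ κ₁ : ℝ} (h₀ : 0 ≤ κ₀) (h₁ : 0 ≤ κ₁) (P : GV I → GV I)
    (V : Set (GV I)) (hV : ∀ u, P u ∈ V) (l : List (GV I))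
    (hl : ∀ u ∈ l, In κ₀ U' (P u) ∧ In κ₁ U' (u - P u)) :
    ∀ (k : ℕ) (ω : Gr I) (c : ℝ), GBd U' ω c →
      (∀ v : List (GV I), (∀ a ∈ v, a ∈ V) → v.length = k + 1 → ω * wedge v = 0) →
      GBd U' (ω * wedge l) (c * alg1b_b κ₀ κ₁ k l.length) := by
  induction l with
  | nil =>
    intro k ω c hc _
    simpa [wedge_nil, alg1b_b] using hc
  | cons u l ih =>
    intro k ω c hc hω
    have ih := ih fun w hw => hl w (List.mem_cons_of_mem _ hw)
    obtain ⟨hu0, hu1⟩ := hl u (List.mem_cons_self ..)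
    have e : ω * wedge (u :: l) = (ω * ιE (u - P u)) * wedge l + (ω * ιE (P u)) * wedge l := by
      rw [wedge_cons, ← add_mul, ← mul_add, ← map_add, sub_add_cancel, mul_assoc]
    have h1 := ih k (ω * ιE (u - P u)) (c * κ₁) (hc.mul (In.gbd hu1 h₁)) fun v hv hlen => by
      rw [mul_assoc, iota_mul_wedge, mul_smul_comm, ← mul_assoc, hω v hv hlen, zero_mul, smul_zero]
    rw [e, List.length_cons]
    cases k with
    | zero =>
      have h2 : ω * ιE (P u) = 0 := by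
        have := hω [P u] (by simpa using hV u) rfl
        simpa [wedge_cons, wedge_nil] using this
      rw [h2, zero_mul, add_zero, alg1b_b, ← mul_assoc]
      exact h1
    | succ k =>
      have h2 := ih k (ω * ιE (P u)) (c * κ₀) (hc.mul (In.gbd hu0 h₀)) fun v hv hlen => by
        rw [mul_assoc, ← wedge_cons]
        refine hω _ ?_ (by simp [hlen])
        intro a ha
        rcases List.mem_cons.1 ha with rfl | ha
        · exact hV u
        · exact hv a ha
      rw [alg1b_b, mul_add, ← mul_assoc, ← mul_assoc]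
      exact h1.add h2

/-- `κ₁^n + n κ₀ κ₁^(n-1) ≤ κ₁² + 2 κ₀ κ₁` since `n 2^{-(n-2)} ≤ 2` -/
theorem pauli1 {I : Type} {U' : Set (GV I)} {κ₀ κ₁ : ℝ} (h₀ : 0 ≤ κ₀) (h₁ : 0 ≤ κ₁) (h₁' : κ₁ ≤ 1 / 2) (φ : I → ℝ) (ζ : GV I)
    (l : List (GV I)) (hl : ∀ u ∈ l, In κ₀ U' (rk1 φ ζ u) ∧ In κ₁ U' (u - rk1 φ ζ u)) (h2 : 2 ≤ l.length) :
    GBd U' (wedge l) (κ₁ ^ 2 + 2 * κ₀ * κ₁) := by
  have h := alg1b_main (U' := U') h₀ h₁ (rk1 φ ζ) {v | ∃ t : ℝ, v = t • ζ} (fun u => ⟨_, alg1b_rk1 φ ζ u⟩) l hl 1 1 1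
    (GBd.one U') (by
      intro v hv hlen
      match v, hlen with
      | [a, b], _ =>
        obtain ⟨s, rfl⟩ := hv a (by simp)
        obtain ⟨t, rfl⟩ := hv b (by simp)
        simp [wedge_cons, wedge_nil, ExteriorAlgebra.ι_sq_zero])
  rw [one_mul, one_mul] at h
  refine h.mono le_rfl ?_
  generalize l.length = n at h2
  induction n, h2 using Nat.le_induction with
  | base => simp only [alg1b_b]; nlinarith
  | succ n hn ih =>
    rw [alg1b_b, alg1b_b0]
    have h3 : κ₁ ^ n ≤ κ₁ ^ 2 := pow_le_pow_of_le_one h₁ (by linarith) hn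
    have h4 := mul_le_mul h₁' ih (alg1b_nonneg h₀ h₁ _ _) (by norm_num)
    have h5 : κ₀ * κ₁ ^ n ≤ κ₀ * (κ₁ * (1 / 2)) :=
      mul_le_mul_of_nonneg_left (h3.trans (by rw [sq]; exact mul_le_mul_of_nonneg_left h₁' h₁)) h₀
    have h6 := mul_nonneg h₀ h₁
    nlinarith [sq_nonneg κ₁]

/-- three vectors in the span of `zRe z, zIm z` have zero wedge; `(1 + n + C(n,2)) 2^{-(n-4)} ≤ 11` -/
theorem pauli2 {U' : Set (GV Ix)} {κ₀ κ₁ : ℝ} (h₁ : 0 ≤ κ₁) (h₀ : κ₁ ≤ κ₀) (h₁' : κ₁ ≤ 1 / 2) (z : Site)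
    (l : List (GV Ix)) (hl : ∀ u ∈ l, In κ₀ U' (P0 z u) ∧ In κ₁ U' (u - P0 z u)) (h4 : 4 ≤ l.length) :
    GBd U' (wedge l) (11 * κ₀ ^ 2 * κ₁ ^ 2) := by
  have h₀' : 0 ≤ κ₀ := h₁.trans h₀
  have h := alg1b_main (U' := U') h₀' h₁ (P0 z) {v | ∃ s t : ℝ, v = s • zRe z + t • zIm z}
    (fun u => ⟨_, _, by rw [P0, LinearMap.add_apply, alg1b_rk1, alg1b_rk1]⟩) l hl 2 1 1 (GBd.one U') (by
      intro v hv hlen
      match v, hlen with
      | [a, b, c], _ =>
        obtain ⟨s₁, t₁, rfl⟩ := hv a (by simp)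
        obtain ⟨s₂, t₂, rfl⟩ := hv b (by simp)
        obtain ⟨s₃, t₃, rfl⟩ := hv c (by simp)
        have e1 : ιE (zRe z) * ιE (zRe z) = 0 := ExteriorAlgebra.ι_sq_zero _
        have e2 : ιE (zIm z) * ιE (zIm z) = 0 := ExteriorAlgebra.ι_sq_zero _
        have e3 : ιE (zIm z) * ιE (zRe z) = -(ιE (zRe z) * ιE (zIm z)) := iota_swap _ _
        have e4 : ιE (zRe z) * (ιE (zRe z) * ιE (zIm z)) = 0 := by rw [← mul_assoc, e1, zero_mul]
        have e5 : ιE (zIm z) * (ιE (zRe z) * ιE (zIm z)) = 0 := by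
          rw [← mul_assoc, e3, neg_mul, mul_assoc, e2, mul_zero, neg_zero]
        simp only [wedge_cons, wedge_nil, one_mul, mul_one, map_add, map_smul, add_mul, mul_add, smul_mul_assoc,
          mul_smul_comm, e1, e2, e3, e4, e5, mul_neg, smul_zero, mul_zero, neg_zero, add_zero, zero_add, smul_neg])
  rw [one_mul, one_mul] at h
  refine h.mono le_rfl ?_
  have hb1 : ∀ n, 3 ≤ n → alg1b_b κ₀ κ₁ 1 n ≤ 4 * κ₀ * κ₁ ^ 2 := by
    intro n hn
    induction n, hn using Nat.le_induction with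
    | base =>
      simp only [alg1b_b]
      nlinarith [mul_le_mul_of_nonneg_left h₀ (sq_nonneg κ₁)]
    | succ n hn ih =>
      rw [alg1b_b, alg1b_b0]
      have h3 : κ₁ ^ n ≤ κ₁ ^ 2 := pow_le_pow_of_le_one h₁ (by linarith) (by omega)
      have h4 := mul_le_mul h₁' ih (alg1b_nonneg h₀' h₁ _ _) (by norm_num)
      have h5 := mul_le_mul_of_nonneg_left h3 h₀'
      have h6 := mul_nonneg h₀' (sq_nonneg κ₁)
      nlinarith
  generalize l.length = n at h4
  induction n, h4 using Nat.le_induction with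
  | base =>
    simp only [alg1b_b]
    have h5 : κ₁ ^ 2 ≤ κ₀ ^ 2 := pow_le_pow_left₀ h₁ h₀ 2
    have h6 : κ₀ * κ₁ ≤ κ₀ ^ 2 := by rw [sq]; exact mul_le_mul_of_nonneg_left h₀ h₀'
    nlinarith [mul_le_mul_of_nonneg_left h5 (sq_nonneg κ₁), mul_le_mul_of_nonneg_left h6 (sq_nonneg κ₁)]
  | succ n hn ih =>
    rw [alg1b_b]
    have h5 := mul_le_mul h₁' ih (alg1b_nonneg h₀' h₁ _ _) (by norm_num)
    have h6 := mul_le_mul_of_nonneg_left (hb1 n (by omega)) h₀'
    have h7 := mul_nonneg (sq_nonneg κ₀) (sq_nonneg κ₁)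
    nlinarith

/-! ### part c: degree two and contractions -/

theorem c1_wedge_mem {I : Type} (l : List (GV I)) : wedge l ∈ ⋀[ℝ]^(l.length) (GV I) := by
  induction l with
  | nil => exact SetLike.one_mem_graded (fun i : ℕ => ⋀[ℝ]^i (GV I))
  | cons u l ih =>
    rw [wedge_cons, List.length_cons, ExteriorAlgebra.exteriorPower, pow_succ']
    exact Submodule.mul_mem_mul (LinearMap.mem_range_self _ u) ih

/-- `wedge l ∈ ⋀[ℝ]^l.length` (`ExteriorAlgebra.ιMulti`, or `Submodule.mul_mem_mul` and `pow_succ'`), `GradedAlgebra.proj_apply`,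
`DirectSum.decompose_of_mem_same / _ne` -/
theorem deg2_wedge {I : Type} (l : List (GV I)) : deg2 (wedge l) = if l.length = 2 then wedge l else 0 := by
  have h := c1_wedge_mem l
  unfold deg2
  rw [GradedAlgebra.proj_apply]
  split_ifs with h2
  · rw [h2] at h
    exact DirectSum.decompose_of_mem_same (fun i : ℕ => ⋀[ℝ]^i (GV I)) h
  · exact DirectSum.decompose_of_mem_ne (fun i : ℕ => ⋀[ℝ]^i (GV I)) h h2

theorem deg2_even {I : Type} (F : Gr I) : deg2 F ∈ CliffordAlgebra.even (0 : QuadraticForm ℝ (GV I)) := by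
  have h : deg2 F ∈ ⋀[ℝ]^2 (GV I) := by
    unfold deg2
    rw [GradedAlgebra.proj_apply]
    exact SetLike.coe_mem _
  have h2 : ⋀[ℝ]^2 (GV I) ≤ CliffordAlgebra.evenOdd (0 : QuadraticForm ℝ (GV I)) 0 :=
    le_iSup (fun j : {n : ℕ // (n : ZMod 2) = 0} =>
      LinearMap.range (CliffordAlgebra.ι (0 : QuadraticForm ℝ (GV I))) ^ (j : ℕ)) ⟨2, rfl⟩
  exact h2 h

theorem ev2_pair {I : Type} (f f' : I → ℝ) (u v : GV I) :
    ev2 f f' (ιE u * ιE v) = pr u f * pr v f' - pr u f' * pr v f := by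
  have h1 : (ιE u * ιE v : Gr I) = wedge [u, v] := by rw [wedge_cons, wedge_cons, wedge_nil, mul_one]
  have h2 : deg2 (ιE u * ιE v : Gr I) = ιE u * ιE v := by rw [h1, deg2_wedge]; exact if_pos rfl
  have h3 : bil (fun i j => f i * f' j - f' i * f j) =
      (Finsupp.linearCombination ℝ f).smulRight (Finsupp.linearCombination ℝ f') -
        (Finsupp.linearCombination ℝ f').smulRight (Finsupp.linearCombination ℝ f) :=
    bil_ext fun i j => by
      rw [bil_single]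
      simp only [LinearMap.sub_apply, LinearMap.smulRight_apply, LinearMap.smul_apply, Finsupp.linearCombination_single,
        smul_eq_mul, one_mul]
      ring
  have h4 : ∀ d : Module.Dual ℝ (GV I), ctr d (ιE v) = d v • (1 : Gr I) := fun d => by
    have := ctr_iota_mul d v 1
    rwa [mul_one, ctr_one, mul_zero, sub_zero] at this
  unfold ev2
  rw [LinearMap.comp_apply, h2, gauss_iota_mul]
  change gauss _ (ctr _ _) = _
  rw [h4, map_smul, gauss_one, h3]
  simp only [LinearMap.sub_apply, LinearMap.smulRight_apply, LinearMap.smul_apply, smul_eq_mul, mul_one, pr]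

theorem ev2_wedge {I : Type} (f f' : I → ℝ) (l : List (GV I)) (h : l.length ≠ 2) : ev2 f f' (wedge l) = 0 := by
  unfold ev2
  rw [LinearMap.comp_apply, deg2_wedge, if_neg h, map_zero]

/-- `abs_lin_le` -/
theorem abs_ev2_le {I : Type} {U : Set (GV I)} {f f' : I → ℝ} {a a' : ℝ} (ha : 0 ≤ a) (ha' : 0 ≤ a')
    (h : ∀ u ∈ U, |pr u f| ≤ a ∧ |pr u f'| ≤ a') {F : Gr I} {c : ℝ} (hc : GBd U F c) : |ev2 f f' F| ≤ 2 * a * a' * c := by
  refine abs_lin_le (ev2 f f') (by positivity) (fun l hl => ?_) hc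
  by_cases h2 : l.length = 2
  · obtain ⟨u, v, rfl⟩ := List.length_eq_two.1 h2
    rw [wedge_cons, wedge_cons, wedge_nil, mul_one, ev2_pair]
    obtain ⟨h1, h1'⟩ := h u (hl u (by simp))
    obtain ⟨h3, h3'⟩ := h v (hl v (by simp))
    refine (abs_sub _ _).trans ?_
    rw [abs_mul, abs_mul]
    have e1 := mul_le_mul h1 h3' (abs_nonneg _) ha
    have e2 := mul_le_mul h1' h3 (abs_nonneg _) ha'
    linarith
  · rw [ev2_wedge f f' l h2, abs_zero]
    positivity

/-- a list containing a multiple of `ζ` is killed by `ι ζ` -/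
theorem iota_mul_wedge_zero {I : Type} (ζ : GV I) (l : List (GV I)) (t : ℝ) (h : t • ζ ∈ l) : ιE ζ * wedge l = 0 := by
  induction l with
  | nil => simp at h
  | cons u l ih =>
    rw [wedge_cons, ← mul_assoc]
    rcases List.mem_cons.1 h with rfl | h
    · rw [map_smul, mul_smul_comm, ExteriorAlgebra.ι_sq_zero, smul_zero, zero_mul]
    · rw [iota_swap, neg_mul, mul_assoc, ih h, mul_zero, neg_zero]

theorem ctr_wedge_zero {I : Type} (d : Module.Dual ℝ (GV I)) (l : List (GV I)) (h : ∀ u ∈ l, d u = 0) :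
    ctr d (wedge l) = 0 := by
  induction l with
  | nil => rw [wedge_nil, ctr_one]
  | cons u l ih =>
    rw [wedge_cons, ctr_iota_mul, h u List.mem_cons_self, ih fun v hv => h v (List.mem_cons_of_mem _ hv)]
    simp

theorem c2_lin {I : Type} {U : Set (GV I)} (R : Gr I →ₗ[ℝ] Gr I) {κ : ℝ} (hκ : 0 ≤ κ)
    (h : ∀ l : List (GV I), (∀ u ∈ l, u ∈ U) → GBd U (R (wedge l)) κ) {F : Gr I} {c : ℝ} (hc : GBd U F c) :
    GBd U (R F) (κ * c) := by
  obtain ⟨L, h1, rfl, h3⟩ := hc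
  refine GBd.mono ?_ subset_rfl (mul_le_mul_of_nonneg_left h3 hκ)
  clear h3
  induction L with
  | nil => simpa using GBd.zero U
  | cons p L ih =>
    simp only [List.map_cons, List.sum_cons, map_add, map_smul, mul_add]
    rw [mul_comm κ]
    exact ((h p.2 (h1 p List.mem_cons_self)).smul p.1).add (ih fun q hq => h1 q (List.mem_cons_of_mem _ hq))

/-- monomial by monomial, induction on the list with `ctr_iota_mul`: if `d u = 0` use the induction hypothesis; if `u = t ζ` either no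
other vector has `d ≠ 0` (`ctr_wedge_zero`) or the wedge vanishes (`iota_mul_wedge_zero`) -/
theorem gbd_ctr {I : Type} {U : Set (GV I)} (q : I) {τ : ℝ} (hτ : 0 ≤ τ)
    (h : ∀ u ∈ U, u q = 0 ∨ ∃ t : ℝ, |t| ≤ τ ∧ u = t • Finsupp.single q (1 : ℝ)) {F : Gr I} {c : ℝ} (hc : GBd U F c) :
    GBd U (ctr (Finsupp.lapply q) F) (τ * c) := by
  refine c2_lin _ hτ (fun l hl => ?_) hc
  induction l with
  | nil => rw [wedge_nil, ctr_one]; exact (GBd.zero U).mono subset_rfl hτ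
  | cons u l ih =>
    have hl' : ∀ v ∈ l, v ∈ U := fun v hv => hl v (List.mem_cons_of_mem _ hv)
    rcases h u (hl u List.mem_cons_self) with h0 | ⟨t, ht, rfl⟩
    · have := ((ih hl').wedge_mul (l := [u]) (by simpa using hl u List.mem_cons_self)).smul (-1)
      rw [wedge_cons, ctr_iota_mul, Finsupp.lapply_apply, h0]
      simpa [wedge_cons, wedge_nil] using this
    · by_cases h1 : ∀ v ∈ l, v q = 0
      · have := ((GBd.one U).wedge_mul hl').smul t
        rw [wedge_cons, ctr_iota_mul, ctr_wedge_zero _ l h1]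
        simpa using this.mono subset_rfl (by simpa using ht)
      · push Not at h1
        obtain ⟨v, hv, h1⟩ := h1
        obtain ⟨t', -, rfl⟩ := (h v (hl' v hv)).resolve_left h1
        rw [wedge_cons, map_smul, smul_mul_assoc, iota_mul_wedge_zero _ l t' hv, smul_zero, map_zero]
        exact (GBd.zero U).mono subset_rfl hτ

theorem gbd_dTau {U : Set (GV Ix)} (k : ℕ) {τ : ℝ} (hτ : 0 ≤ τ)
    (h : ∀ u ∈ U, SF u ∨ ∃ k' b, ∃ t : ℝ, |t| ≤ τ ∧ u = t • dz k' b) {F : Gr Ix} {c : ℝ} (hc : GBd U F c) :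
    GBd U (dTau k F) (τ ^ 2 * c) := by
  have key : ∀ b, ∀ u ∈ U, u (Sum.inr (k, b)) = 0 ∨
      ∃ t : ℝ, |t| ≤ τ ∧ u = t • Finsupp.single (Sum.inr (k, b) : Ix) (1 : ℝ) := fun b u hu => by
    rcases h u hu with h0 | ⟨k', b', t, ht, rfl⟩
    · exact Or.inl (h0 _)
    · by_cases e : (k', b') = (k, b)
      · obtain ⟨rfl, rfl⟩ := Prod.ext_iff.1 e
        exact Or.inr ⟨t, ht, rfl⟩
      · left
        rw [Finsupp.smul_apply, dz, Finsupp.single_eq_of_ne (fun h => e (Sum.inr_injective h).symm), smul_zero]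
  have := gbd_ctr _ hτ (key true) (gbd_ctr _ hτ (key false) hc)
  rwa [← mul_assoc, ← sq] at this

theorem dTau_sf (k : ℕ) (l : List (GV Ix)) (hl : ∀ u ∈ l, SF u) : dTau k (wedge l) = 0 := by
  change ctr _ (ctr _ (wedge l)) = 0
  rw [ctr_wedge_zero (Finsupp.lapply (Sum.inr (k, false))) l fun u hu => hl u hu _, map_zero]

theorem dTau_tau_mul (k : ℕ) (l : List (GV Ix)) (hl : ∀ u ∈ l, SF u) :
    dTau k (((tau k : Al) : Gr Ix) * wedge l) = wedge l := by
  change ctr _ (ctr _ (ιE _ * ιE _ * wedge l)) = wedge l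
  rw [mul_assoc, ctr_iota_mul, ctr_iota_mul, ctr_wedge_zero (Finsupp.lapply (Sum.inr (k, false))) l fun u hu => hl u hu _]
  simp only [Finsupp.lapply_apply, Finsupp.single_eq_same, one_smul, mul_zero, sub_zero]
  rw [Finsupp.single_eq_of_ne (by simp), zero_smul, mul_zero, sub_zero, ctr_iota_mul,
    ctr_wedge_zero (Finsupp.lapply (Sum.inr (k, true))) l fun u hu => hl u hu _]
  simp

/-- an even, non-empty list of multiples of `ζ_k, ζ'_k` -/
theorem wedge_src (k : ℕ) {τ : ℝ} (hτ : 0 ≤ τ) (l : List (GV Ix)) (hl : ∀ u ∈ l, ∃ b, ∃ t : ℝ, |t| ≤ τ ∧ u = t • dz k b)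
    (he : Even l.length) (hne : l ≠ []) : ∃ a : ℝ, |a| ≤ τ ^ 2 ∧ wedge l = a • ((tau k : Al) : Gr Ix) := by
  have h0 : |(0 : ℝ)| ≤ τ ^ 2 := by simpa using sq_nonneg τ
  match l, hl, he, hne with
  | [], _, _, hne => exact absurd rfl hne
  | [u], _, he, _ => simp at he
  | [u, v], hl, _, _ =>
    obtain ⟨b, t, ht, rfl⟩ := hl u (by simp)
    obtain ⟨b', t', ht', rfl⟩ := hl v (by simp)
    have h1 : |t * t'| ≤ τ ^ 2 := by rw [abs_mul, sq]; exact mul_le_mul ht ht' (abs_nonneg _) hτ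
    have e : wedge [t • dz k b, t' • dz k b'] = (t * t') • (ιE (dz k b : GV Ix) * ιE (dz k b')) := by
      simp only [wedge_cons, wedge_nil, map_smul, mul_one, smul_mul_assoc, mul_smul_comm, smul_smul, mul_comm t']
    have e' : ((tau k : Al) : Gr Ix) = ιE (dz k false) * ιE (dz k true) := rfl
    rw [e, e']
    cases b <;> cases b'
    · exact ⟨0, h0, by simp⟩
    · exact ⟨t * t', h1, rfl⟩
    · exact ⟨-(t * t'), by rwa [abs_neg], by rw [iota_swap, smul_neg, neg_smul]⟩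
    · exact ⟨0, h0, by simp⟩
  | u :: v :: w :: l, hl, _, _ =>
    obtain ⟨b, t, ht, rfl⟩ := hl u (by simp)
    obtain ⟨b', t', ht', rfl⟩ := hl v (by simp)
    obtain ⟨b'', t'', ht'', rfl⟩ := hl w (by simp)
    refine ⟨0, h0, ?_⟩
    rw [zero_smul, wedge_cons, map_smul, smul_mul_assoc]
    by_cases e1 : b = b'
    · rw [iota_mul_wedge_zero _ _ t' (by simp [e1]), smul_zero]
    by_cases e2 : b = b''
    · rw [iota_mul_wedge_zero _ _ t'' (by simp [e2]), smul_zero]
    have e3 : b' = b'' := by revert e1 e2; cases b <;> cases b' <;> cases b'' <;> simp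
    rw [wedge_cons, map_smul, smul_mul_assoc, iota_mul_wedge_zero _ _ t'' (by simp [e3]), smul_zero, mul_zero, smul_zero]

end Crest.Agent.R165.D2
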