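import Crest.Agent.R165.D2.Alg1

/-! # R165/D2/Alg2 (owner helper6): algebra of the jets (plane gauge) and of the remainder `Rm` -/

set_option autoImplicit false
set_option linter.unusedVariables false
noncomputable section
open Classical

namespace Crest.Agent.R165.D2

local notation "ιE" => ExteriorAlgebra.ι ℝ

/-! ### part a: transposes, degree two remainders -/

theorem pr_zRe (z : Site) (f : Fn) : pr (zRe z) (extF f) = (fld f z).re := by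
  simp only [zRe, fld, Fin.sum_univ_four, pr_add, pr_smul, pr_dl]
  simp
  ring
theorem pr_zIm (z : Site) (f : Fn) : pr (zIm z) (extF f) = (fld f z).im := by
  simp only [zIm, fld, Fin.sum_univ_four, pr_add, pr_smul, pr_dl]
  simp
  ring
theorem pr_zMas (z : Site) (α : Fin 4) (f : Fn) : pr (zMas z α) (extF f) = mas f (z, α) := by
  simp only [zMas, pr_sub, pr_smul, pr_dl, pr_zRe, pr_zIm, mas, cSol]
  simp
  ring
theorem cSol_lin (c : ℂ) : cSol c = c.re • cSol 1 + c.im • cSol Complex.I := by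
  funext i
  simp [cSol]
  ring
/-- `pr_rk1`, `cSol_lin` -/
theorem pr_P0 (z : Site) (u : GV Ix) (f : Fn) : pr (P0 z u) (extF f) = pr u (extF (T0 z f)) := by
  rw [T0, cSol_lin, pr_extF_add, pr_extF_smul, pr_extF_smul]
  simp only [P0, LinearMap.add_apply, pr_add, pr_rk1, pr_zRe, pr_zIm]
  ring
theorem pr_P1 (z : Site) (u : GV Ix) (f : Fn) : pr (P1 z u) (extF f) = pr u (extF (T1 z f)) := by
  have e : T1 z f = ((fld f (z + (1, 0))).re - (fld f (z - (1, 0))).re) • (1 / 2 : ℝ) • (fOf z fun w => w.re) +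
      ((fld f (z + (1, 0))).im - (fld f (z - (1, 0))).im) • (1 / 2 : ℝ) • (fOf z fun w => w.re * Complex.I) +
      ((fld f (z + (0, 1))).re - (fld f (z - (0, 1))).re) • (1 / 2 : ℝ) • (fOf z fun w => w.im) +
      ((fld f (z + (0, 1))).im - (fld f (z - (0, 1))).im) • (1 / 2 : ℝ) • (fOf z fun w => w.im * Complex.I) +
      ∑ α : Fin 4, mas f (z, α) • fun i : HE => if i.2 = α then (1 : ℝ) else 0 := by
    funext i
    simp [T1, fOf, cSol, toC, Finset.sum_apply]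
    ring
  rw [e]
  simp only [P1, LinearMap.add_apply, pr_add, pr_sub, pr_smul, pr_rk1, pr_zRe, pr_zIm, pr_zMas, Fin.sum_univ_four,
    pr_extF_add, pr_extF_smul]
  ring
theorem P0_src (z : Site) {u : GV Ix} (hu : Src u) : P0 z u = 0 ∧ P1 z u = 0 := by
  obtain ⟨k, b, t, rfl⟩ := hu
  have h : ∀ (f : Fn) (v : GV Ix), rk1 (extF f) v (dz k b) = 0 := fun f v => by simp [rk1, dz, extF]
  simp [P0, P1, h]

theorem jet2_pair (z : Site) (u v : GV Ix) : jet2 z (ιE u * ιE v) =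
    ιE (P0 z u) * ιE (P0 z v) + ιE (P0 z u) * ιE (P1 z v) + ιE (P1 z u) * ιE (P0 z v) := by
  have h : ∀ a b : GV Ix, deg2 (ιE a * ιE b) = ιE a * ιE b := fun a b => by simpa [wedge] using deg2_wedge [a, b]
  simp only [jet2, gmap, LinearMap.comp_apply, LinearMap.sub_apply, AlgHom.toLinearMap_apply, map_mul,
    ExteriorAlgebra.map_apply_ι, map_sub, h]
  simp only [LinearMap.add_apply, map_add, add_mul, mul_add]
  abel
theorem P0_pair (z : Site) (u v : GV Ix) :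
    ιE (P0 z u) * ιE (P0 z v) = nu0 (ιE u * ιE v) • (ιE (zRe z) * ιE (zIm z)) := by
  have h : ∀ (f : Ix → ℝ) (w u : GV Ix), rk1 f w u = pr u f • w := fun _ _ _ => rfl
  simp only [P0, nu0, ev2_pair, LinearMap.add_apply, h, map_add, map_smul, add_mul, mul_add, smul_mul_assoc,
    mul_smul_comm, ExteriorAlgebra.ι_sq_zero, iota_swap (zIm z) (zRe z)]
  module

/-- `u v - jet2 (u v) = Qu Qv + P0u Rv + Ru P0v`, `Q = 1 - P0`, `R = 1 - P0 - P1` -/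
theorem jet_rem {z : Site} {A U' : Set (GV Ix)} {κ₀ κ₁ κ₂ : ℝ} (h : Jet z A U' κ₀ κ₁ κ₂) (h₀ : 0 ≤ κ₀) (h₁ : 0 ≤ κ₁) (h₂ : 0 ≤ κ₂)
    {u v : GV Ix} (hu : u ∈ A) (hv : v ∈ A) :
    GBd U' (ιE u * ιE v - jet2 z (ιE u * ιE v)) (κ₁ ^ 2 + 2 * κ₀ * κ₂) := by
  have := ((((h.h1 u hu).gbd h₁).mul ((h.h1 v hv).gbd h₁)).add (((h.h0 u hu).gbd h₀).mul ((h.h2 v hv).gbd h₂))).add
    (((h.h2 u hu).gbd h₂).mul ((h.h0 v hv).gbd h₀))
  convert this using 1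
  · simp only [jet2_pair, map_sub]
    noncomm_ring
  · ring
/-- `u v - P0u P0v = Qu Qv + P0u Qv + Qu P0v` -/
theorem p0_rem {z : Site} {A U' : Set (GV Ix)} {κ₀ κ₁ κ₂ : ℝ} (h : Jet z A U' κ₀ κ₁ κ₂) (h₀ : 0 ≤ κ₀) (h₁ : 0 ≤ κ₁)
    {u v : GV Ix} (hu : u ∈ A) (hv : v ∈ A) :
    GBd U' (ιE u * ιE v - nu0 (ιE u * ιE v) • (ιE (zRe z) * ιE (zIm z))) (κ₁ ^ 2 + 2 * κ₀ * κ₁) := by
  have := ((((h.h1 u hu).gbd h₁).mul ((h.h1 v hv).gbd h₁)).add (((h.h0 u hu).gbd h₀).mul ((h.h1 v hv).gbd h₁))).add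
    (((h.h1 u hu).gbd h₁).mul ((h.h0 v hv).gbd h₀))
  convert this using 1
  · simp only [← P0_pair, map_sub]
    noncomm_ring
  · ring

/-! ### part b: `loc2`, the observable, `kX` -/

theorem coe_eM (e : Edge) : ((eM Sum.inl e : Al) : Gr Ix) = ιE (dl (he0 e)) * ιE (dl (he1 e)) := by
  rfl
theorem nu0_eM (e : Edge) : nu0 ((eM Sum.inl e : Al) : Gr Ix) = -1 := by
  obtain ⟨x, j⟩ := e
  rw [coe_eM, nu0, ev2_pair, pr_dl, pr_dl, pr_dl, pr_dl]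
  have h := b1_r
  fin_cases j
  · change cSol 1 (x, 0) * cSol Complex.I (x + uv 0, 2) - cSol Complex.I (x, 0) * cSol 1 (x + uv 0, 2) = -1
    simp only [cSol_0, cSol_2, Complex.one_re, Complex.one_im, Complex.I_re, Complex.I_im]
    ring
  · change cSol 1 (x, 1) * cSol Complex.I (x + uv 1, 3) - cSol Complex.I (x, 1) * cSol 1 (x + uv 1, 3) = -1
    simp only [cSol_1, cSol_3, Complex.one_re, Complex.one_im, Complex.I_re, Complex.I_im]
    linear_combination (-1 / 2 : ℝ) * h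
theorem he_mem_Dl (z : Site) (α : Fin 4) : dl (he0 (edgeOf z α)) ∈ Dl z ∧ dl (he1 (edgeOf z α)) ∈ Dl z := by
  obtain ⟨a, b⟩ := z
  refine b1_fin4 (p := fun α => dl (he0 (edgeOf (a, b) α)) ∈ Dl (a, b) ∧ dl (he1 (edgeOf (a, b) α)) ∈ Dl (a, b))
    ?_ ?_ ?_ ?_ α
  · rw [edgeOf_0]
    exact ⟨⟨_, by simp [he0, supd], rfl⟩, ⟨_, by simp [he1, add_uv_0, supd], rfl⟩⟩
  · rw [edgeOf_1]
    exact ⟨⟨_, by simp [he0, supd], rfl⟩, ⟨_, by simp [he1, add_uv_1, supd], rfl⟩⟩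
  · rw [edgeOf_2]
    exact ⟨⟨_, by simp [he0, supd], rfl⟩, ⟨_, by simp [he1, add_uv_0, supd], rfl⟩⟩
  · rw [edgeOf_3]
    exact ⟨⟨_, by simp [he0, supd], rfl⟩, ⟨_, by simp [he1, add_uv_1, supd], rfl⟩⟩
theorem abs_nu0_le {z : Site} {A : Set (GV Ix)} {a a' : ℝ} (h : Fb z A a a') (ha : 0 ≤ a) {F : Gr Ix} {c : ℝ} (hc : GBd A F c) :
    |nu0 F| ≤ 2 * a ^ 2 * c := by
  have := abs_ev2_le ha ha (fun u hu => ⟨h.c1 u hu, h.cI u hu⟩) hc
  rw [nu0]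
  linarith
/-- `1 / (2 tc) ≤ 3 / 2` -/
theorem abs_nuF_zF_le {z : Site} {A : Set (GV Ix)} {a a' : ℝ} (h : Fb z A a a') (ha : 0 ≤ a) (ha' : 0 ≤ a') {F : Gr Ix} {c : ℝ}
    (hc : GBd A F c) : |nuF F| ≤ a ^ 2 * c ∧ |zF z F| ≤ (6 * a * a' + 3 * a ^ 2) * c := by
  have h0 := abs_nu0_le h ha hc
  have h1 := abs_ev2_le ha ha' (fun u hu => ⟨h.c1 u hu, h.l1 u hu⟩) hc
  have h2 := abs_ev2_le ha ha' (fun u hu => ⟨h.cI u hu, h.lI u hu⟩) hc
  have ht := tc_pos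
  have ht2 := tc_sq
  have ht3 : 1 / 3 ≤ tc := by nlinarith
  constructor
  · rw [nuF, LinearMap.smul_apply, smul_eq_mul, abs_mul, show |(-1 / 2 : ℝ)| = 1 / 2 by norm_num [abs_of_neg]]
    linarith
  · have h3 : |(-1 / (2 * tc) : ℝ)| ≤ 3 / 2 := by
      rw [abs_div, abs_neg, abs_one, abs_of_pos (by linarith [ht.1]), div_le_iff₀ (by linarith [ht.1])]
      linarith
    have h4 : |(z0 z - nu0) F| ≤ (4 * a * a' + 2 * a ^ 2) * c := by
      rw [LinearMap.sub_apply, z0, LinearMap.add_apply]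
      refine (abs_sub _ _).trans ((add_le_add_left (abs_add_le _ _) _).trans ?_)
      linarith
    rw [zF, LinearMap.smul_apply, smul_eq_mul, abs_mul]
    have := mul_le_mul h3 h4 (abs_nonneg _) (by norm_num)
    linarith

theorem alb_lin {z : Site} {U' : Set (GV Ix)} (R : Gr Ix →ₗ[ℝ] Gr Ix) {κ : ℝ} (hκ : 0 ≤ κ)
    (h : ∀ u ∈ Dl z, ∀ v ∈ Dl z, GBd U' (R (ιE u * ιE v)) κ) :
    GBd U' (R (mX wPl z : Gr Ix)) (2 * κ) ∧ GBd U' (R (kX wPl z : Gr Ix)) (8 * κ) := by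
  have ht := tc_pos
  have he : ∀ (c : ℝ) (α : Fin 4), GBd U' (R ((c • eM Sum.inl (edgeOf z α) : Al) : Gr Ix)) (|c| * κ) := fun c α => by
    rw [Subalgebra.coe_smul, map_smul, coe_eM]
    exact (h _ (he_mem_Dl z α).1 _ (he_mem_Dl z α).2).smul c
  constructor
  · rw [mX, AddSubmonoidClass.coe_finset_sum, map_sum]
    refine (GBd.sum Finset.univ fun α _ => he _ α).mono le_rfl (le_of_eq ?_)
    have : wPl (edgeOf z 0) / (2 * tc) = 1 / 2 := by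
      rw [wPl]; field_simp [ht.1.ne']
    simp only [wPl] at this ⊢
    rw [this, Finset.sum_const, Finset.card_univ, Fintype.card_fin, abs_of_pos (by norm_num : (0 : ℝ) < 1 / 2), nsmul_eq_mul]
    push_cast
    ring
  · rw [kX, Subalgebra.coe_add, map_add, AddSubmonoidClass.coe_finset_sum, map_sum]
    have h1 : GBd U' (R (a0M Sum.inl z : Al)) (∑ α : Fin 4, ∑ β : Fin 4, if α < β then κ else 0) := by
      rw [a0M, AddSubmonoidClass.coe_finset_sum, map_sum]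
      refine GBd.sum Finset.univ fun α _ => ?_
      rw [AddSubmonoidClass.coe_finset_sum, map_sum]
      refine GBd.sum Finset.univ fun β _ => ?_
      split_ifs
      · exact h (dl (z, α)) ⟨_, by simp [supd], rfl⟩ (dl (z, β)) ⟨_, by simp [supd], rfl⟩
      · rw [ZeroMemClass.coe_zero, map_zero]; exact GBd.zero _
    refine (h1.add (GBd.sum Finset.univ fun α _ => he _ α)).mono le_rfl ?_
    have h2 : (∑ α : Fin 4, ∑ β : Fin 4, if α < β then κ else 0) = 6 * κ := by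
      simp +decide only [Fin.sum_univ_four, if_true, if_false]; ring
    simp only [wPl]
    rw [h2, Finset.sum_const, Finset.card_univ, Fintype.card_fin, abs_of_pos (by linarith [ht.1]), nsmul_eq_mul]
    push_cast
    nlinarith [ht.2]

theorem alb_pair {A : Set (GV Ix)} {u v : GV Ix} (hu : u ∈ A) (hv : v ∈ A) : GBd A (ιE u * ιE v) 1 :=
  ⟨[(1, [u, v])], by simp [hu, hv], by simp [wedge], by simp⟩

/-- `mX = ½ Σ_α eM`, `kX = a0M + Σ_α (tc/2) eM`: total weights `2` and `≤ 8`; `jet_rem` on each monomial -/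
theorem mk_rem {z : Site} {U' : Set (GV Ix)} {d₀ d₁ d₂ : ℝ} (h : Jet z (Dl z) U' d₀ d₁ d₂) (h₀ : 0 ≤ d₀) (h₁ : 0 ≤ d₁) (h₂ : 0 ≤ d₂) :
    GBd U' ((mX wPl z : Gr Ix) - jet2 z (mX wPl z)) (2 * (d₁ ^ 2 + 2 * d₀ * d₂)) ∧
    GBd U' ((kX wPl z : Gr Ix) - jet2 z (kX wPl z)) (8 * (d₁ ^ 2 + 2 * d₀ * d₂)) := by
  exact alb_lin (LinearMap.id - jet2 z) (by positivity) fun u hu v hv => jet_rem h h₀ h₁ h₂ hu hv

/-- **bulk, degree two** (`jet_rem`, `mk_rem`, `abs_nuF_zF_le`) -/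
theorem bulk2 {z : Site} {A U' : Set (GV Ix)} {κ₀ κ₁ κ₂ d₀ d₁ d₂ a a' : ℝ} (h : Jet z A U' κ₀ κ₁ κ₂)
    (hd : Jet z (Dl z) U' d₀ d₁ d₂) (hf : Fb z A a a') (h₀ : 0 ≤ κ₀) (h₁ : 0 ≤ κ₁) (h₂ : 0 ≤ κ₂) (k₀ : 0 ≤ d₀) (k₁ : 0 ≤ d₁)
    (k₂ : 0 ≤ d₂) (ha : 0 ≤ a) (ha' : 0 ≤ a') {u v : GV Ix} (hu : u ∈ A) (hv : v ∈ A) :
    GBd U' (ιE u * ιE v - loc2 z (ιE u * ιE v))
      (κ₁ ^ 2 + 2 * κ₀ * κ₂ + 50 * (a ^ 2 + a * a') * (d₁ ^ 2 + 2 * d₀ * d₂)) := by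
  obtain ⟨m1, m2⟩ := mk_rem hd k₀ k₁ k₂
  obtain ⟨n1, n2⟩ := abs_nuF_zF_le hf ha ha' (alb_pair hu hv)
  have e : ιE u * ιE v - loc2 z (ιE u * ιE v) = (ιE u * ιE v - jet2 z (ιE u * ιE v)) +
      (-nuF (ιE u * ιE v)) • ((mX wPl z : Gr Ix) - jet2 z (mX wPl z)) +
      (-zF z (ιE u * ιE v)) • ((kX wPl z : Gr Ix) - jet2 z (kX wPl z)) := by
    simp only [loc2, LinearMap.add_apply, LinearMap.smulRight_apply]
    module
  rw [e]
  refine (((jet_rem h h₀ h₁ h₂ hu hv).add (m1.smul _)).add (m2.smul _)).mono le_rfl ?_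
  rw [abs_neg, abs_neg]
  have hD : 0 ≤ d₁ ^ 2 + 2 * d₀ * d₂ := by positivity
  have b1 := mul_le_mul_of_nonneg_right n1 hD
  have b2 := mul_le_mul_of_nonneg_right n2 hD
  have b3 : 0 ≤ a ^ 2 * (d₁ ^ 2 + 2 * d₀ * d₂) := by positivity
  have b4 : 0 ≤ a * a' * (d₁ ^ 2 + 2 * d₀ * d₂) := by positivity
  linarith

/-- **observable, degree two**: the `P0 ∧ P0` parts cancel (`p0_rem` for `u v` and for `eM e`, `nu0_eM`) -/
theorem obs2 {e : Edge} {A U' : Set (GV Ix)} {κ₀ κ₁ κ₂ d₀ d₁ d₂ a a' : ℝ} (h : Jet e.1 A U' κ₀ κ₁ κ₂)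
    (hd : Jet e.1 (Dl e.1) U' d₀ d₁ d₂) (hf : Fb e.1 A a a') (h₀ : 0 ≤ κ₀) (h₁ : 0 ≤ κ₁) (k₀ : 0 ≤ d₀) (k₁ : 0 ≤ d₁)
    (ha : 0 ≤ a) {u v : GV Ix} (hu : u ∈ A) (hv : v ∈ A) :
    GBd U' (ιE u * ιE v + nu0 (ιE u * ιE v) • ((eM Sum.inl e : Al) : Gr Ix))
      (κ₁ ^ 2 + 2 * κ₀ * κ₁ + 2 * a ^ 2 * (d₁ ^ 2 + 2 * d₀ * d₁)) := by
  have hm : dl (he0 e) ∈ Dl e.1 ∧ dl (he1 e) ∈ Dl e.1 := by
    obtain ⟨x, j⟩ := e
    fin_cases j
    · exact he_mem_Dl x 0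
    · exact he_mem_Dl x 1
  have m1 := p0_rem hd k₀ k₁ hm.1 hm.2
  rw [← coe_eM, nu0_eM] at m1
  have n1 := abs_nu0_le hf ha (alb_pair hu hv)
  have e1 : ιE u * ιE v + nu0 (ιE u * ιE v) • ((eM Sum.inl e : Al) : Gr Ix) =
      (ιE u * ιE v - nu0 (ιE u * ιE v) • (ιE (zRe e.1) * ιE (zIm e.1))) +
        nu0 (ιE u * ιE v) • (((eM Sum.inl e : Al) : Gr Ix) - (-1 : ℝ) • (ιE (zRe e.1) * ιE (zIm e.1))) := by
    module
  rw [e1]
  refine ((p0_rem h h₀ h₁ hu hv).add (m1.smul _)).mono le_rfl ?_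
  have hD : 0 ≤ d₁ ^ 2 + 2 * d₀ * d₁ := by positivity
  have b1 := mul_le_mul_of_nonneg_right n1 hD
  linarith

theorem a2b2_mX (w : Edge → ℝ) (z : Site) : (mX w z : Gr Ix) = ∑ α : Fin 4, (w (edgeOf z α) / (2 * tc)) •
    (ιE (dl (he0 (edgeOf z α))) * ιE (dl (he1 (edgeOf z α)))) := by
  simp only [mX, AddSubmonoidClass.coe_finsetSum, Subalgebra.coe_smul, coe_eM]

theorem a2b2_kX (w : Edge → ℝ) (z : Site) : (kX w z : Gr Ix) =
    (∑ α : Fin 4, ∑ β : Fin 4, if α < β then ιE (dl (z, α)) * ιE (dl (z, β)) else 0) +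
      ∑ α : Fin 4, (w (edgeOf z α) / 2) • (ιE (dl (he0 (edgeOf z α))) * ιE (dl (he1 (edgeOf z α)))) := by
  simp only [kX, a0M, Subalgebra.coe_add, AddSubmonoidClass.coe_finsetSum, Subalgebra.coe_smul, coe_eM,
    apply_ite Subtype.val, Subalgebra.coe_zero]
  rfl

theorem a2b2_mk {z : Site} {U' : Set (GV Ix)} (R : Gr Ix →ₗ[ℝ] Gr Ix) {c : ℝ} (hc : 0 ≤ c)
    (h : ∀ u ∈ Dl z, ∀ v ∈ Dl z, GBd U' (R (ιE u * ιE v)) c) :
    GBd U' (R (mX wPl z)) (2 * c) ∧ GBd U' (R (kX wPl z)) (8 * c) := by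
  have he := fun α => h _ (he_mem_Dl z α).1 _ (he_mem_Dl z α).2
  have hz : ∀ α, dl (z, α) ∈ Dl z := fun α => ⟨(z, α), by simp [supd], rfl⟩
  obtain ⟨t0, t1⟩ := tc_pos
  simp only [a2b2_mX, a2b2_kX, map_add, map_sum, map_smul, wPl]
  refine ⟨(GBd.sum _ fun α _ => (he α).smul _).mono subset_rfl ?_,
    ((GBd.sum (c := fun α => ∑ β : Fin 4, if α < β then c else 0) _ fun α _ => GBd.sum _ fun β _ => ?_).add
      (GBd.sum _ fun α _ => (he α).smul _)).mono subset_rfl ?_⟩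
  · rw [show tc / (2 * tc) = 1 / 2 by field_simp, abs_of_pos one_half_pos, Fin.sum_univ_four]
    linarith
  · split_ifs
    exacts [h _ (hz α) _ (hz β), by simpa using GBd.zero U']
  · rw [abs_of_pos (half_pos t0)]
    simp [Fin.sum_univ_four]
    nlinarith

/-- `nu0 (kX) = 0` (`nuF_zF`), `p0_rem` on each of the ten monomials -/
theorem kX_bd {z : Site} {U' : Set (GV Ix)} {d₀ d₁ d₂ : ℝ} (h : Jet z (Dl z) U' d₀ d₁ d₂) (h₀ : 0 ≤ d₀) (h₁ : 0 ≤ d₁) :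
    GBd U' (kX wPl z : Gr Ix) (8 * (d₁ ^ 2 + 2 * d₀ * d₁)) := by
  have h0 : nu0 (kX wPl z : Gr Ix) = 0 := by simpa [nuF] using (nuF_zF z).2.1
  have := (a2b2_mk (LinearMap.id - nu0.smulRight (ιE (zRe z) * ιE (zIm z))) (by positivity)
    fun u hu v hv => p0_rem h h₀ h₁ hu hv).2
  rwa [LinearMap.sub_apply, LinearMap.smulRight_apply, h0, zero_smul, sub_zero] at this

theorem mX_bd {z : Site} {U' : Set (GV Ix)} {d : ℝ} (hd : 0 ≤ d) (h : ∀ u ∈ Dl z, In d U' u) :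
    GBd U' (mX wPl z : Gr Ix) (2 * d ^ 2) := by
  exact (a2b2_mk LinearMap.id (sq_nonneg d) fun u hu v hv => sq d ▸ ((h u hu).gbd hd).mul ((h v hv).gbd hd)).1

theorem loc2_wedge (z : Site) (l : List (GV Ix)) (h : l.length ≠ 2 ∨ ∃ u ∈ l, Src u) : loc2 z (wedge l) = 0 := by
  by_cases h2 : l.length = 2
  · obtain ⟨u, v, rfl⟩ := List.length_eq_two.1 h2
    obtain ⟨s, hs, hs'⟩ := h.resolve_left (not_not.2 h2)
    have h0 : ∀ f, pr s (extF f) = 0 := fun f => by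
      obtain ⟨k, b, t, rfl⟩ := hs'
      rw [pr_smul, pr_dz, mul_zero]
    obtain ⟨p0, p1⟩ := P0_src z hs'
    simp only [List.mem_cons, List.not_mem_nil, or_false] at hs
    rcases hs with rfl | rfl <;>
      simp [loc2, nuF, zF, nu0, z0, wedge_cons, wedge_nil, jet2_pair, ev2_pair, h0, p0, p1]
  · simp [loc2, nuF, zF, nu0, z0, jet2, gmap_wedge, deg2_wedge, ev2_wedge, h2]

theorem a2b2_edge {σ : Site → ℝ} (hσ : IsSign σ) {w : Edge → ℝ} {e : Edge} (h : gaugeW σ w e = tc) (c : ℝ) :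
    gmap (gaugeV σ) ((tc / c) • (ιE (dl (he0 e)) * ιE (dl (he1 e)))) = (w e / c) • (ιE (dl (he0 e)) * ιE (dl (he1 e))) := by
  simp only [map_smul, map_mul, gmap_iota, gaugeV_dl, smul_mul_smul_comm, smul_smul]
  rw [← h, gaugeW, he0, he1]
  congr 1
  rcases hσ e.1 with h | h <;> rcases hσ (e.1 + uv e.2) with h' | h' <;> simp [h, h', neg_div]

/-- the gauge transforms the local forms into the plane ones -/
theorem gauge_mk {𝔤 : Geom} {z : Site} {R : ℕ} (h : Pl 𝔤 z R) :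
    gmap (gaugeV (sgn 𝔤.S z)) (mX wPl z : Gr Ix) = mX 𝔤.w z ∧ gmap (gaugeV (sgn 𝔤.S z)) (kX wPl z : Gr Ix) = kX 𝔤.w z := by
  have hs : sgn 𝔤.S z z * sgn 𝔤.S z z = 1 := by rcases isSign_sgn 𝔤.S z z with h | h <;> simp [h]
  have hw := fun α c => a2b2_edge (isSign_sgn 𝔤.S z) (h z (self_mem_box z R) α) c
  simp only [a2b2_mX, a2b2_kX, map_add, map_sum, wPl, hw, true_and, add_left_inj]
  refine Finset.sum_congr rfl fun α _ => Finset.sum_congr rfl fun β _ => ?_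
  split_ifs
  · simp only [map_mul, gmap_iota, gaugeV_dl, map_smul, smul_mul_smul_comm, hs, one_smul]
  · exact map_zero _
theorem gauge_oK {𝔤 : Geom} {k R : ℕ} (h : Pl 𝔤 (𝔤.y k).1 R) :
    gmap (gaugeV (sgn 𝔤.S (𝔤.y k).1)) (tc • ((eM Sum.inl (𝔤.y k) : Al) : Gr Ix)) = 𝔤.oK k := by
  obtain ⟨α, hα⟩ : ∃ α, edgeOf (𝔤.y k).1 α = 𝔤.y k := by
    rcases 𝔤.y k with ⟨x, j⟩
    fin_cases j
    exacts [⟨0, rfl⟩, ⟨1, rfl⟩]
  have := a2b2_edge (isSign_sgn 𝔤.S _) (h _ (self_mem_box _ R) α) 1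
  simpa only [hα, div_one, Geom.oK, Subalgebra.coe_smul, coe_eM] using this

/-! ### part c: the remainder on monomials -/

section
variable (p : Par) (𝔤 : Geom) (j : ℕ) (x : Site)

/-- the one-particle map of `cstA` -/
abbrev a2c_cst : GV Ix →ₗ[ℝ] GV Ix := vmap (Sum.elim (fun _ => 0) fun q => dz q.1 q.2)

theorem a2c_cst_src {u : GV Ix} (hu : Src u) : a2c_cst u = u := by
  obtain ⟨k, b, t, rfl⟩ := hu
  rw [map_smul, dz, D1.vmap_single]
  rfl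

theorem a2c_cst_sf {u : GV Ix} (hu : SF u) : a2c_cst u = 0 := by
  rw [a2c_cst, vmap, Finsupp.linearCombination_apply, Finsupp.sum]
  refine Finset.sum_eq_zero fun i _ => ?_
  rcases i with i | q
  · exact smul_zero _
  · rw [hu q, zero_smul]

theorem a2c_gauge_src (σ : Site → ℝ) {u : GV Ix} (hu : Src u) : gaugeV σ u = u := by
  obtain ⟨k, b, t, rfl⟩ := hu
  rw [map_smul, gaugeV_dz]

theorem a2c_loc2_even (z : Site) (F : Gr Ix) : loc2 z F ∈ CliffordAlgebra.even (0 : QuadraticForm ℝ (GV Ix)) := by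
  have h : ∀ F, jet2 z F ∈ CliffordAlgebra.even (0 : QuadraticForm ℝ (GV Ix)) := fun F => deg2_even _
  simp only [loc2, LinearMap.add_apply, LinearMap.smulRight_apply]
  exact add_mem (add_mem (h _) (Subalgebra.smul_mem _ (sub_mem (mX wPl z).2 (h _)) _))
    (Subalgebra.smul_mem _ (sub_mem (kX wPl z).2 (h _)) _)

theorem a2c_cst_zero {l : List (GV Ix)} {u : GV Ix} (hu : u ∈ l) (h : SF u) : gmap a2c_cst (wedge l) = 0 := by
  rw [gmap_wedge]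
  exact D1.wedge_eq_zero_of_mem (List.mem_map.2 ⟨u, hu, a2c_cst_sf h⟩)

theorem a2c_loc2G_zero (l : List (GV Ix)) (h : l.length ≠ 2 ∨ ∃ u ∈ l, Src u) : 𝔤.loc2G p j x (wedge l) = 0 := by
  unfold Geom.loc2G
  split_ifs
  · simp only [LinearMap.comp_apply, AlgHom.toLinearMap_apply]
    rw [gmap_wedge, loc2_wedge, map_zero]
    rcases h with h | ⟨u, hu, h⟩
    · exact Or.inl (by rwa [List.length_map])
    · exact Or.inr ⟨u, List.mem_map.2 ⟨u, hu, a2c_gauge_src _ h⟩, h⟩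
  · rfl

theorem a2c_mvG_zero {F : Gr Ix} (h : ∀ k, 𝔤.obsC k F = 0) : 𝔤.mvG p j x F = 0 := by
  rw [Geom.mvG, LinearMap.sum_apply]
  refine Finset.sum_eq_zero fun k _ => ?_
  split_ifs
  · rw [LinearMap.smulRight_apply, h, zero_smul]
  · rfl

theorem a2c_nu0_src (σ : Site → ℝ) {F : Gr Ix} (hF : F ∈ supA (Set.range Sum.inr)) : nu0 (gmap (gaugeV σ) F) = 0 := by
  have h1 : gmap (gaugeV σ) F = gmap a2c_cst F := by
    refine D1.gmap_congr ?_ hF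
    rintro _ ⟨⟨k, b⟩, rfl⟩
    have : Src (Finsupp.single (Sum.inr (k, b)) 1) := ⟨k, b, 1, (one_smul _ _).symm⟩
    rw [a2c_gauge_src σ this, a2c_cst_src this]
  have h2 : ∀ f : Fn, D1.tr a2c_cst (extF f) = 0 := by
    intro f
    funext i
    rw [← D1.pr_single i (D1.tr a2c_cst (extF f)), D1.pr_tr, D1.vmap_single]
    rcases i with i | q
    · simp [pr]
    · exact pr_dz _ _ _
  rw [h1, nu0, D1.ev2_gmap, h2, h2, ← D1.ev2_deg2]
  refine D1.deg2_ext (Ψ := 0) (fun u v => ?_) F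
  rw [D1.ev2_iota_iota]
  simp [pr]

theorem a2c_wedge_src (l : List (GV Ix)) (h : ∀ u ∈ l, Src u) : wedge l ∈ supA (Set.range Sum.inr) := by
  induction l with
  | nil => exact one_mem _
  | cons u l ih =>
    rw [wedge_cons]
    refine mul_mem ?_ (ih fun v hv => h v (List.mem_cons_of_mem _ hv))
    obtain ⟨k, b, t, rfl⟩ := h u List.mem_cons_self
    rw [map_smul]
    exact Subalgebra.smul_mem _ (th_mem_supA (Set.mem_range_self (k, b))) _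

theorem a2c_rm (F : Gr Ix) : Rm p 𝔤 j x F = F - gmap a2c_cst F - 𝔤.loc2G p j x F - 𝔤.mvG p j x F := rfl

theorem coe_evP {I : Type} {F : Gr I} (h : F ∈ CliffordAlgebra.even (0 : QuadraticForm ℝ (GV I))) : ((evP F : Ev I) : Gr I) = F := by
  exact D1.coe_evP_of_mem h
/-- `deg2_even`, `gmap_mem_even`, `coe_evP` -/
theorem coe_loc2G (F : Al) : ((toEv (𝔤.loc2G p j x) F : Al) : Gr Ix) = 𝔤.loc2G p j x F := by
  refine coe_evP ?_
  change 𝔤.loc2G p j x F ∈ _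
  unfold Geom.loc2G
  split_ifs
  · simp only [LinearMap.comp_apply, AlgHom.toLinearMap_apply]
    generalize gmap (gaugeV (sgn 𝔤.S x)) (F : Gr Ix) = G
    have h := a2c_loc2_even x G
    generalize loc2 x G = G' at h
    exact gmap_mem_even _ ⟨G', h⟩
  · exact zero_mem _
theorem coe_mvG (F : Al) : ((toEv (𝔤.mvG p j x) F : Al) : Gr Ix) = 𝔤.mvG p j x F := by
  refine coe_evP ?_
  change 𝔤.mvG p j x F ∈ _
  rw [Geom.mvG, LinearMap.sum_apply]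
  refine sum_mem fun k _ => ?_
  split_ifs
  · exact Subalgebra.smul_mem _ (tau k * 𝔤.oK k : Al).2 _
  · exact zero_mem _
theorem coe_rem (F : Al) :
    ((F - cstA F - toEv (𝔤.loc2G p j x) F - toEv (𝔤.mvG p j x) F : Al) : Gr Ix) = Rm p 𝔤 j x F := by
  rw [a2c_rm, ← coe_loc2G, ← coe_mvG]
  rfl

variable {p 𝔤 j x}
/-- only sources: `gmap` fixes the monomial, `loc2_wedge` (`loc2_mX` for the empty list), `obsC k` vanishes because `dTau k` of it is a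
combination of monomials of sources (e.g. `gbd_dTau` + `abs_ev2_le` with `a = a' = 0`) -/
theorem rm_src (lB : List (GV Ix)) (hB : ∀ u ∈ lB, Src u) : Rm p 𝔤 j x (wedge lB) = 0 := by
  have h1 : gmap a2c_cst (wedge lB) = wedge lB := by
    rw [gmap_wedge, List.map_congr_left (f := a2c_cst) (g := id) fun u hu => a2c_cst_src (hB u hu), List.map_id]
  have h2 : 𝔤.loc2G p j x (wedge lB) = 0 := by
    refine a2c_loc2G_zero p 𝔤 j x lB ?_
    rcases lB with _ | ⟨u, l⟩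
    · exact Or.inl (by simp)
    · exact Or.inr ⟨u, List.mem_cons_self, hB u List.mem_cons_self⟩
  have h3 : 𝔤.mvG p j x (wedge lB) = 0 := by
    refine a2c_mvG_zero p 𝔤 j x fun k => ?_
    simp only [Geom.obsC, LinearMap.smul_apply, LinearMap.comp_apply, AlgHom.toLinearMap_apply]
    rw [a2c_nu0_src, smul_zero]
    exact ctr_mem_supA _ (ctr_mem_supA _ (a2c_wedge_src lB hB))
  rw [a2c_rm, h1, h2, h3, sub_self, sub_zero, sub_zero]
theorem rm_sf (lA : List (GV Ix)) (hA : ∀ u ∈ lA, SF u) (hne : lA ≠ []) :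
    Rm p 𝔤 j x (wedge lA) = wedge lA - 𝔤.loc2G p j x (wedge lA) := by
  obtain ⟨u, hu⟩ := List.exists_mem_of_ne_nil lA hne
  have h3 : 𝔤.mvG p j x (wedge lA) = 0 := by
    refine a2c_mvG_zero p 𝔤 j x fun k => ?_
    simp only [Geom.obsC, LinearMap.smul_apply, LinearMap.comp_apply, AlgHom.toLinearMap_apply]
    rw [dTau_sf k lA hA, map_zero, map_zero, smul_zero]
  rw [a2c_rm, a2c_cst_zero hu (hA u hu), h3, sub_zero, sub_zero]
theorem rm_mix (lB lA : List (GV Ix)) (hB : ∀ u ∈ lB, Src u) (hA : ∀ u ∈ lA, SF u) (hB' : lB ≠ []) (hA' : lA ≠ []) :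
    Rm p 𝔤 j x (wedge lB * wedge lA) = wedge lB * wedge lA - 𝔤.mvG p j x (wedge lB * wedge lA) := by
  obtain ⟨u, hu⟩ := List.exists_mem_of_ne_nil lA hA'
  obtain ⟨v, hv⟩ := List.exists_mem_of_ne_nil lB hB'
  rw [← wedge_append, a2c_rm, a2c_cst_zero (List.mem_append_right _ hu) (hA u hu),
    a2c_loc2G_zero p 𝔤 j x _ (Or.inr ⟨v, List.mem_append_left _ hv, hB v hv⟩), sub_zero, sub_zero]
theorem mvG_clu (h : 𝔤.jN ≤ j) : 𝔤.mvG p j x = 0 := by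
  exact Finset.sum_eq_zero fun k _ => if_neg fun h' => absurd h (not_le.2 h'.1)
/-- exactly one observable is in range -/
theorem mvG_one {k : ℕ} (h : (j : ℕ∞) < 𝔤.jN) (hk : k < 𝔤.m) (hx : supd x (𝔤.y k).1 ≤ 3 * p.l j)
    (hu : ∀ k' < 𝔤.m, supd x (𝔤.y k').1 ≤ 3 * p.l j → k' = k) (F : Gr Ix) :
    𝔤.mvG p j x F = 𝔤.obsC k F • ((tau k * 𝔤.oK k : Al) : Gr Ix) := by
  rw [Geom.mvG, Finset.sum_eq_single_of_mem k (Finset.mem_range.2 hk), if_pos ⟨h, hx⟩, LinearMap.smulRight_apply]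
  exact fun k' hk' hne => if_neg fun h' => hne (hu k' (Finset.mem_range.1 hk') h'.2)
theorem mvG_none (hu : ∀ k < 𝔤.m, ¬ supd x (𝔤.y k).1 ≤ 3 * p.l j) : 𝔤.mvG p j x = 0 := by
  exact Finset.sum_eq_zero fun k hk => if_neg fun h' => hu k (Finset.mem_range.1 hk) h'.2
end

end Crest.Agent.R165.D2
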