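import Crest.Agent.R165.D1.Main
import Crest.Agent.R165.D3.Main
import Crest.Agent.R165.DU.Main

/-! # R165/D2/Base (owner helper6): vocabulary of block D2, duality between `Ups` and `Tst`.
Notation in docstrings: `ℓ = p.l j`, `ℓ' = p.l (j+1) = L ℓ`, `λ = p.lam j = ℓ / 100`, `λ' = p.lam (j+1) = L λ`, `Γ = Gam j`, `Γ' = Gam (j+1)`,
`g = Γ' / Γ = 𝔤.gr j`. -/

set_option autoImplicit false
set_option linter.unusedVariables false
noncomputable section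
open Classical

namespace Crest.Agent.R165.D2

/-- `u ∈ κ • U` -/
def In {I : Type} (κ : ℝ) (U : Set (GV I)) (u : GV I) : Prop := ∃ v ∈ U, u = κ • v
/-- balanced, contains `0` -/
def Bal {I : Type} (U : Set (GV I)) : Prop := (0 : GV I) ∈ U ∧ ∀ u ∈ U, ∀ t : ℝ, |t| ≤ 1 → t • u ∈ U
/-- source-free vector -/
def SF (u : GV Ix) : Prop := ∀ q, u (Sum.inr q) = 0
/-- multiple of a source generator -/
def Src (u : GV Ix) : Prop := ∃ k b, ∃ t : ℝ, u = t • dz k b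
def SuppIn (W : Set Site) (u : GV Ix) : Prop := ∀ i ∈ u.support, ∃ a : HE, i = Sum.inl a ∧ a.1 ∈ W
/-- dual semi-norm -/
def Dn (A : Set (GV Ix)) (f : Fn) (c : ℝ) : Prop := ∀ u ∈ A, |pr u (extF f)| ≤ c

/-- standing hypotheses -/
structure Hyp (p : Par) (K : ℕ) (Γs : ℝ) (𝔤 : Geom) (j : ℕ) : Prop where
  ok : p.OK
  hT : 100 ≤ p.T
  hL : 1000 * p.T ^ 3 ≤ p.L
  hK : 100 * p.L ≤ K
  hl0 : K ≤ p.l0
  hΓ : 1 ≤ Γs
  geo : GeoOK p K Γs 𝔤 j

/-- `g = Γ' / Γ` -/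
def gr (𝔤 : Geom) (j : ℕ) : ℝ := 𝔤.Gam (j + 1) / 𝔤.Gam j
/-- local solutions with `s² dB ≤ a²` -/
def Cls (p : Par) (𝔤 : Geom) (j : ℕ) (x : Site) (a : ℝ) (s : Fn) : Prop :=
  SolOn 𝔤.w (box x (2 * p.lam j)) s ∧ ∀ y ∈ box x (2 * p.lam j + 1), ∀ α, s (y, α) ^ 2 * dB 𝔤.S (p.lam j) y ≤ a ^ 2
/-- all half-edge vectors / source vectors of a small polymer through `x` -/
def Aset (p : Par) (𝔤 : Geom) (j : ℕ) (x : Site) : Set (GV Ix) := {u | ∃ x', supd x x' ≤ 2 * p.l j ∧ u ∈ 𝔤.Ups p j x'}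
def Bset (p : Par) (𝔤 : Geom) (j : ℕ) (x : Site) : Set (GV Ix) := {u | ∃ x', supd x x' ≤ 2 * p.l j ∧ u ∈ 𝔤.Uz p j x'}
/-- point features: spins and observables -/
def Fp (𝔤 : Geom) : Set Site := ↑𝔤.S ∪ {z | ∃ k < 𝔤.m, z = (𝔤.y k).1}
/-- capped distance to a set -/
def cd (F : Set Site) (R : ℕ) (x : Site) : ℕ := sInf {n | n = R ∨ ∃ b ∈ F, n = supd x b}
/-- `ℓ / max (dist (x, F) ∧ λ'/2, T ℓ)` -/
def phi (p : Par) (j : ℕ) (F : Set Site) (x : Site) : ℝ :=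
  (p.l j : ℝ) / ((max (cd F (p.lam (j + 1) / 2) x) (p.T * p.l j) : ℕ) : ℝ)
/-- separated regime, or one small even cluster -/
def Good (p : Par) (K : ℕ) (𝔤 : Geom) (j : ℕ) : Prop :=
  (j : ℕ∞) < 𝔤.jN ∨ ∃ xc : Site, ∃ r₀ : ℕ, K * r₀ ≤ p.l j ∧ Even 𝔤.S.card ∧ (∀ v ∈ 𝔤.S, v ∈ box xc r₀) ∧
    ∀ k < 𝔤.m, (𝔤.y k).1 ∈ box xc r₀
/-- the contraction factor -/
def kap (p : Par) (K : ℕ) (𝔤 : Geom) (j : ℕ) (C a : ℝ) (x : Site) : ℝ :=
  a + C / p.L * phi p j 𝔤.Bb x ^ 2 +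
    C * (if Good p K 𝔤 j then 1 else (p.T : ℝ) ^ 3 * gr 𝔤 j ^ 2) * phi p j (Fp 𝔤) x ^ 3

/-- smooth functions at scale `l` with amplitude `c` (plane gauge) -/
def Smo (W : Set Site) (l : ℕ) (c : ℝ) (f : Fn) : Prop :=
  ∀ y ∈ W, ∀ α γ δ : Fin 4, |f (y, α)| ≤ c ∧ |dif (dv γ) f (y, α)| ≤ c / l ∧
    |dif (dv δ) (dif (dv γ) f) (y, α)| ≤ c / (l : ℝ) ^ 2 ∧ |mas f (y, α)| ≤ c / l ∧
    |dif (dv γ) (mas f) (y, α)| ≤ c / (l : ℝ) ^ 2
/-- transposes of `P0`, `P1` -/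
def T0 (z : Site) (f : Fn) : Fn := cSol (fld f z)
def T1 (z : Site) (f : Fn) : Fn := fun i =>
  cSol ((((i.1 - z).1 : ℝ) : ℂ) * ((fld f (z + (1, 0)) - fld f (z - (1, 0))) / 2) +
    (((i.1 - z).2 : ℝ) : ℂ) * ((fld f (z + (0, 1)) - fld f (z - (0, 1))) / 2)) i + mas f (z, i.2)

/-- jets at the base point `z` (plane gauge) -/
structure Jet (z : Site) (A U' : Set (GV Ix)) (κ₀ κ₁ κ₂ : ℝ) : Prop where
  h0 : ∀ u ∈ A, In κ₀ U' (P0 z u)
  h1 : ∀ u ∈ A, In κ₁ U' (u - P0 z u)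
  h2 : ∀ u ∈ A, In κ₂ U' (u - P0 z u - P1 z u)
/-- the generators next to `z` -/
def Dl (z : Site) : Set (GV Ix) := {u | ∃ i : HE, supd i.1 z ≤ 1 ∧ u = dl i}
/-- bounds for the test functions of `nu0`, `z0` -/
structure Fb (z : Site) (A : Set (GV Ix)) (a a' : ℝ) : Prop where
  c1 : Dn A (cSol 1) a
  cI : Dn A (cSol Complex.I) a
  l1 : Dn A (fOf z fun w => Complex.I * (starRingEnd ℂ) w) a'
  lI : Dn A (fOf z fun w => (starRingEnd ℂ) w) a'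
/-- the gauge `sgn S z` turns `w` into the plane weights on `box z R` -/
def Pl (𝔤 : Geom) (z : Site) (R : ℕ) : Prop :=
  ∀ y ∈ box z R, ∀ α, gaugeW (sgn 𝔤.S z) 𝔤.w (edgeOf y α) = tc
/-- rank-one splitting near the point `b` -/
def Rk1 (p : Par) (𝔤 : Geom) (j : ℕ) (b : Site) (κ₀ κ₁ : ℝ) : Prop :=
  ∃ (q : HE) (φ : Fn), ∀ x x', supd x' b ≤ (p.T + 2) * p.l j → supd x x' ≤ 2 * p.l j → ∀ u ∈ 𝔤.Ups p j x',
    In κ₀ (𝔤.Ups p (j + 1) x) (rk1 (extF φ) (dl q) u) ∧ In κ₁ (𝔤.Ups p (j + 1) x) (u - rk1 (extF φ) (dl q) u)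
/-- the part of a monomial that is neither constant nor extracted -/
def Rm (p : Par) (𝔤 : Geom) (j : ℕ) (x : Site) : Gr Ix →ₗ[ℝ] Gr Ix :=
  LinearMap.id - (gmap (vmap (Sum.elim (fun _ => 0) fun q => dz q.1 q.2) : GV Ix →ₗ[ℝ] GV Ix)).toLinearMap -
    𝔤.loc2G p j x - 𝔤.mvG p j x

/-! ### part a: scales, `In`, `Bal`, `cd` -/

section scales
variable {p : Par} {K : ℕ} {Γs : ℝ} {𝔤 : Geom} {j : ℕ}

theorem l_succ (p : Par) (j : ℕ) : p.l (j + 1) = p.L * p.l j := by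
  simp only [Par.l]; ring
theorem l_eq (hp : p.OK) (j : ℕ) : p.l j = 100 * p.lam j := by
  exact (D3.lam_eq hp j).1
theorem lam_succ (hp : p.OK) (j : ℕ) : p.lam (j + 1) = p.L * p.lam j := by
  exact (D3.lam_eq hp j).2.2.2.1
theorem lam_ge (hp : p.OK) (j : ℕ) : 8 ≤ p.lam j := by
  exact (D3.lam_eq hp j).2.2.1
theorem lam_half (hp : p.OK) (j : ℕ) : 2 * (p.lam j / 2) = p.lam j := by
  have := (D3.lam_eq hp j).2.1
  omega
theorem Hyp.K_le_l (h : Hyp p K Γs 𝔤 j) : K ≤ p.l j := by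
  exact h.hl0.trans (D3.lam_eq h.ok j).2.2.2.2.2
/-- `λ' = L λ ≥ 1000 T³ ℓ / 100` -/
theorem Hyp.lam_big (h : Hyp p K Γs 𝔤 j) : 1000 * (p.T * p.l j) ≤ p.lam (j + 1) := by
  rw [lam_succ h.ok, l_eq h.ok]
  have h1 : 100 * p.T ≤ p.T ^ 3 := by
    calc 100 * p.T ≤ p.T * p.T := Nat.mul_le_mul_right _ h.hT
      _ = 1 * (p.T * p.T) := (one_mul _).symm
      _ ≤ p.T * (p.T * p.T) := Nat.mul_le_mul_right _ (le_trans (by norm_num) h.hT)
      _ = p.T ^ 3 := by ring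
  calc 1000 * (p.T * (100 * p.lam j)) = 1000 * (100 * p.T) * p.lam j := by ring
    _ ≤ p.L * p.lam j := Nat.mul_le_mul_right _ ((Nat.mul_le_mul_left _ h1).trans h.hL)
theorem Hyp.gam_pos (h : Hyp p K Γs 𝔤 j) : 0 < 𝔤.Gam j ∧ 0 < 𝔤.Gam (j + 1) := by
  exact ⟨one_pos.trans_le (h.hΓ.trans h.geo.gam.1), one_pos.trans_le (h.hΓ.trans h.geo.gam.2.1)⟩
theorem Hyp.gr_pos (h : Hyp p K Γs 𝔤 j) : 0 < gr 𝔤 j ∧ gr 𝔤 j ≤ 2 := by
  exact ⟨div_pos h.gam_pos.2 h.gam_pos.1, (div_le_iff₀ h.gam_pos.1).2 h.geo.gam.2.2.1⟩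
/-- `GeoOK.clu` -/
theorem Hyp.gr_bad (h : Hyp p K Γs 𝔤 j) (hg : ¬ Good p K 𝔤 j) :
    𝔤.jN ≤ j ∧ (K * (𝔤.S.card + 𝔤.m + 1) : ℝ) * gr 𝔤 j ≤ 1 := by
  have h1 : 𝔤.jN ≤ j := not_lt.1 fun h' => hg (Or.inl h')
  refine ⟨h1, ?_⟩
  rw [gr, ← mul_div_assoc, div_le_one h.gam_pos.1]
  exact (h.geo.clu h1).resolve_left fun h' => hg (Or.inr h')
end scales

theorem geoZ_d (x y : Site) : geoZ.d x y = supd x y := by
  exact congrFun (congrFun exists_geoZ.choose_spec.1 x) y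
theorem geoZ_ball (x : Site) (R : ℕ) : geoZ.ball x R = box x R := by
  exact congrFun (congrFun exists_geoZ.choose_spec.2 x) R
theorem cov_small {l l' : ℕ} (h : 2 * l ≤ l') {Z : Finset Site} (hZ : geoZ.Small l Z) : geoZ.cov l' Z ≤ 1 := by
  obtain ⟨⟨x, hx⟩, h2⟩ := hZ
  exact Nat.sInf_le ⟨{x}, Finset.card_singleton x, fun z hz => ⟨x, Finset.mem_singleton_self x, (h2 x hx z hz).trans h⟩⟩

section
variable {I : Type} {U U' : Set (GV I)} {u : GV I} {κ κ' : ℝ}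
theorem In.mono (h : In κ U u) (hU : Bal U) (hκ : 0 ≤ κ) (hκ' : κ ≤ κ') : In κ' U u := by
  obtain ⟨v, hv, rfl⟩ := h
  rcases (hκ.trans hκ').eq_or_lt with h0 | h0
  · exact ⟨v, hv, by rw [le_antisymm hκ' (h0 ▸ hκ)]⟩
  · refine ⟨(κ / κ') • v, hU.2 v hv _ ?_, ?_⟩
    · rw [abs_of_nonneg (div_nonneg hκ h0.le)]
      exact (div_le_one h0).2 hκ'
    · rw [smul_smul, mul_div_cancel₀ _ h0.ne']
theorem In.subset (h : In κ U u) (hU : U ⊆ U') : In κ U' u := by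
  exact h.imp fun v hv => ⟨hU hv.1, hv.2⟩
theorem In.smul (h : In κ U u) (hU : Bal U) (hκ : 0 ≤ κ) (t : ℝ) : In (|t| * κ) U (t • u) := by
  obtain ⟨v, hv, rfl⟩ := h
  rcases le_total 0 t with ht | ht
  · exact ⟨v, hv, by rw [abs_of_nonneg ht, smul_smul]⟩
  · refine ⟨(-1 : ℝ) • v, hU.2 v hv _ (by simp), ?_⟩
    rw [abs_of_nonpos ht, smul_smul, smul_smul]
    congr 1
    ring
theorem In.map {J : Type} (h : In κ U u) (T : GV I →ₗ[ℝ] GV J) : In κ (T '' U) (T u) := by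
  obtain ⟨v, hv, rfl⟩ := h
  exact ⟨T v, ⟨v, hv, rfl⟩, map_smul T κ v⟩
theorem In.zero (hU : Bal U) (κ : ℝ) : In κ U 0 := by
  exact ⟨0, hU.1, (smul_zero κ).symm⟩
theorem Bal.image {J : Type} (h : Bal U) (T : GV I →ₗ[ℝ] GV J) : Bal (T '' U) := by
  refine ⟨⟨0, h.1, map_zero T⟩, ?_⟩
  rintro _ ⟨v, hv, rfl⟩ t ht
  exact ⟨t • v, h.2 v hv t ht, map_smul T t v⟩
theorem In.gbd (h : In κ U u) (hκ : 0 ≤ κ) : GBd U (ExteriorAlgebra.ι ℝ u) κ := by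
  obtain ⟨v, hv, rfl⟩ := h
  refine ⟨[(κ, [v])], ?_, ?_, ?_⟩
  · simpa using hv
  · simp [wedge]
  · simp [abs_of_nonneg hκ]
end

theorem cd_le (F : Set Site) (R : ℕ) (x : Site) : cd F R x ≤ R := by
  exact Nat.sInf_le (Or.inl rfl)
theorem cd_le_supd {F : Set Site} (R : ℕ) (x : Site) {b : Site} (hb : b ∈ F) : cd F R x ≤ supd x b := by
  exact Nat.sInf_le (Or.inr ⟨b, hb, rfl⟩)
theorem cd_cases (F : Set Site) (R : ℕ) (x : Site) : cd F R x = R ∨ ∃ b ∈ F, cd F R x = supd x b := by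
  exact Nat.sInf_mem (s := {n | n = R ∨ ∃ b ∈ F, n = supd x b}) ⟨R, Or.inl rfl⟩
theorem le_cd {F : Set Site} {R n : ℕ} {x : Site} (h : n ≤ R) (hF : ∀ b ∈ F, n ≤ supd x b) : n ≤ cd F R x := by
  rcases cd_cases F R x with e | ⟨b, hb, e⟩
  · rw [e]; exact h
  · rw [e]; exact hF b hb
theorem cd_lip (F : Set Site) (R : ℕ) (x y : Site) : cd F R x ≤ cd F R y + supd x y := by
  rcases cd_cases F R y with e | ⟨b, hb, e⟩
  · rw [e]; exact (cd_le F R x).trans (Nat.le_add_right _ _)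
  · rw [e, add_comm]; exact (cd_le_supd R x hb).trans (supd_triangle x y b)
theorem cd_anti {F F' : Set Site} (h : F ⊆ F') (R : ℕ) (x : Site) : cd F' R x ≤ cd F R x := by
  exact le_cd (cd_le F' R x) fun b hb => cd_le_supd R x (h hb)

/-! ### part b: pairing, gauge, duality -/

theorem pr_add (u v : GV Ix) (f : Ix → ℝ) : pr (u + v) f = pr u f + pr v f := by
  exact map_add (Finsupp.linearCombination ℝ f) u v
theorem pr_sub (u v : GV Ix) (f : Ix → ℝ) : pr (u - v) f = pr u f - pr v f := by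
  exact map_sub (Finsupp.linearCombination ℝ f) u v
theorem pr_smul (t : ℝ) (u : GV Ix) (f : Ix → ℝ) : pr (t • u) f = t * pr u f := by
  exact map_smul (Finsupp.linearCombination ℝ f) t u
theorem pr_dl (i : HE) (f : Fn) : pr (dl i : GV Ix) (extF f) = f i := by
  simp [pr, dl, extF]
theorem pr_dz (k : ℕ) (b : Bool) (f : Fn) : pr (dz k b : GV Ix) (extF f) = 0 := by
  simp [pr, dz, extF]
theorem b1_pr (u : GV Ix) (f : Ix → ℝ) : pr u f = ∑ i ∈ u.support, u i * f i := by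
  simp [pr, Finsupp.linearCombination_apply, Finsupp.sum]

theorem pr_extF_add (u : GV Ix) (f f' : Fn) : pr u (extF (f + f')) = pr u (extF f) + pr u (extF f') := by
  simp only [b1_pr, ← Finset.sum_add_distrib]
  refine Finset.sum_congr rfl fun i _ => ?_
  rcases i with a | q <;> simp [extF, mul_add]
theorem pr_extF_sub (u : GV Ix) (f f' : Fn) : pr u (extF (f - f')) = pr u (extF f) - pr u (extF f') := by
  simp only [b1_pr, ← Finset.sum_sub_distrib]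
  refine Finset.sum_congr rfl fun i _ => ?_
  rcases i with a | q <;> simp [extF, mul_sub]
theorem pr_extF_smul (u : GV Ix) (t : ℝ) (f : Fn) : pr u (extF (t • f)) = t * pr u (extF f) := by
  simp only [b1_pr, Finset.mul_sum]
  refine Finset.sum_congr rfl fun i _ => ?_
  rcases i with a | q <;> simp [extF, mul_left_comm]
theorem pr_rk1 (φ : Ix → ℝ) (v u : GV Ix) (f : Ix → ℝ) : pr (rk1 φ v u) f = pr u φ * pr v f := by
  show pr (pr u φ • v) f = _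
  rw [pr_smul]
theorem pr_congr {W : Set Site} {u : GV Ix} (hu : SuppIn W u) {f f' : Fn} (h : ∀ i : HE, i.1 ∈ W → f i = f' i) :
    pr u (extF f) = pr u (extF f') := by
  simp only [b1_pr]
  refine Finset.sum_congr rfl fun i hi => ?_
  obtain ⟨a, rfl, ha⟩ := hu i hi
  simp [extF, h a ha]
theorem b1_gauge_apply (σ : Site → ℝ) (u : GV Ix) (i : Ix) :
    gaugeV σ u i = Sum.elim (fun a : HE => σ a.1) (fun _ => 1) i * u i := by
  induction u using Finsupp.induction_linear with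
  | zero => simp
  | add u v hu hv => rw [map_add, Finsupp.add_apply, Finsupp.add_apply, hu, hv, mul_add]
  | single j t =>
    by_cases h : i = j
    · subst h
      rcases i with a | q <;> simp [gaugeV, vmap, dl, dz, mul_comm]
    · rcases j with a | q <;> simp [gaugeV, vmap, dl, dz, Finsupp.single_eq_of_ne h]

theorem pr_gaugeV (σ : Site → ℝ) (u : GV Ix) (f : Fn) : pr (gaugeV σ u) (extF f) = pr u (extF (gaugeF σ f)) := by
  induction u using Finsupp.induction_linear with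
  | zero => simp [pr]
  | add u v hu hv => rw [map_add, pr_add, pr_add, hu, hv]
  | single j t =>
    rcases j with a | q
    · have e : gaugeV σ (Finsupp.single (Sum.inl a) t) = t • σ a.1 • dl a := by
        simp only [gaugeV, vmap, Finsupp.linearCombination_single, Sum.elim_inl]
      rw [e, pr_smul, pr_smul, pr_dl]
      simp [pr, extF, gaugeF]
    · simp [pr, gaugeV, vmap, dz, extF]
theorem gaugeV_dl (σ : Site → ℝ) (i : HE) : gaugeV σ (dl i) = σ i.1 • dl i := by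
  simp [gaugeV, vmap, dl]
theorem gaugeV_dz (σ : Site → ℝ) (k : ℕ) (b : Bool) : gaugeV σ (dz k b) = dz k b := by
  simp [gaugeV, vmap, dz]
theorem gaugeV_gaugeV {σ : Site → ℝ} (hσ : IsSign σ) (u : GV Ix) : gaugeV σ (gaugeV σ u) = u := by
  ext i
  rw [b1_gauge_apply, b1_gauge_apply, ← mul_assoc]
  rcases i with a | q
  · simp [hσ.mul_self]
  · simp
theorem gmap_gauge_gauge {σ : Site → ℝ} (hσ : IsSign σ) (F : Gr Ix) : gmap (gaugeV σ) (gmap (gaugeV σ) F) = F := by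
  have h : gaugeV σ ∘ₗ gaugeV σ = LinearMap.id := LinearMap.ext fun u => gaugeV_gaugeV hσ u
  rw [gmap_comp, h, gmap_id]
theorem gaugeF_gaugeF {σ : Site → ℝ} (hσ : IsSign σ) (f : Fn) : gaugeF σ (gaugeF σ f) = f := by
  funext i
  simp only [gaugeF]
  rw [← mul_assoc, hσ.mul_self, one_mul]
theorem isSign_sgn (S : Finset Site) (z : Site) : IsSign (sgn S z) := by
  intro y
  exact neg_one_pow_eq_or ℝ _
theorem SuppIn.mono {W W' : Set Site} {u : GV Ix} (h : SuppIn W u) (hW : W ⊆ W') : SuppIn W' u := by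
  intro i hi
  obtain ⟨a, e, ha⟩ := h i hi
  exact ⟨a, e, hW ha⟩
theorem SuppIn.add {W : Set Site} {u v : GV Ix} (h : SuppIn W u) (h' : SuppIn W v) : SuppIn W (u + v) := by
  intro i hi
  rcases Finset.mem_union.1 (Finsupp.support_add hi) with h1 | h1
  · exact h i h1
  · exact h' i h1
theorem SuppIn.sub {W : Set Site} {u v : GV Ix} (h : SuppIn W u) (h' : SuppIn W v) : SuppIn W (u - v) := by
  intro i hi
  rcases Finset.mem_union.1 (Finsupp.support_sub hi) with h1 | h1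
  · exact h i h1
  · exact h' i h1
theorem SuppIn.smul {W : Set Site} {u : GV Ix} (h : SuppIn W u) (t : ℝ) : SuppIn W (t • u) := by
  intro i hi
  exact h i (Finsupp.support_smul hi)
theorem SuppIn.gauge {W : Set Site} {u : GV Ix} (h : SuppIn W u) (σ : Site → ℝ) : SuppIn W (gaugeV σ u) := by
  intro i hi
  refine h i ?_
  rw [Finsupp.mem_support_iff] at hi ⊢
  rw [b1_gauge_apply] at hi
  exact right_ne_zero_of_mul hi
theorem suppIn_dl {W : Set Site} {i : HE} (h : i.1 ∈ W) : SuppIn W (dl i) := by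
  intro j hj
  exact ⟨i, Finset.mem_singleton.1 (Finsupp.support_single_subset hj), h⟩
theorem SuppIn.sf {W : Set Site} {u : GV Ix} (h : SuppIn W u) : SF u := by
  intro q
  by_contra hq
  obtain ⟨a, e, _⟩ := h _ (Finsupp.mem_support_iff.2 hq)
  cases e
theorem b1_sum {W : Set Site} {ι : Type} (s : Finset ι) {u : ι → GV Ix} (h : ∀ i ∈ s, SuppIn W (u i)) :
    SuppIn W (∑ i ∈ s, u i) :=
  Finset.sum_induction u (SuppIn W) (fun _ _ => SuppIn.add) (fun i hi => by simp at hi) h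
theorem b1_zRe {W : Set Site} {x : Site} (h : x ∈ W) : SuppIn W (zRe x) :=
  b1_sum _ fun α _ => (suppIn_dl (i := (x, α)) h).smul _
theorem b1_zIm {W : Set Site} {x : Site} (h : x ∈ W) : SuppIn W (zIm x) :=
  b1_sum _ fun α _ => (suppIn_dl (i := (x, α)) h).smul _
theorem b1_zMas {W : Set Site} {x : Site} (h : x ∈ W) (α : Fin 4) : SuppIn W (zMas x α) :=
  ((suppIn_dl (i := (x, α)) h).sub ((b1_zRe h).smul _)).sub ((b1_zIm h).smul _)
theorem b1_rk1 {W : Set Site} {v : GV Ix} (h : SuppIn W v) (φ : Ix → ℝ) (u : GV Ix) : SuppIn W (rk1 φ v u) :=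
  h.smul (pr u φ)

theorem suppIn_P0 (z : Site) (u : GV Ix) : SuppIn (box z 1) (P0 z u) := by
  have h0 : z ∈ (box z 1 : Set Site) := Finset.mem_coe.2 (self_mem_box z 1)
  exact (b1_rk1 (b1_zRe h0) _ u).add (b1_rk1 (b1_zIm h0) _ u)
theorem suppIn_P1 (z : Site) (u : GV Ix) : SuppIn (box z 1) (P1 z u) := by
  have h0 : z ∈ (box z 1 : Set Site) := Finset.mem_coe.2 (self_mem_box z 1)
  have h1 : z + (1, 0) ∈ (box z 1 : Set Site) := Finset.mem_coe.2 (mem_box'.2 (by simp; omega))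
  have h2 : z - (1, 0) ∈ (box z 1 : Set Site) := Finset.mem_coe.2 (mem_box'.2 (by simp; omega))
  have h3 : z + (0, 1) ∈ (box z 1 : Set Site) := Finset.mem_coe.2 (mem_box'.2 (by simp; omega))
  have h4 : z - (0, 1) ∈ (box z 1 : Set Site) := Finset.mem_coe.2 (mem_box'.2 (by simp; omega))
  simp only [P1, LinearMap.add_apply, LinearMap.sum_apply]
  exact ((((b1_rk1 (((b1_zRe h1).sub (b1_zRe h2)).smul _) _ u).add
    (b1_rk1 (((b1_zIm h1).sub (b1_zIm h2)).smul _) _ u)).add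
    (b1_rk1 (((b1_zRe h3).sub (b1_zRe h4)).smul _) _ u)).add
    (b1_rk1 (((b1_zIm h3).sub (b1_zIm h4)).smul _) _ u)).add (b1_sum _ fun α _ => b1_rk1 (b1_zMas h0 α) _ u)

section
variable {p : Par} {K : ℕ} {Γs : ℝ} {𝔤 : Geom} {j : ℕ}

theorem ups_supp (hp : p.OK) {x : Site} {u : GV Ix} (hu : u ∈ 𝔤.Ups p j x) : SuppIn (box x (p.lam j)) u := by
  intro i hi
  obtain ⟨a, rfl, ha⟩ := hu.1 i hi
  have := lam_ge hp j
  refine ⟨a, rfl, Finset.mem_coe.2 (mem_box.2 ((mem_box.1 ha).trans ?_))⟩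
  split_ifs <;> omega
theorem uz_spec (hp : p.OK) {x : Site} {u : GV Ix} (hu : u ∈ 𝔤.Uz p j x) : ∃ k b, ∃ t : ℝ, k < 𝔤.m ∧
    supd (𝔤.y k).1 x ≤ p.lam j ∧ |t| ≤ 𝔤.h j ^ (-(1 / 2 : ℝ)) ∧ u = t • dz k b := by
  obtain ⟨k, b, t, hk, hb, ht, rfl⟩ := hu
  have := lam_ge hp j
  refine ⟨k, b, t, hk, (mem_box.1 hb).trans ?_, ht, rfl⟩
  split_ifs <;> omega
theorem bal_ups (x : Site) : Bal (𝔤.Ups p (j + 1) x) := by
  refine ⟨⟨fun i hi => by simp at hi, ?_⟩, fun u hu t ht => ⟨fun i hi => hu.1 i (Finsupp.support_smul hi), ?_⟩⟩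
  · rw [if_neg (Nat.succ_ne_zero j)]; intro f _; simp [pr]
  · have := hu.2
    rw [if_neg (Nat.succ_ne_zero j)] at this ⊢
    intro f hf
    rw [pr_smul, abs_mul]; exact mul_le_one₀ ht (abs_nonneg _) (this f hf)
theorem bal_U (x : Site) : Bal (𝔤.U p (j + 1) x) := by
  refine ⟨Or.inl (bal_ups x).1, ?_⟩
  rintro u (hu | ⟨k, b, s, hk, hb, hs, rfl⟩) t ht
  · exact Or.inl ((bal_ups x).2 u hu t ht)
  · exact Or.inr ⟨k, b, t * s, hk, hb, by
      rw [abs_mul]; exact (mul_le_of_le_one_left (abs_nonneg _) ht).trans hs, smul_smul _ _ _⟩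
theorem aset_supp (hp : p.OK) {x : Site} {u : GV Ix} (hu : u ∈ Aset p 𝔤 j x) : SuppIn (box x (3 * p.l j)) u := by
  obtain ⟨x', hx, hu⟩ := hu
  refine (ups_supp hp hu).mono fun y hy => Finset.mem_coe.2 (mem_box.2 ?_)
  have h1 := mem_box.1 (Finset.mem_coe.1 hy)
  have h2 := supd_triangle y x' x
  have h3 := l_eq hp j
  rw [supd_comm x' x] at h2
  omega
/-- a small polymer through `x` -/
theorem bd_small {Z : Finset Site} {x : Site} {F : Al} {c : ℝ} (hZ : geoZ.Small (p.l j) Z) (hx : x ∈ Z)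
    (hF : 𝔤.Bd p j Z F c) : GBd (Aset p 𝔤 j x ∪ Bset p 𝔤 j x) (F : Gr Ix) c := by
  refine GBd.mono hF (fun u hu => ?_) le_rfl
  simp only [Set.mem_iUnion] at hu
  obtain ⟨x', hx', hu | hu⟩ := hu
  · exact Or.inl ⟨x', geoZ_d x x' ▸ hZ.2 x hx x' hx', hu⟩
  · exact Or.inr ⟨x', geoZ_d x x' ▸ hZ.2 x hx x' hx', hu⟩
theorem bd_single {x : Site} {F : Al} {c : ℝ} : 𝔤.Bd p j {x} F c ↔ GBd (𝔤.U p j x) (F : Gr Ix) c := by
  simp [Geom.Bd, BdU]

theorem b2_sq (hp : p.OK) (j : ℕ) (G : ℝ) : (G / Real.sqrt (p.lam j)) ^ 2 * (p.lam j : ℝ) = G ^ 2 := by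
  have : (0 : ℝ) < p.lam j := by exact_mod_cast (show 0 < p.lam j by have := lam_ge hp j; omega)
  rw [div_pow, Real.sq_sqrt this.le, div_mul_cancel₀ _ this.ne']

/-- **duality, target side.** `Tst (j+1) x f` gives `m, s` with `Cls … Γ' s` (`(Γ'/√λ')² λ' = Γ'²`); use `pr_congr`; `v = κ⁻¹ • u` -/
theorem in_ups (hp : p.OK) {x : Site} {u : GV Ix} {κ : ℝ} (hκ : 0 < κ) (hu : SuppIn (box x (p.lam (j + 1))) u)
    (h : ∀ m s : Fn, Mult (box x (2 * p.lam (j + 1))) (p.lam (j + 1)) m → Cls p 𝔤 (j + 1) x (𝔤.Gam (j + 1)) s →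
      |pr u (extF (m * s))| ≤ κ) : In κ (𝔤.Ups p (j + 1) x) u := by
  refine ⟨κ⁻¹ • u, ⟨fun i hi => ?_, ?_⟩, by rw [smul_smul, mul_inv_cancel₀ hκ.ne', one_smul]⟩
  · rw [if_neg (Nat.succ_ne_zero j)]; exact hu i (Finsupp.support_smul hi)
  · rw [if_neg (Nat.succ_ne_zero j)]
    rintro f ⟨m, s, hm, hs, hw, hf⟩
    rw [pr_smul, pr_congr hu (f' := m * s) hf, abs_mul, abs_of_pos (inv_pos.2 hκ), inv_mul_le_iff₀ hκ, mul_one]
    exact h m s hm ⟨hs, fun y hy α => (hw y hy α).trans_eq (b2_sq hp _ _)⟩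

/-- **duality, source side, every `j`.** `j = 0`: `|m s| ≤ κ Γ` pointwise (`one_le_dB`) and `Γ Σ |u i| ≤ 1`.
`j ≥ 1`: `κ⁻¹ • (m * s)` is a test function (`κ = 0`: `s = 0` on the box). -/
theorem dn_cls (hp : p.OK) (hΓ : 0 < 𝔤.Gam j) {x' : Site} {m s : Fn} {κ : ℝ} (hκ : 0 ≤ κ)
    (hm : Mult (box x' (2 * p.lam j)) (p.lam j) m) (hs : Cls p 𝔤 j x' (κ * 𝔤.Gam j) s) :
    Dn (𝔤.Ups p j x') (m * s) κ := by
  intro u hu
  have h8 := lam_ge hp j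
  by_cases hj : j = 0
  · have h1 := hu.1
    have h2 := hu.2
    rw [if_pos hj] at h1 h2
    rw [pr, Finsupp.linearCombination_apply, Finsupp.sum]
    refine (Finset.abs_sum_le_sum_abs _ _).trans ((Finset.sum_le_sum (g := fun i => κ * 𝔤.Gam j * |u i|) fun i hi => ?_).trans ?_)
    · obtain ⟨⟨y, α⟩, rfl, ha⟩ := h1 i hi
      have ha' := mem_box.1 ha
      have h3 := (hm y (Finset.mem_coe.2 (mem_box.2 (ha'.trans (by omega)))) α α α α).1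
      have h4 : |s (y, α)| ≤ κ * 𝔤.Gam j := abs_le_of_sq_le_sq (by
        nlinarith [hs.2 y (mem_box.2 (ha'.trans (by omega))) α, D3.one_le_dB 𝔤.S (show 1 ≤ p.lam j by omega) y,
          sq_nonneg (s (y, α))]) (by positivity)
      rw [smul_eq_mul, abs_mul, mul_comm]
      refine mul_le_mul_of_nonneg_right ?_ (abs_nonneg _)
      show |m (y, α) * s (y, α)| ≤ _
      rw [abs_mul]; exact (mul_le_of_le_one_left (abs_nonneg _) h3).trans h4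
    · rw [← Finset.mul_sum, mul_assoc, hj]; exact mul_le_of_le_one_right hκ h2
  · refine le_of_forall_pos_le_add fun ε hε => ?_
    have hk : 0 < κ + ε := by positivity
    have h2 := hu.2
    rw [if_neg hj] at h2
    have h3 := h2 ((κ + ε)⁻¹ • (m * s)) ⟨m, (κ + ε)⁻¹ • s, hm, fun y hy α => by
      rw [opA_smul, Pi.smul_apply, hs.1 y hy α, smul_zero], fun y hy α => ?_, fun i _ => by simp [mul_left_comm]⟩
    · rwa [pr_extF_smul, abs_mul, abs_of_pos (inv_pos.2 hk), inv_mul_le_iff₀ hk, mul_one] at h3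
    · rw [b2_sq hp, Pi.smul_apply, smul_eq_mul, mul_pow, mul_assoc, inv_pow, inv_mul_le_iff₀ (by positivity), ← mul_pow]
      exact (hs.2 y hy α).trans (by gcongr; linarith)

theorem Mult.mono {W W' : Set Site} {l l' : ℕ} {m : Fn} (h : Mult W l m) (hW : W' ⊆ W) (hl : 1 ≤ l') (hl' : l' ≤ l) :
    Mult W' l' m := by
  intro x hx α β γ δ
  obtain ⟨h1, h2, h3, h4, h5⟩ := h x (hW hx) α β γ δ
  have h0 : (0 : ℝ) < l' := by exact_mod_cast hl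
  have h6 : (l' : ℝ) ≤ l := by exact_mod_cast hl'
  have e1 : 1 / (l : ℝ) ≤ 1 / l' := by gcongr
  have e2 : 1 / (l : ℝ) ^ 2 ≤ 1 / (l' : ℝ) ^ 2 := by gcongr
  exact ⟨h1, h2.trans e1, h3.trans e1, h4.trans e2, h5.trans e2⟩
theorem mult_const (W : Set Site) (l : ℕ) {c : ℝ} (hc : |c| ≤ 1) : Mult W l fun _ => c := by
  intro x hx α β γ δ
  simp [dif, hc]

theorem b2_box (h : Hyp p K Γs 𝔤 j) {x x' : Site} (hx : supd x x' ≤ 2 * p.l j) {R R' : ℕ} (hR : R ≤ p.l j)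
    (hR' : p.lam (j + 1) ≤ R') : (↑(box x' R) : Set Site) ⊆ box x R' := fun y hy => by
  have h1 := mem_box.1 (Finset.mem_coe.1 hy)
  have h2 := supd_triangle y x' x
  have h3 := h.lam_big
  have h4 : 100 * p.l j ≤ p.T * p.l j := Nat.mul_le_mul_right _ h.hT
  rw [supd_comm x' x] at h2
  exact Finset.mem_coe.2 (mem_box.2 (by omega))

/-- **inclusion by a pointwise bound** (`in_ups`, `dn_cls`, `Mult.mono`) -/
theorem incl (h : Hyp p K Γs 𝔤 j) {x x' : Site} (hx : supd x x' ≤ 2 * p.l j) {κ : ℝ} (hκ : 0 < κ)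
    (hs : ∀ s, Cls p 𝔤 (j + 1) x (𝔤.Gam (j + 1)) s → ∀ y ∈ box x' (2 * p.lam j + 1), ∀ α,
      s (y, α) ^ 2 * dB 𝔤.S (p.lam j) y ≤ (κ * 𝔤.Gam j) ^ 2) :
    ∀ u ∈ 𝔤.Ups p j x', In κ (𝔤.Ups p (j + 1) x) u := by
  intro u hu
  have h1 := l_eq h.ok j
  have h2 := lam_ge h.ok j
  have h3 := h.lam_big
  have h4 : 100 * p.l j ≤ p.T * p.l j := Nat.mul_le_mul_right _ h.hT
  refine in_ups h.ok hκ ((ups_supp h.ok hu).mono (b2_box h hx (by omega) le_rfl)) fun m s hm hc => ?_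
  have hb := b2_box h hx (R := 2 * p.lam j) (R' := 2 * p.lam (j + 1)) (by omega) (by omega)
  exact dn_cls h.ok h.gam_pos.1 hκ.le (Mult.mono hm hb (by omega) (by omega)) ⟨fun y hy => hc.1 y (hb hy), hs s hc⟩ u hu

/-- generators (`in_ups`, `pr_dl`) -/
theorem in_dl (hp : p.OK) (hΓ : 0 < 𝔤.Gam (j + 1)) {x : Site} {i : HE} (hi : i.1 ∈ box x (p.lam (j + 1))) {d : ℝ} (hd : 0 < d)
    (hdB : d ≤ dB 𝔤.S (p.lam (j + 1)) i.1) : In (𝔤.Gam (j + 1) / Real.sqrt d) (𝔤.Ups p (j + 1) x) (dl i) := by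
  have hsd := Real.sqrt_pos.2 hd
  refine in_ups hp (by positivity) (suppIn_dl (Finset.mem_coe.2 hi)) fun m s hm hc => ?_
  obtain ⟨y, α⟩ := i
  have ha := mem_box.1 hi
  have h3 := (hm y (Finset.mem_coe.2 (mem_box.2 (ha.trans (by omega)))) α α α α).1
  have h4 := hc.2 y (mem_box.2 (ha.trans (by omega))) α
  rw [pr_dl, Pi.mul_apply, abs_mul]
  refine (mul_le_of_le_one_left (abs_nonneg _) h3).trans (abs_le_of_sq_le_sq ?_ (by positivity))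
  rw [div_pow, Real.sq_sqrt hd.le, le_div_iff₀ hd]
  exact (mul_le_mul_of_nonneg_left hdB (sq_nonneg _)).trans h4

/-- sources, any bound `h' ≤ c h` -/
theorem in_uz_of (h : Hyp p K Γs 𝔤 j) {x x' : Site} (hx : supd x x' ≤ 2 * p.l j) {u : GV Ix} (hu : u ∈ 𝔤.Uz p j x')
    {c : ℝ} (hc : 𝔤.h (j + 1) ≤ c * 𝔤.h j) : In (Real.sqrt c) (𝔤.Uz p (j + 1) x) u := by
  obtain ⟨k, b, t, hk, hb, ht, rfl⟩ := uz_spec h.ok hu
  obtain ⟨h0, h1, -⟩ := h.geo.wt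
  have hc0 : 0 < c := (mul_pos_iff_of_pos_right h0).1 (h1.trans_le hc)
  have hs := Real.sqrt_pos.2 hc0
  have h2 := l_eq h.ok j
  refine ⟨((Real.sqrt c)⁻¹ * t) • dz k b, ⟨k, b, _, hk, ?_, ?_, rfl⟩, by rw [smul_smul, mul_inv_cancel_left₀ hs.ne']⟩
  · rw [if_neg (Nat.succ_ne_zero j)]
    exact Finset.mem_coe.1 (b2_box h hx (R := p.lam j) (by omega) le_rfl (Finset.mem_coe.2 (mem_box.2 hb)))
  · rw [abs_mul, abs_of_pos (inv_pos.2 hs)]
    refine (mul_le_mul_of_nonneg_left ht (inv_pos.2 hs).le).trans ?_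
    rw [Real.sqrt_eq_rpow, ← Real.rpow_neg hc0.le, ← Real.mul_rpow hc0.le h0.le]
    exact Real.rpow_le_rpow_of_nonpos h1 hc (by norm_num)

theorem in_uz_gen (h : Hyp p K Γs 𝔤 j) {x x' : Site} (hx : supd x x' ≤ 2 * p.l j) {u : GV Ix} (hu : u ∈ 𝔤.Uz p j x') :
    In (Real.sqrt (if (j : ℕ∞) < 𝔤.jN then (if j = 0 then 𝔤.Gam 0 ^ 2 * p.l 1 / 𝔤.Gam 1 ^ 2 else (p.L : ℝ)) else 1))
      (𝔤.Uz p (j + 1) x) u := in_uz_of h hx hu h.geo.wt.2.2

/-- sources: `h' ≤ L h` resp. `h' ≤ h` (`GeoOK.wt`) -/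
theorem in_uz (h : Hyp p K Γs 𝔤 j) {x x' : Site} (hx : supd x x' ≤ 2 * p.l j) {u : GV Ix} (hu : u ∈ 𝔤.Uz p j x') :
    (j ≠ 0 → In (Real.sqrt p.L) (𝔤.Uz p (j + 1) x) u) ∧ (𝔤.jN ≤ j → u ∈ 𝔤.Uz p (j + 1) x) := by
  obtain ⟨h0, h1, h2⟩ := h.geo.wt
  refine ⟨fun hj => in_uz_of h hx hu (h2.trans (mul_le_mul_of_nonneg_right ?_ h0.le)), fun hj => ?_⟩
  · rw [if_neg hj]
    split_ifs
    · exact le_rfl
    · exact_mod_cast (show 1 ≤ p.L by have := h.ok.1; omega)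
  · rw [if_neg (not_lt.2 hj)] at h2
    obtain ⟨v, hv, e⟩ := in_uz_of h hx hu h2
    rwa [e, Real.sqrt_one, one_smul]

/-- `τ_k = ζ_k ζ'_k` -/
theorem gbd_tau {x : Site} {k : ℕ} (hk : k < 𝔤.m) (hh : 0 < 𝔤.h j)
    (hx : (𝔤.y k).1 ∈ box x (if j = 0 then 3 else p.lam j)) : GBd (𝔤.U p j x) ((tau k : Al) : Gr Ix) (𝔤.h j) := by
  have hr := Real.rpow_pos_of_pos hh (-(1 / 2 : ℝ))
  have hU : ∀ b, 𝔤.h j ^ (-(1 / 2 : ℝ)) • (dz k b : GV Ix) ∈ 𝔤.U p j x := fun b =>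
    Or.inr ⟨k, b, _, hk, hx, (abs_of_pos hr).le, rfl⟩
  refine ⟨[(𝔤.h j, [𝔤.h j ^ (-(1 / 2 : ℝ)) • dz k false, 𝔤.h j ^ (-(1 / 2 : ℝ)) • dz k true])], fun q hq u hu => ?_, ?_,
    by simp [abs_of_pos hh]⟩
  · obtain rfl := List.mem_singleton.1 hq
    rcases List.mem_pair.1 hu with rfl | rfl <;> exact hU _
  · have e : 𝔤.h j * (𝔤.h j ^ (-(1 / 2 : ℝ)) * 𝔤.h j ^ (-(1 / 2 : ℝ))) = 1 := by
      rw [← Real.rpow_add hh, show -(1 / 2 : ℝ) + -(1 / 2) = -1 by norm_num, Real.rpow_neg_one, mul_inv_cancel₀ hh.ne']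
    simp only [List.map_cons, List.map_nil, List.sum_cons, List.sum_nil, add_zero, wedge, List.prod_cons, List.prod_nil,
      mul_one, map_smul, smul_mul_smul_comm, smul_smul, e, one_smul]
    rfl
end

end Crest.Agent.R165.D2
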