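import Crest.Agent.R165.D2.Geo

/-! # R165/D2/Count (owner helper6): the contraction factors are summable over a net -/

set_option autoImplicit false
set_option linter.unusedVariables false
noncomputable section
open Classical

namespace Crest.Agent.R165.D2

/-- **net by averaging.** For `a ∈ [0, 2l]²` let `C a = {c ∈ box y (R + l) | c ≡ a mod (2l+1)}`; each `C a` covers `box y R`; the `C a` are the fibres of
`c ↦ (c.1 % (2l+1), c.2 % (2l+1))` (`Finset.sum_fiberwise_of_maps_to`); pigeonhole `Finset.exists_le_of_sum_le` -/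
theorem exists_net (y : Site) (l R : ℕ) (kb : Site → ℝ) : ∃ C : Finset Site, (∀ z ∈ box y R, ∃ c ∈ C, supd c z ≤ l) ∧
    ∑ c ∈ C, kb c ≤ (∑ c ∈ box y (R + l), kb c) / (2 * l + 1 : ℝ) ^ 2 := by
  have hm : (0 : ℤ) < 2 * l + 1 := by omega
  obtain ⟨a, ha, h⟩ := Finset.exists_le_of_sum_le (s := Finset.Ico (0 : ℤ) (2 * l + 1) ×ˢ Finset.Ico (0 : ℤ) (2 * l + 1))
    (f := fun a => ∑ c ∈ box y (R + l) with (c.1 % (2 * l + 1 : ℤ), c.2 % (2 * l + 1 : ℤ)) = a, kb c)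
    (g := fun _ => (∑ c ∈ box y (R + l), kb c) / (2 * l + 1 : ℝ) ^ 2) ⟨(0, 0), by simp [hm]⟩ (by
      rw [Finset.sum_fiberwise_of_maps_to fun c _ => by
        simp [Int.emod_nonneg _ hm.ne', Int.emod_lt_of_pos _ hm], Finset.sum_const, Finset.card_product, Int.card_Ico,
        show (2 * (l : ℤ) + 1 - 0).toNat = 2 * l + 1 by omega, nsmul_eq_mul]
      push_cast
      exact le_of_eq (by field_simp))
  refine ⟨_, fun z hz => ?_, h⟩
  simp only [Finset.mem_product, Finset.mem_Ico] at ha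
  have key : ∀ s b : ℤ, 0 ≤ b → b < 2 * l + 1 → ∃ c : ℤ, s - l ≤ c ∧ c ≤ s + l ∧ c % (2 * l + 1) = b := fun s b h0 h1 =>
    ⟨s - l + (b - (s - l)) % (2 * l + 1), by linarith [Int.emod_nonneg (b - (s - l)) hm.ne'],
      by linarith [Int.emod_lt_of_pos (b - (s - l)) hm], by
        rw [Int.add_emod_emod, add_sub_cancel, Int.emod_eq_of_lt h0 h1]⟩
  obtain ⟨c1, p1, p2, p3⟩ := key z.1 a.1 ha.1.1 ha.1.2
  obtain ⟨c2, q1, q2, q3⟩ := key z.2 a.2 ha.2.1 ha.2.2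
  rw [mem_box'] at hz
  refine ⟨(c1, c2), Finset.mem_filter.2 ⟨mem_box'.2 ?_, Prod.ext p3 q3⟩, supd_le.2 ?_⟩ <;> dsimp only <;> omega

theorem ca_delta (n : ℕ) {k : ℝ} (hk : 1 ≤ k) : 1 / k ^ (n + 1) - 1 / (k + 1) ^ (n + 1) ≤ (n + 1) / k ^ (n + 2) := by
  have h := one_add_mul_le_pow (a := -(1 / (k + 1))) (by
    have : 1 / (k + 1) ≤ 1 := by rw [div_le_one (by linarith)]; linarith
    linarith) (n + 1)
  have h0 : 0 < k := by linarith
  have h1 : 1 / (k + 1) ≤ 1 / k := by gcongr; linarith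
  rw [show 1 + -(1 / (k + 1)) = k / (k + 1) by field_simp; ring, div_pow, div_eq_mul_one_div (k ^ _)] at h
  rw [show ((n : ℝ) + 1) / k ^ (n + 2) = (n + 1) * (1 / k) / k ^ (n + 1) by field_simp; ring, sub_le_iff_le_add,
    div_add' _ _ _ (by positivity), div_le_div_iff_of_pos_right (by positivity)]
  push_cast at h
  nlinarith [mul_le_mul_of_nonneg_left h1 (show (0 : ℝ) ≤ n + 1 by positivity)]

/-- **layer cake.** `1 / max(d,t)^(n+1) ≤ 1 / R^(n+1) + Σ_{k ∈ [t, R)} 1[d ≤ k] (1/k^(n+1) - 1/(k+1)^(n+1))` (telescoping),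
`1/k^(n+1) - 1/(k+1)^(n+1) ≤ (n+1) / k^(n+2)`, `Σ_{k ≥ t} 1/k² ≤ 2/t` -/
theorem layer (B : Finset Site) (d : Site → ℕ) {t R : ℕ} (n : ℕ) {A : ℝ} (hA : 0 ≤ A) (ht : 1 ≤ t) (htR : t ≤ R) (hd : ∀ y ∈ B, d y ≤ R)
    (h : ∀ k, t ≤ k → k < R → ((B.filter fun y => d y ≤ k).card : ℝ) ≤ A * (k : ℝ) ^ n) :
    ∑ y ∈ B, 1 / ((max (d y) t : ℕ) : ℝ) ^ (n + 1) ≤ 2 * (n + 1) * A / t + B.card / (R : ℝ) ^ (n + 1) := by
  have h1 : ∀ y ∈ B, 1 / ((max (d y) t : ℕ) : ℝ) ^ (n + 1) = (∑ k ∈ Finset.Ico t R, if d y ≤ k then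
      (1 / (k : ℝ) ^ (n + 1) - 1 / ((k : ℝ) + 1) ^ (n + 1)) else 0) + 1 / (R : ℝ) ^ (n + 1) := fun y hy => by
    have := Finset.sum_Ico_sub (fun k : ℕ => -(1 / (k : ℝ) ^ (n + 1))) (max_le (hd y hy) htR)
    rw [← Finset.sum_filter, show (Finset.Ico t R).filter (fun k => d y ≤ k) = Finset.Ico (max (d y) t) R by
      ext k; simp only [Finset.mem_filter, Finset.mem_Ico]; omega]
    rw [Finset.sum_congr rfl fun k _ => (show _ = -(1 / ((k + 1 : ℕ) : ℝ) ^ (n + 1)) - -(1 / (k : ℝ) ^ (n + 1)) by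
      push_cast; ring), this]
    ring
  rw [Finset.sum_congr rfl h1, Finset.sum_add_distrib, Finset.sum_const, nsmul_eq_mul, mul_one_div, Finset.sum_comm]
  refine add_le_add_left ((Finset.sum_le_sum (g := fun k : ℕ => (n + 1) * A * ((k : ℝ) ^ 2)⁻¹) fun k hk => ?_).trans ?_) _
  · rw [Finset.mem_Ico] at hk
    have hk1 : (1 : ℝ) ≤ k := by exact_mod_cast ht.trans hk.1
    rw [← Finset.sum_filter, Finset.sum_const, nsmul_eq_mul]
    refine (mul_le_mul_of_nonneg_left (ca_delta n hk1) (Nat.cast_nonneg _)).trans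
      ((mul_le_mul_of_nonneg_right (h k hk.1 hk.2) (by positivity)).trans_eq (by field_simp; ring))
  · have := sum_Ioo_inv_sq_le (α := ℝ) (t - 1) R
    rw [show Finset.Ioo (t - 1) R = Finset.Ico t R by ext k; simp only [Finset.mem_Ioo, Finset.mem_Ico]; omega,
      Nat.cast_pred ht, sub_add_cancel] at this
    rw [← Finset.mul_sum]
    exact (mul_le_mul_of_nonneg_left this (by positivity)).trans_eq (by ring)

theorem cntb_frozen {E : Set Edge} {b : Site} (h : FrozenB E b) : ∃ e, e ∉ E ∧ supd e.1 b ≤ 1 := by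
  obtain ⟨⟨z, j⟩, he, h⟩ := h
  refine ⟨(z, j), he, ?_⟩
  rcases h with rfl | rfl
  · fin_cases j <;> simp [edgeB0, supd]
  · simp [edgeB1, supd]

/-- **points near a flat boundary** (both sides). If the set is non-empty fix `y₀` in it and its boundary point `b₀`; `u, u'` = centres of `Reg.ext`,
`Reg.int` at `b₀` minus `toC b₀` (`B3.centres_far`). A boundary point `b` has an edge of `E` and a frozen edge within sup-distance `2`, so every `y` with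
`supd y b ≤ k` is at distance `≥ ρ - (2k + 4)` from both centres: `B3.strip_ineq` (`a = 2k + 4`, `‖h‖ ≤ 6 N`), `B3.strip_count` (`μ = ρ`).
Copy the proof of `B3.flat_count`. -/
theorem bd_count : ∃ C : ℝ, 0 ≤ C ∧ ∀ (E : Set Edge) (ρ : ℝ) (x : Site) (N k : ℕ), Reg E ρ → 1 ≤ k → k ≤ N → (N : ℝ) ^ 2 ≤ k * ρ →
    400 * (k : ℝ) ≤ ρ → (((box x N).filter fun y => ∃ b, BdryB E b ∧ supd y b ≤ k).card : ℝ) ≤ C * k * N := by
  refine ⟨663, by norm_num, fun E ρ x N k hE hk hN hρ hρ' => ?_⟩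
  set S := (box x N).filter fun y => ∃ b, BdryB E b ∧ supd y b ≤ k with hS
  rcases S.eq_empty_or_nonempty with h0 | ⟨y₀, hy₀⟩
  · rw [h0, Finset.card_empty, Nat.cast_zero]
    positivity
  obtain ⟨hy1, b, hb, hbd⟩ := Finset.mem_filter.1 hy₀
  rw [mem_box] at hy1
  obtain ⟨c, hc, hce⟩ := hE.ext b hb
  obtain ⟨c', hc', hce'⟩ := hE.int b hb
  have hk' : (1 : ℝ) ≤ k := by exact_mod_cast hk
  have hN' : (k : ℝ) ≤ N := by exact_mod_cast hN
  have hm : 2 * ρ - 2 ≤ ‖(c - toC b) - (c' - toC b)‖ := by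
    rw [sub_sub_sub_cancel_right, ← dist_eq_norm]
    exact B3.centres_far hce hce'
  set m := (c - toC b) - (c' - toC b) with hmd
  have hμ : ρ ≤ |m.re| ∨ ρ ≤ |m.im| := by
    by_contra h
    push Not at h
    have a1 := pow_le_pow_left₀ (by linarith) hm 2
    have a2 := pow_lt_pow_left₀ h.1 (abs_nonneg _) two_ne_zero
    have a3 := pow_lt_pow_left₀ h.2 (abs_nonneg _) two_ne_zero
    rw [Complex.sq_norm, Complex.normSq_apply] at a1
    rw [sq_abs] at a2 a3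
    nlinarith
  have hsub : S ⊆ (box x N).filter fun y =>
      |((y.1 : ℝ) - b.1) * m.re + ((y.2 : ℝ) - b.2) * m.im| ≤ 110 * k * ρ := fun y hy => by
    obtain ⟨h1, b', ⟨hf, e, he, heb⟩, hyb⟩ := Finset.mem_filter.1 hy
    obtain ⟨e', he', heb'⟩ := cntb_frozen hf
    refine Finset.mem_filter.2 ⟨h1, ?_⟩
    rw [mem_box] at h1
    have far : ∀ (e : Edge) (d : ℂ), supd e.1 b' ≤ 2 → ρ < dist (toC e.1) d →
        ρ - (2 * k + 4) ≤ ‖toC y - toC b - (d - toC b)‖ := fun e d he hd => by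
      rw [sub_sub_sub_cancel_right, ← dist_eq_norm]
      have a0 : supd e.1 y ≤ k + 2 := by
        have := supd_triangle e.1 b' y
        have := supd_comm b' y
        omega
      have a1 := B3.dist_toC_le e.1 y
      have a2 : (supd e.1 y : ℝ) ≤ k + 2 := by exact_mod_cast a0
      have a3 := dist_triangle (toC e.1) (toC y) d
      linarith
    have a1 := B3.strip_ineq (a := 2 * k + 4) (h := toC y - toC b) (by positivity) (by linarith)
      (by rwa [← dist_eq_norm, dist_comm]) (by rwa [← dist_eq_norm, dist_comm]) hm (by linarith)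
      (far e c heb (not_le.1 fun h => hce _ h he))
      (far e' c' (by omega) (not_le.1 fun h => he' (hce' _ h)))
    have a2 : ‖toC y - toC b‖ ≤ 6 * N := by
      rw [← dist_eq_norm]
      have b1 : supd y b ≤ 2 * N + k := by
        have := supd_triangle y x b
        have := supd_triangle x y₀ b
        have := supd_comm x y₀
        omega
      have b2 : (supd y b : ℝ) ≤ 2 * N + k := by exact_mod_cast b1
      have := B3.dist_toC_le y b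
      linarith
    have a3 := pow_le_pow_left₀ (norm_nonneg _) a2 2
    refine le_trans a1 ?_
    have a4 : ρ ≤ k * ρ := le_mul_of_one_le_left (by linarith) hk'
    nlinarith
  have h1 := B3.strip_count x b N (μ := ρ) (T := 110 * k * ρ) (by linarith) hμ (mul_nonneg (by positivity) (by linarith))
  have h2 : (S.card : ℝ) ≤ _ := (Nat.cast_le.2 (Finset.card_le_card hsub)).trans h1
  rw [show 2 * (110 * k * ρ) / ρ = 220 * k by field_simp [show ρ ≠ 0 by linarith]; ring] at h2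
  nlinarith

section
variable {p : Par} {K : ℕ} {Γs : ℝ} {𝔤 : Geom} {j : ℕ}

theorem cntc_pos (h : Hyp p K Γs 𝔤 j) : 0 < p.l j ∧ 0 < p.T := by
  have h1 := l_eq h.ok j
  have h2 := lam_ge h.ok j
  have h3 := h.hT
  omega
theorem phi_pos (h : Hyp p K Γs 𝔤 j) (F : Set Site) (x : Site) : 0 < phi p j F x ∧ phi p j F x ≤ 1 / p.T := by
  obtain ⟨h1, h2⟩ := cntc_pos h
  have h3 : (0 : ℝ) < p.l j := by exact_mod_cast h1
  have h4 : (0 : ℝ) < p.T := by exact_mod_cast h2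
  have h5 : (p.T : ℝ) * p.l j ≤ ((max (cd F (p.lam (j + 1) / 2) x) (p.T * p.l j) : ℕ) : ℝ) := by
    exact_mod_cast le_max_right _ _
  have h6 := (mul_pos h4 h3).trans_le h5
  refine ⟨div_pos h3 h6, ?_⟩
  rw [phi, div_le_div_iff₀ h6 h4]
  linarith
theorem phi_near (h : Hyp p K Γs 𝔤 j) {F : Set Site} {x b : Site} (hb : b ∈ F) (hx : supd x b ≤ p.T * p.l j) :
    phi p j F x = 1 / p.T := by
  obtain ⟨h1, h2⟩ := cntc_pos h
  have h3 : (p.l j : ℝ) ≠ 0 := by exact_mod_cast h1.ne'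
  have h4 : (p.T : ℝ) ≠ 0 := by exact_mod_cast h2.ne'
  rw [phi, max_eq_right ((cd_le_supd _ x hb).trans hx)]
  push_cast
  field_simp
/-- `cd_lip`, `T ≥ 3` -/
theorem phi_lip (h : Hyp p K Γs 𝔤 j) (F : Set Site) {x c : Site} (hx : supd c x ≤ 3 * p.l j) : phi p j F x ≤ 2 * phi p j F c := by
  obtain ⟨h1, h2⟩ := cntc_pos h
  have h3 : (0 : ℝ) < p.l j := by exact_mod_cast h1
  have h4 := cd_lip F (p.lam (j + 1) / 2) c x
  have h5 : 100 * p.l j ≤ p.T * p.l j := Nat.mul_le_mul_right _ h.hT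
  have h6 : max (cd F (p.lam (j + 1) / 2) c) (p.T * p.l j) ≤ 2 * max (cd F (p.lam (j + 1) / 2) x) (p.T * p.l j) := by
    omega
  have h7 : 0 < max (cd F (p.lam (j + 1) / 2) c) (p.T * p.l j) := by omega
  have h8 : 0 < max (cd F (p.lam (j + 1) / 2) x) (p.T * p.l j) := by omega
  rw [phi, phi, ← mul_div_assoc, div_le_div_iff₀ (by exact_mod_cast h8) (by exact_mod_cast h7), mul_comm 2, mul_assoc]
  exact mul_le_mul_of_nonneg_left (by exact_mod_cast h6) h3.le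
theorem kap_nonneg (h : Hyp p K Γs 𝔤 j) {C a : ℝ} (hC : 0 ≤ C) (ha : 0 ≤ a) (x : Site) : 0 ≤ kap p K 𝔤 j C a x := by
  have h1 := (phi_pos h (Fp 𝔤) x).1
  unfold kap
  split_ifs <;> positivity
theorem kap_lip (h : Hyp p K Γs 𝔤 j) {C a : ℝ} (hC : 0 ≤ C) {x c : Site} (hx : supd c x ≤ 3 * p.l j) :
    kap p K 𝔤 j C a x ≤ kap p K 𝔤 j (8 * C) a c := by
  have h1 := (phi_pos h (Fp 𝔤) x).1
  have h2 := (phi_pos h 𝔤.Bb x).1
  have h3 : phi p j 𝔤.Bb x ^ 2 ≤ 8 * phi p j 𝔤.Bb c ^ 2 := by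
    nlinarith [pow_le_pow_left₀ h2.le (phi_lip h 𝔤.Bb hx) 2, sq_nonneg (phi p j 𝔤.Bb c)]
  have h4 : phi p j (Fp 𝔤) x ^ 3 ≤ 8 * phi p j (Fp 𝔤) c ^ 3 := by
    linarith [pow_le_pow_left₀ h1.le (phi_lip h (Fp 𝔤) hx) 3]
  have h5 : 0 ≤ C * (if Good p K 𝔤 j then 1 else (p.T : ℝ) ^ 3 * gr 𝔤 j ^ 2) := by split_ifs <;> positivity
  have h6 := mul_le_mul_of_nonneg_left h3 (show 0 ≤ C / p.L by positivity)
  have h7 := mul_le_mul_of_nonneg_left h4 h5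
  unfold kap
  rw [mul_div_assoc 8]
  linarith

/-- separated: at most one point of `Fp` matters (`fp_sep`); cluster: `box xc (k + r₀)`; otherwise a union of `n + m` boxes (`cd_cases`, `card_box`) -/
theorem fp_count (h : Hyp p K Γs 𝔤 j) (y : Site) {k : ℕ} (hk : p.l j ≤ k) (hk' : k < p.lam (j + 1) / 2) :
    (((box y (p.l (j + 1) + p.l j)).filter fun c => cd (Fp 𝔤) (p.lam (j + 1) / 2) c ≤ k).card : ℝ) ≤
      25 * (if Good p K 𝔤 j then 1 else (𝔤.S.card + 𝔤.m : ℝ)) * (k : ℝ) ^ 2 := by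
  obtain ⟨B, hB⟩ : ∃ B, B = (box y (p.l (j + 1) + p.l j)).filter fun c => cd (Fp 𝔤) (p.lam (j + 1) / 2) c ≤ k :=
    ⟨_, rfl⟩
  have hk1 : (1 : ℝ) ≤ k := by exact_mod_cast (cntc_pos h).1.trans_le hk
  have key : ∀ c ∈ B, supd c y ≤ p.l (j + 1) + p.l j ∧ ∃ b ∈ Fp 𝔤, supd c b ≤ k := fun c hc => by
    rw [hB, Finset.mem_filter, mem_box] at hc
    refine ⟨hc.1, ?_⟩
    rcases cd_cases (Fp 𝔤) (p.lam (j + 1) / 2) c with e | ⟨b, hb, e⟩
    · omega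
    · exact ⟨b, hb, e ▸ hc.2⟩
  have one : ∀ z, (∀ c ∈ B, supd c z ≤ 2 * k) → (B.card : ℝ) ≤ 25 * 1 * (k : ℝ) ^ 2 := fun z hz => by
    have h1 : B.card ≤ (2 * (2 * k) + 1) ^ 2 := card_box z (2 * k) ▸ Finset.card_le_card fun c hc => mem_box.2 (hz c hc)
    have h2 : (B.card : ℝ) ≤ (2 * (2 * k) + 1) ^ 2 := by exact_mod_cast h1
    nlinarith
  have hK : 100 ≤ K := by have := h.hK; have := h.ok.1; omega
  rw [← hB]
  split_ifs with hg
  · rcases hg with hj | ⟨xc, r₀, hr, -, hS, hy⟩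
    · rcases B.eq_empty_or_nonempty with rfl | ⟨c₀, hc₀⟩
      · simp
      obtain ⟨h0, b₀, hb₀, h1⟩ := key c₀ hc₀
      refine one b₀ fun c hc => ?_
      obtain ⟨h2, b, hb, h3⟩ := key c hc
      by_cases e : b = b₀
      · subst e; omega
      have h4 := (Nat.mul_le_mul_right _ hK).trans (fp_sep h hj hb hb₀ e)
      have h5 := supd_triangle b c b₀
      have h6 := supd_triangle c y b₀
      have h7 := supd_triangle y c₀ b₀
      have h8 := l_eq h.ok (j + 1)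
      rw [supd_comm b c] at h5
      rw [supd_comm y c₀] at h7
      omega
    · refine one xc fun c hc => ?_
      obtain ⟨-, b, hb, h3⟩ := key c hc
      have h4 : supd b xc ≤ r₀ := by
        rcases hb with hb | ⟨i, hi, rfl⟩
        · exact mem_box.1 (hS b hb)
        · exact mem_box.1 (hy i hi)
      have h5 := supd_triangle c b xc
      have h6 := (Nat.mul_le_mul_right r₀ hK).trans hr
      omega
  · have h1 : B ⊆ (𝔤.S ∪ (Finset.range 𝔤.m).image fun i => (𝔤.y i).1).biUnion fun b => box b k := fun c hc => by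
      obtain ⟨-, b, hb, h3⟩ := key c hc
      refine Finset.mem_biUnion.2 ⟨b, Finset.mem_union.2 (hb.imp id ?_), mem_box.2 h3⟩
      rintro ⟨i, hi, rfl⟩
      exact Finset.mem_image_of_mem _ (Finset.mem_range.2 hi)
    have h2 : B.card ≤ (𝔤.S.card + 𝔤.m) * (2 * k + 1) ^ 2 := by
      refine (Finset.card_le_card h1).trans ((Finset.card_biUnion_le_card_mul _ _ _ fun b _ => (card_box b k).le).trans
        (Nat.mul_le_mul_right _ ((Finset.card_union_le _ _).trans (Nat.add_le_add_left ?_ _))))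
      exact Finset.card_image_le.trans (Finset.card_range _).le
    have h3 : (B.card : ℝ) ≤ (𝔤.S.card + 𝔤.m) * (2 * k + 1) ^ 2 := by exact_mod_cast h2
    have h4 : (2 * (k : ℝ) + 1) ^ 2 ≤ 25 * k ^ 2 := by nlinarith
    have h5 := mul_le_mul_of_nonneg_left h4 (show (0 : ℝ) ≤ 𝔤.S.card + 𝔤.m by positivity)
    linarith
end

theorem cntd_sc {p : Par} {K : ℕ} {Γs : ℝ} {𝔤 : Geom} {j : ℕ} (h : Hyp p K Γs 𝔤 j) :
    p.l (j + 1) = 200 * (p.lam (j + 1) / 2) ∧ 500 * (p.T * p.l j) ≤ p.lam (j + 1) / 2 ∧ 1 ≤ p.l j ∧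
      100 * p.l j ≤ p.T * p.l j ∧ p.T ≤ p.L ∧ p.T ^ 3 ≤ K := by
  have h1 := l_eq h.ok (j + 1)
  have h2 := lam_half h.ok (j + 1)
  have h3 := h.lam_big
  have h4 := l_eq h.ok j
  have h5 := lam_ge h.ok j
  have h6 := h.hL
  have h7 := h.hK
  have h8 : p.T ≤ p.T ^ 3 := Nat.le_self_pow (by norm_num) _
  exact ⟨by omega, by omega, by omega, Nat.mul_le_mul_right _ h.hT, by omega, by omega⟩

theorem cntd_layer {p : Par} {K : ℕ} {Γs : ℝ} {𝔤 : Geom} {j : ℕ} (h : Hyp p K Γs 𝔤 j) (F : Set Site) (y : Site) (n : ℕ)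
    {A : ℝ} (hA : 0 ≤ A) (hc : ∀ k, p.T * p.l j ≤ k → k < p.lam (j + 1) / 2 →
      (((box y (p.l (j + 1) + p.l j)).filter fun c => cd F (p.lam (j + 1) / 2) c ≤ k).card : ℝ) ≤ A * (k : ℝ) ^ n) :
    ∑ c ∈ box y (p.l (j + 1) + p.l j), phi p j F c ^ (n + 1) ≤ (p.l j : ℝ) ^ (n + 1) * (2 * (n + 1) * A / (p.T * p.l j) +
      1200 ^ 2 * ((p.lam (j + 1) / 2 : ℕ) : ℝ) ^ 2 / ((p.lam (j + 1) / 2 : ℕ) : ℝ) ^ (n + 1)) := by
  obtain ⟨h1, h2, h3, h4, -, -⟩ := cntd_sc h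
  have h5 := layer (box y (p.l (j + 1) + p.l j)) (cd F (p.lam (j + 1) / 2)) (t := p.T * p.l j) n hA (by omega) (by omega)
    (fun c _ => cd_le F _ c) hc
  have h6 : ((box y (p.l (j + 1) + p.l j)).card : ℝ) ≤ 1200 ^ 2 * ((p.lam (j + 1) / 2 : ℕ) : ℝ) ^ 2 := by
    rw [card_box, ← mul_pow]
    exact_mod_cast Nat.pow_le_pow_left (by omega) 2
  simp only [phi, div_pow]
  simp only [div_eq_mul_one_div ((p.l j : ℝ) ^ (n + 1)), ← Finset.mul_sum]
  refine mul_le_mul_of_nonneg_left (h5.trans ?_) (by positivity)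
  rw [Nat.cast_mul]
  gcongr

/-- `layer` (`n = 1`, `t = T ℓ`, `R = λ'/2 = ℓ'/200`), `bd_count` (`N = ℓ' + ℓ`, `ρ ≥ K ℓ' ≥ 100 L ℓ'`) -/
theorem sum_phiB : ∃ C : ℝ, 0 ≤ C ∧ ∀ (p : Par) (K : ℕ) (Γs : ℝ) (𝔤 : Geom) (j : ℕ) (y : Site), Hyp p K Γs 𝔤 j →
    ∑ c ∈ box y (p.l (j + 1) + p.l j), phi p j 𝔤.Bb c ^ 2 ≤ C * (p.l j : ℝ) ^ 2 * p.L / p.T := by
  obtain ⟨C, hC, hb⟩ := bd_count
  refine ⟨8 * C + 1200 ^ 2, by positivity, fun p K Γs 𝔤 j y h => ?_⟩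
  obtain ⟨h1, h2, h3, h4, h5, -⟩ := cntd_sc h
  obtain ⟨E, ρ, hρ, hE, hB⟩ : ∃ (E : Set Edge) (ρ : ℝ), (K * p.l (j + 1) : ℝ) ≤ ρ ∧ Reg E ρ ∧ 𝔤.Bb = {b | BdryB E b} := by
    obtain ⟨ρ, hρ, ⟨E, hE, -, hB, -⟩ | ⟨T, -, hE, -, hB, -⟩⟩ := h.geo.typ
    exacts [⟨E, ρ, hρ, hE, hB⟩, ⟨_, ρ, hρ, hE, hB⟩]
  have hT := h.hT
  have hK := h.hK
  have hl := l_succ p j
  refine (cntd_layer h 𝔤.Bb y 1 (A := C * (p.l (j + 1) + p.l j : ℕ)) (by positivity) fun k hk hk' => ?_).trans ?_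
  · have e1 : (p.l (j + 1) + p.l j) ^ 2 ≤ k * (K * p.l (j + 1)) :=
      calc (p.l (j + 1) + p.l j) ^ 2 ≤ (2 * p.l (j + 1)) ^ 2 := Nat.pow_le_pow_left (by omega) 2
        _ = (2 * p.l j) * ((2 * p.L) * p.l (j + 1)) := by rw [hl]; ring
        _ ≤ k * (K * p.l (j + 1)) := Nat.mul_le_mul (by omega) (Nat.mul_le_mul_right _ (by omega))
    have e2 : 400 * k ≤ K * p.l (j + 1) := le_trans (by omega) (Nat.mul_le_mul_right _ (by omega : 2 ≤ K))
    have := hb E ρ y (p.l (j + 1) + p.l j) k hE (by omega) (by omega)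
      (le_trans (by exact_mod_cast e1) (mul_le_mul_of_nonneg_left hρ (Nat.cast_nonneg k)))
      (le_trans (by exact_mod_cast e2) hρ)
    rw [pow_one, mul_right_comm]
    refine le_trans (Nat.cast_le.2 (Finset.card_le_card fun c hc => ?_)) this
    rw [Finset.mem_filter] at hc ⊢
    rcases cd_cases 𝔤.Bb (p.lam (j + 1) / 2) c with e | ⟨b, hb, e⟩
    · omega
    · exact ⟨hc.1, b, by rwa [hB] at hb, e ▸ hc.2⟩
  · have r0 : (0 : ℝ) < (p.lam (j + 1) / 2 : ℕ) := by exact_mod_cast (by omega : 0 < p.lam (j + 1) / 2)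
    have r1 : (0 : ℝ) < p.l j := by exact_mod_cast h3
    have r2 : (0 : ℝ) < p.T := by exact_mod_cast (by omega : 0 < p.T)
    have r3 : (p.T : ℝ) ≤ p.L := by exact_mod_cast h5
    have r4 : ((p.l (j + 1) + p.l j : ℕ) : ℝ) ≤ 2 * (p.L * p.l j) := by exact_mod_cast (by omega : _ ≤ 2 * (p.L * p.l j))
    rw [mul_div_assoc _ _ (_ ^ (1 + 1)), div_self (by positivity), mul_one, mul_comm (_ + _),
      mul_assoc ((p.l j : ℝ) ^ 2), mul_div_assoc ((p.l j : ℝ) ^ 2)]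
    refine mul_le_mul_of_nonneg_left ?_ (by positivity)
    rw [add_mul (8 * C), add_div]
    refine add_le_add ?_ ?_
    · rw [div_le_div_iff₀ (by positivity) r2]
      have := mul_le_mul_of_nonneg_left r4 (mul_nonneg hC r2.le)
      push_cast at this ⊢
      nlinarith
    · rw [le_div_iff₀ r2]
      linarith

/-- `layer` (`n = 2`), `fp_count`; not `Good`: `g K (n+m+1) ≤ 1` (`Hyp.gr_bad`), `K ≥ T³` -/
theorem sum_phiF : ∃ C : ℝ, 0 ≤ C ∧ ∀ (p : Par) (K : ℕ) (Γs : ℝ) (𝔤 : Geom) (j : ℕ) (y : Site), Hyp p K Γs 𝔤 j →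
    (if Good p K 𝔤 j then 1 else (p.T : ℝ) ^ 3 * gr 𝔤 j ^ 2) *
      ∑ c ∈ box y (p.l (j + 1) + p.l j), phi p j (Fp 𝔤) c ^ 3 ≤ C * (p.l j : ℝ) ^ 2 / p.T := by
  refine ⟨4 * 2880 * 2, by positivity, fun p K Γs 𝔤 j y h => ?_⟩
  obtain ⟨h1, h2, h3, h4, h5, h6⟩ := cntd_sc h
  have hT := h.hT
  obtain ⟨g0, g2⟩ := h.gr_pos
  have hM : (0 : ℝ) ≤ if Good p K 𝔤 j then 1 else (𝔤.S.card + 𝔤.m : ℝ) := by split_ifs <;> positivity
  have h7 := cntd_layer h (Fp 𝔤) y 2 (mul_nonneg (by norm_num : (0 : ℝ) ≤ 25) hM) fun k hk hk' =>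
    fp_count h y (by omega) hk'
  have h8 : (if Good p K 𝔤 j then 1 else (p.T : ℝ) ^ 3 * gr 𝔤 j ^ 2) *
      ((if Good p K 𝔤 j then 1 else (𝔤.S.card + 𝔤.m : ℝ)) + 1) ≤ 4 * 2 := by
    split_ifs with hg
    · nlinarith
    · have b1 := (h.gr_bad hg).2
      have b2 : (p.T : ℝ) ^ 3 ≤ K := by exact_mod_cast h6
      have b3 : (p.T : ℝ) ^ 3 * (𝔤.S.card + 𝔤.m + 1) * gr 𝔤 j ≤ 1 := le_trans (by gcongr) b1
      nlinarith
  have h9 : (0 : ℝ) ≤ (if Good p K 𝔤 j then 1 else (p.T : ℝ) ^ 3 * gr 𝔤 j ^ 2) := by split_ifs <;> positivity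
  generalize (if Good p K 𝔤 j then 1 else (𝔤.S.card + 𝔤.m : ℝ)) = M at *
  generalize (if Good p K 𝔤 j then 1 else (p.T : ℝ) ^ 3 * gr 𝔤 j ^ 2) = G at *
  have r0 : (0 : ℝ) < (p.lam (j + 1) / 2 : ℕ) := by exact_mod_cast (by omega : 0 < p.lam (j + 1) / 2)
  have r1 : (0 : ℝ) < p.l j := by exact_mod_cast h3
  have r2 : (0 : ℝ) < p.T := by exact_mod_cast (by omega : 0 < p.T)
  have r3 : (500 * (p.T * p.l j) : ℝ) ≤ (p.lam (j + 1) / 2 : ℕ) := by exact_mod_cast h2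
  generalize ((p.lam (j + 1) / 2 : ℕ) : ℝ) = R at *
  have r4 : 1200 ^ 2 * R ^ 2 / R ^ (2 + 1) ≤ 2880 / (p.T * p.l j) := by
    rw [div_le_div_iff₀ (by positivity) (by positivity), pow_succ R 2]
    linarith [mul_le_mul_of_nonneg_left r3 (sq_nonneg R)]
  have r5 : ∑ c ∈ box y (p.l (j + 1) + p.l j), phi p j (Fp 𝔤) c ^ 3 ≤ 2880 * (M + 1) * ((p.l j : ℝ) ^ 2 / p.T) := by
    refine h7.trans ((mul_le_mul_of_nonneg_left (add_le_add_right r4 _) (by positivity)).trans ?_)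
    rw [← add_div, show (p.l j : ℝ) ^ 2 / p.T = p.l j ^ (2 + 1) / (p.T * p.l j) by field_simp, mul_div_left_comm,
      ← mul_div_assoc, ← mul_div_assoc]
    gcongr
    push_cast
    linarith
  have r6 : (0 : ℝ) ≤ (p.l j : ℝ) ^ 2 / p.T := by positivity
  rw [mul_div_assoc]
  refine (mul_le_mul_of_nonneg_left r5 h9).trans ?_
  nlinarith [mul_le_mul_of_nonneg_right h8 r6]

/-- `exists_net` with `kb = kap (8 C) a`, `kap_lip`, `sum_phiB`, `sum_phiF` -/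
theorem kap_sum : ∃ C' : ℝ, 0 < C' ∧ ∀ (p : Par) (K : ℕ) (Γs : ℝ) (𝔤 : Geom) (j : ℕ) (C a : ℝ), Hyp p K Γs 𝔤 j → 0 ≤ C → 0 ≤ a →
    ∀ y, ∃ (N : Finset Site) (kb : Site → ℝ), (∀ z ∈ geoZ.ball y (p.l (j + 1)), ∃ c ∈ N, geoZ.d c z ≤ p.l j) ∧
      (∀ c ∈ N, ∀ x ∈ geoZ.ball c (3 * p.l j), kap p K 𝔤 j C a x ≤ kb c) ∧
      ∑ c ∈ N, kb c ≤ C' * (a * (p.L : ℝ) ^ 2 + C / p.T) := by
  obtain ⟨B, hB, h1⟩ := sum_phiB
  obtain ⟨F, hF, h2⟩ := sum_phiF
  refine ⟨36 + 8 * (B + F), by positivity, fun p K Γs 𝔤 j C a h hC ha y => ?_⟩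
  obtain ⟨N, hN, hs⟩ := exists_net y (p.l j) (p.l (j + 1)) (kap p K 𝔤 j (8 * C) a)
  simp only [geoZ_ball, geoZ_d]
  refine ⟨N, _, hN, fun c _ x hx => kap_lip h hC (by rw [supd_comm]; exact mem_box_supd.1 hx), hs.trans ?_⟩
  obtain ⟨s1, s2, s3, s4, s5, -⟩ := cntd_sc h
  have hT := h.hT
  have hl := l_succ p j
  have r1 : (0 : ℝ) < p.l j := by exact_mod_cast s3
  have r2 : (0 : ℝ) < p.T := by exact_mod_cast (by omega : 0 < p.T)
  have r3 : (0 : ℝ) < p.L := by exact_mod_cast (by omega : 0 < p.L)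
  have r4 : ((box y (p.l (j + 1) + p.l j)).card : ℝ) ≤ 36 * (p.L ^ 2 * p.l j ^ 2) := by
    rw [card_box, ← mul_pow, show (36 : ℝ) = 6 ^ 2 by norm_num, ← mul_pow]
    exact_mod_cast Nat.pow_le_pow_left (by omega) 2
  have r5 := mul_le_mul_of_nonneg_left (h1 p K Γs 𝔤 j y h) (by positivity : 0 ≤ 8 * C / p.L)
  have r6 := mul_le_mul_of_nonneg_left (h2 p K Γs 𝔤 j y h) (by positivity : 0 ≤ 8 * C)
  rw [show 8 * C / p.L * (B * (p.l j : ℝ) ^ 2 * p.L / p.T) = 8 * B * (C / p.T * p.l j ^ 2) by field_simp] at r5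
  rw [show 8 * C * (F * (p.l j : ℝ) ^ 2 / p.T) = 8 * F * (C / p.T * p.l j ^ 2) by field_simp, ← mul_assoc] at r6
  simp only [kap, Finset.sum_add_distrib, ← Finset.mul_sum, Finset.sum_const, nsmul_eq_mul]
  rw [div_le_iff₀ (by positivity)]
  have r7 := mul_le_mul_of_nonneg_right r4 ha
  have r8 : 0 ≤ C / p.T * (p.l j : ℝ) ^ 2 := by positivity
  have r9 : 0 ≤ (B + F) * (a * (p.L ^ 2 * (p.l j : ℝ) ^ 2)) := by positivity
  refine le_trans ?_ (mul_le_mul_of_nonneg_left (by nlinarith : (p.l j : ℝ) ^ 2 ≤ _) (by positivity))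
  nlinarith

end Crest.Agent.R165.D2
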