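import Crest.Agent.R165.D2.Base

/-! # R165/D2/Geo (owner helper6): inside / outside, the gauge `sgn` -/

set_option autoImplicit false
set_option linter.unusedVariables false
noncomputable section
open Classical

namespace Crest.Agent.R165.D2

theorem geoa_sgn (S : Finset Site) (x y : Site) :
    sgn S x y = ∏ v ∈ S, sg (v.1 ≤ min x.1 y.1 ∧ min x.2 y.2 < v.2 ∧ v.2 ≤ max x.2 y.2) := by
  simp only [sgn]
  rw [← Finset.prod_const, Finset.prod_filter]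
  exact Finset.prod_congr rfl fun v _ => by unfold sg; congr

theorem geoa_edge {S : Finset Site} {z : Site} {R : ℕ} (hS : ∀ v ∈ S, R + 1 < supd z v) (a b : ℤ) (j : Fin 2)
    (h1 : z.1 - R - 1 ≤ a) (h2 : a ≤ z.1 + R) (h3 : z.2 - R - 1 ≤ b) (h4 : b ≤ z.2 + R) :
    sgn S z (a, b) * sgn S z ((a, b) + uv j) * eray S ((a, b), j) = 1 := by
  have hS' : ∀ v ∈ S, ¬ (v.1 - (R + 1 : ℕ) ≤ z.1 ∧ z.1 ≤ v.1 + (R + 1 : ℕ) ∧ v.2 - (R + 1 : ℕ) ≤ z.2 ∧ z.2 ≤ v.2 + (R + 1 : ℕ)) :=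
    fun v hv h => absurd (supd_le.2 h) (not_le.2 (hS v hv))
  fin_cases j
  · simp only [Fin.zero_eta, add_uv_0, eray_0, geoa_sgn, mul_one]
    rw [← Finset.prod_mul_distrib]
    refine Finset.prod_eq_one fun v hv => ?_
    have := hS' v hv
    simp only [sg]
    push_cast at this
    split_ifs <;> first | omega | norm_num
  · simp only [Fin.mk_one, add_uv_1, eray_1, geoa_sgn]
    rw [← Finset.prod_mul_distrib, ← Finset.prod_mul_distrib]
    refine Finset.prod_eq_one fun v hv => ?_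
    have := hS' v hv
    simp only [sg]
    push_cast at this
    split_ifs <;> first | omega | norm_num

theorem geoa_box {z y : Site} {R : ℕ} (hy : y ∈ box z R) (α : Fin 4) :
    z.1 - R - 1 ≤ (edgeOf y α).1.1 ∧ (edgeOf y α).1.1 ≤ z.1 + R ∧ z.2 - R - 1 ≤ (edgeOf y α).1.2 ∧
      (edgeOf y α).1.2 ≤ z.2 + R := by
  rw [mem_box'] at hy
  fin_cases α <;> simp [edgeOf] <;> omega

/-- the three index sets differ only by spins of `box z (R+1)` (write the signs as products of `sg`, see the proof of `exists_gauge`) -/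
theorem sgn_edge {S : Finset Site} {z : Site} {R : ℕ} (hS : ∀ v ∈ S, R + 1 < supd z v) {y : Site} (hy : y ∈ box z R) (α : Fin 4) :
    sgn S z (edgeOf y α).1 * sgn S z ((edgeOf y α).1 + uv (edgeOf y α).2) * eray S (edgeOf y α) = 1 := by
  obtain ⟨h1, h2, h3, h4⟩ := geoa_box hy α
  exact geoa_edge hS _ _ _ h1 h2 h3 h4

theorem geoa_of (e : Edge) : ∃ α, edgeOf e.1 α = e := by
  obtain ⟨x, j⟩ := e
  fin_cases j
  · exact ⟨0, rfl⟩
  · exact ⟨1, rfl⟩

/-- if `e ∉ E` then `edgeB1 e = e.1 + (1,1)` is frozen; `B3.bdry_near` (`(z, j₀) = edgeOf z α`) -/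
theorem all_in {E : Set Edge} {z : Site} {r : ℕ} (h : ∀ b, BdryB E b → r + 1 < supd z b) {j₀ : Fin 2} (h0 : (z, j₀) ∈ E)
    (e : Edge) (he : e.1 ∈ box z r) : e ∈ E := by
  by_contra hn
  obtain ⟨α, hα⟩ := geoa_of (z, j₀)
  obtain ⟨b, hb, hd⟩ := B3.bdry_near (E := E) (x := z) (α := α) (b' := edgeB1 e) (by rw [← hα] at h0; exact h0)
    ⟨e, hn, Or.inr rfl⟩
  have h1 := h b hb
  have h2 : supd (edgeB1 e) z ≤ r + 1 := by
    rw [mem_box'] at he
    rw [supd_le]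
    simp only [edgeB1, Prod.fst_add, Prod.snd_add]
    push_cast
    omega
  rw [supd_comm] at h1
  omega

theorem all_out {E : Set Edge} {z : Site} {r : ℕ} (h : ∀ b, BdryB E b → 2 * r + 1 < supd z b) {j₀ : Fin 2} (h0 : (z, j₀) ∉ E)
    (e : Edge) (he : e.1 ∈ box z r) : e ∉ E := by
  intro hn
  obtain ⟨α, hα⟩ := geoa_of e
  obtain ⟨b, hb, hd⟩ := B3.bdry_near (E := E) (x := e.1) (α := α) (b' := edgeB1 (z, j₀)) (by rw [hα]; exact hn)
    ⟨(z, j₀), h0, Or.inr rfl⟩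
  have h1 := h b hb
  have h2 : supd (edgeB1 (z, j₀)) e.1 ≤ r + 1 := by
    rw [mem_box'] at he
    rw [supd_le]
    simp only [edgeB1, Prod.fst_add, Prod.snd_add]
    push_cast
    omega
  have h3 := supd_triangle z e.1 b
  have h4 := mem_box.1 he
  rw [supd_comm] at h4 hd
  omega

section
variable {p : Par} {K : ℕ} {Γs : ℝ} {𝔤 : Geom} {j : ℕ}

theorem geoa_dual (T : Set Site) (e : Edge) : e ∈ eIn T ↔ (edgeB0 e, ![1, 0] e.2) ∈ eDual T := by
  obtain ⟨x, j⟩ := e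
  fin_cases j <;> simp [eIn, eDual, edgeB0, edgeB1, uv, add_assoc]

theorem geoa_B0 (e : Edge) : supd (edgeB0 e) e.1 ≤ 1 := by
  obtain ⟨x, j⟩ := e
  rw [supd_le]
  fin_cases j <;> simp [edgeB0] <;> omega


/-- **inside.** Plus: `all_in`. Free: `|w e₀| = tc ≠ 1` gives `e₀ ∈ eIn T`; `e ∈ eIn T ↔ (edgeB0 e, other direction) ∈ eDual T`; `all_in` for
`eDual T` at `edgeB0 e₀` with radius `r + 2` -/
theorem w_in (h : Hyp p K Γs 𝔤 j) {e₀ : Edge} (h0 : |𝔤.w e₀| = tc) {r : ℕ} (hB : ∀ b ∈ 𝔤.Bb, r + 5 ≤ supd e₀.1 b)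
    (e : Edge) (he : e.1 ∈ box e₀.1 r) : 𝔤.w e = wOf Set.univ 𝔤.S e := by
  obtain ⟨ρ, -, ⟨E, -, hw, hb, -⟩ | ⟨T, -, -, hw, hb, -⟩⟩ := h.geo.typ
  · have h1 : e₀ ∈ E := by
      by_contra hn
      rw [hw, wOf, if_neg hn, abs_zero] at h0
      exact tc_pos.1.ne h0
    have h2 : e ∈ E := all_in (z := e₀.1) (j₀ := e₀.2) (fun b hb' => by
      have := hB b (by rw [hb]; exact hb')
      omega) h1 e he
    rw [hw, wOf, wOf, if_pos h2, if_pos (Set.mem_univ _)]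
  · have h1 : e₀ ∈ eIn T := by
      by_contra hn
      rw [hw, wFree, if_neg hn, one_mul] at h0
      rcases eray_sign 𝔤.S e₀ with h' | h' <;> rw [h'] at h0 <;> simp at h0 <;> exact tc_pos.2.ne' h0
    have h2 : e ∈ eIn T := by
      rw [geoa_dual] at h1 ⊢
      refine all_in (r := r + 2) (fun b hb' => ?_) h1 _ ?_
      · have h3 := hB b (by rw [hb]; exact hb')
        have h4 := supd_triangle e₀.1 (edgeB0 e₀) b
        have h5 := geoa_B0 e₀
        rw [supd_comm] at h5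
        omega
      · rw [mem_box] at he ⊢
        have h4 := supd_triangle (edgeB0 e) e.1 (edgeB0 e₀)
        have h5 := supd_triangle e.1 e₀.1 (edgeB0 e₀)
        have h6 := geoa_B0 e₀
        have h7 := geoa_B0 e
        rw [supd_comm] at h6
        show supd (edgeB0 e) (edgeB0 e₀) ≤ r + 2
        omega
    rw [hw, wFree, wOf, if_pos h2, if_pos (Set.mem_univ _)]

/-- `w_in`, `sgn_edge` -/
theorem pl_of_far (h : Hyp p K Γs 𝔤 j) {z : Site} {j₀ : Fin 2} (h0 : |𝔤.w (z, j₀)| = tc) {R D : ℕ} (hD : 𝔤.Far D z)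
    (hR : R + 6 ≤ D) : Pl 𝔤 z R := by
  intro y hy α
  have h1 : 𝔤.w (edgeOf y α) = wOf Set.univ 𝔤.S (edgeOf y α) := by
    refine w_in h h0 (r := R + 1) (fun b hb => ?_) _ ?_
    · have := hD b (Or.inl hb)
      show R + 1 + 5 ≤ supd z b
      omega
    · obtain ⟨h1, h2, h3, h4⟩ := geoa_box hy α
      show (edgeOf y α).1 ∈ box z (R + 1)
      rw [mem_box']
      push_cast
      omega
  have h2 := sgn_edge (S := 𝔤.S) (fun v hv => by
    have := hD v (Or.inr hv)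
    omega) hy α
  rw [gaugeW, h1, wOf, if_pos (Set.mem_univ _)]
  linear_combination tc * h2

theorem Pl.mono {z : Site} {R R' : ℕ} (h : Pl 𝔤 z R) (hR : R' ≤ R) : Pl 𝔤 z R' := by
  exact fun y hy α => h y (box_mono z hR hy) α
/-- `SolOn.gauge` -/
theorem Pl.sol {z : Site} {R : ℕ} (h : Pl 𝔤 z R) {W : Set Site} (hW : W ⊆ box z R) {s : Fn} :
    (SolOn 𝔤.w W s → SolOn wPl W (gaugeF (sgn 𝔤.S z) s)) ∧ (SolOn wPl W s → SolOn 𝔤.w W (gaugeF (sgn 𝔤.S z) s)) := by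
  have hσ := isSign_sgn 𝔤.S z
  refine ⟨fun hs => SolOn.gauge hσ hs fun x hx α => (h x (hW hx) α).symm,
    fun hs => SolOn.gauge hσ hs fun x hx α => ?_⟩
  have h1 := h x (hW hx) α
  have h2 := hσ.mul_self (edgeOf x α).1
  have h3 := hσ.mul_self ((edgeOf x α).1 + uv (edgeOf x α).2)
  simp only [gaugeW, wPl] at h1 ⊢
  rw [← h1]
  linear_combination (-(𝔤.w (edgeOf x α))) * h2 -
    (𝔤.w (edgeOf x α) * sgn 𝔤.S z (edgeOf x α).1 * sgn 𝔤.S z (edgeOf x α).1) * h3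

/-- the vertex matrix is invertible (`opA_0 .. opA_3`) -/
theorem sol_zero {w : Edge → ℝ} {s : Fn} {y : Site} (hw : ∀ α, w (edgeOf y α) = 0) (hs : ∀ α, opA w s (y, α) = 0) (α : Fin 4) :
    s (y, α) = 0 := by
  have h0 := hs 0
  have h1 := hs 1
  have h2 := hs 2
  have h3 := hs 3
  rw [opA_0, hw] at h0
  rw [opA_1, hw] at h1
  rw [opA_2, hw] at h2
  rw [opA_3, hw] at h3
  revert α
  refine DU.forall4 ?_ ?_ ?_ ?_ <;> linarith

theorem geob_edge (x : Site) (α : Fin 4) : (edgeOf x α).1 ∈ box x 1 := by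
  fin_cases α <;> simp [box, edgeOf] <;> omega

/-- **outside, solutions vanish.** Plus: `all_out`, `sol_zero`. Free: `DU.sol_dualS`, `DU.wFree_eq`, `DU.sw_dW_wFree`: the dual function solves
the equation with the weights `wOf (eDual T) S = 0` (`all_out`), so it vanishes, and `s = undS (dualS s)` (`DU.undS_eq_zero`) -/
theorem sol_out (h : Hyp p K Γs 𝔤 j) {z : Site} (h0 : |𝔤.w (z, 0)| ≠ tc) {r D : ℕ} (hD : 𝔤.Far D z) (hr : 2 * r + 20 ≤ D)
    {s : Fn} (hs : SolOn 𝔤.w (box z (r + 4)) s) {y : Site} (hy : y ∈ box z r) (α : Fin 4) : s (y, α) = 0 := by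
  obtain ⟨ρ, -, ⟨E, -, hw, hB, -⟩ | ⟨T, -, -, hw, hB, -⟩⟩ := h.geo.typ
  · have h1 : (z, 0) ∉ E := fun h1 => h0 (by rw [hw, wOf, if_pos h1, eray_0, mul_one, abs_of_pos tc_pos.1])
    refine sol_zero (fun β => ?_) (hs y (box_mono z (by omega) hy)) α
    rw [hw, wOf, if_neg (all_out (r := r + 1) (fun b hb => ?_) h1 _ (box_subset_box hy le_rfl (geob_edge y β)))]
    have := hD b (Or.inl (hB ▸ hb))
    omega
  · have h1 : (z + (1, 0), 1) ∉ eDual T := fun h1 => h0 (by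
      rw [hw, wFree, if_pos (show (z, 0) ∈ eIn T from ⟨h1.1, Set.mem_of_eq_of_mem (DU.s9 z).symm h1.2⟩), eray_0, mul_one, abs_of_pos tc_pos.1])
    have ht : ∀ e, 1 + wFree T ∅ e ≠ 0 := fun e => (add_pos_of_pos_of_nonneg one_pos (DU.wFree_mem T e).1).ne'
    rw [hw, DU.wFree_eq] at hs
    have h2 := DU.sol_dualS ht 𝔤.S hs (W' := box z (r + 1)) fun b hb => ⟨fun hS => by
      have := hD b (Or.inr hS)
      have := mem_box_supd.1 hb
      rw [supd_comm] at this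
      omega, fun β => box_mono z (by omega) (DU.cW_mem_box hb β)⟩
    rw [← DU.undS_dualS ht 𝔤.S s]
    refine DU.undS_eq_zero _ _ (fun β γ => sol_zero (fun δ => ?_) (h2 _ (DU.cB_mem_box hy β)) γ) α
    have h3 : box z (r + 2) ⊆ box (z + (1, 0)) (r + 3) := box_subset_box (n := 1) (mem_box_supd.2 (by simp [supd])) (by omega)
    rw [DU.sw_dW_wFree, wOf, if_neg (all_out (r := r + 3) (fun b hb => ?_) h1 _
      (h3 (box_subset_box (R := 1) (N := r + 2) (DU.cB_mem_box hy β) (by omega) (geob_edge _ δ))))]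
    have := hD b (Or.inl (hB ▸ hb))
    simp only [supd, Prod.fst_add, Prod.snd_add] at this ⊢
    omega

/-- distinct point features are far apart in the separated regime (`GeoOK.sep`) -/
theorem fp_sep (h : Hyp p K Γs 𝔤 j) (hj : (j : ℕ∞) < 𝔤.jN) {a b : Site} (ha : a ∈ Fp 𝔤) (hb : b ∈ Fp 𝔤) (hab : a ≠ b) :
    K * p.l (j + 1) ≤ supd a b := by
  obtain ⟨h1, h2, h3⟩ := h.geo.sep hj
  rcases ha with ha | ⟨k, hk, rfl⟩ <;> rcases hb with hb | ⟨k', hk', rfl⟩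
  · exact h1 a ha b hb hab
  · exact supd_comm _ a ▸ h2 k' hk' a ha
  · exact h2 k hk b hb
  · exact h3 k hk k' hk' fun e => hab (e ▸ rfl)
theorem obs_unique (h : Hyp p K Γs 𝔤 j) (hj : (j : ℕ∞) < 𝔤.jN) {x : Site} {k k' : ℕ} (hk : k < 𝔤.m) (hk' : k' < 𝔤.m)
    (hx : supd x (𝔤.y k).1 ≤ 2 * p.l (j + 1)) (hx' : supd x (𝔤.y k').1 ≤ 2 * p.l (j + 1)) : k' = k := by
  by_contra hne
  have h1 := (h.geo.sep hj).2.2 k' hk' k hk hne
  have h2 := supd_triangle (𝔤.y k').1 x (𝔤.y k).1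
  rw [supd_comm _ x] at h2
  have h3 : 1 ≤ p.T ^ 3 := Nat.one_le_pow _ _ (by have := h.hT; omega)
  have h4 : 5 ≤ K := by have := h.hL; have := h.hK; omega
  have h5 := Nat.mul_le_mul_right (p.l (j + 1)) h4
  have h6 := lam_ge h.ok (j + 1)
  have h7 := l_eq h.ok (j + 1)
  omega
theorem obs_far (h : Hyp p K Γs 𝔤 j) (hj : (j : ℕ∞) < 𝔤.jN) {k : ℕ} (hk : k < 𝔤.m) : 𝔤.Far (K * p.l (j + 1)) (𝔤.y k).1 := by
  rintro b (hb | hb)
  · exact (h.geo.obs k hk).2 b hb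
  · exact (h.geo.sep hj).2.1 k hk b hb
end

end Crest.Agent.R165.D2
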