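import Crest.Agent.R165.D2.Base

/-! # R165/D2/Smo (owner helper6): smooth functions, product rule, Taylor remainders (plane gauge, no `Geom`) -/

set_option autoImplicit false
set_option linter.unusedVariables false
noncomputable section
open Classical

namespace Crest.Agent.R165.D2

/-! ### part a -/

theorem abs_mas_le {f : Fn} {y : Site} {c : ℝ} (h : ∀ α, |f (y, α)| ≤ c) (α : Fin 4) : |mas f (y, α)| ≤ 2 * c := by
  have h0 := abs_le.1 (h 0)
  have h1 := abs_le.1 (h 1)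
  have h2 := abs_le.1 (h 2)
  have h3 := abs_le.1 (h 3)
  have g0 := abs_le.1 (loc_mul_le (h 0))
  have g1 := abs_le.1 (loc_mul_le (h 1))
  have g2 := abs_le.1 (loc_mul_le (h 2))
  have g3 := abs_le.1 (loc_mul_le (h 3))
  induction α using b1_fin4 <;> simp only [mas_0, mas_1, mas_2, mas_3] <;> rw [abs_le] <;> constructor <;>
    linarith [h0.1, h0.2, h1.1, h1.2, h2.1, h2.2, h3.1, h3.2, g0.1, g0.2, g1.1, g1.2, g2.1, g2.2, g3.1, g3.2]
theorem norm_fld_le {f : Fn} {y : Site} {c : ℝ} (h : ∀ α, |f (y, α)| ≤ c) :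
    |(fld f y).re| ≤ 2 * c ∧ |(fld f y).im| ≤ 2 * c := by
  have h0 := abs_le.1 (h 0)
  have h2 := abs_le.1 (h 2)
  have g1 := abs_le.1 (loc_mul_le (h 1))
  have g3 := abs_le.1 (loc_mul_le (h 3))
  rw [fld_re, fld_im, abs_le, abs_le]
  refine ⟨⟨?_, ?_⟩, ?_, ?_⟩ <;> linarith [h0.1, h0.2, h2.1, h2.2, g1.1, g1.2, g3.1, g3.2]
theorem abs_cSol_le (c : ℂ) (i : HE) : |cSol c i| ≤ |c.re| + |c.im| := by
  obtain ⟨x, α⟩ := i
  induction α using b1_fin4
  · rw [cSol_0]; linarith [abs_nonneg c.im]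
  · rw [cSol_1]; exact loc_mul_le ((abs_sub _ _).trans (add_comm _ _).le)
  · rw [cSol_2, abs_neg]; linarith [abs_nonneg c.re]
  · rw [cSol_3]; exact loc_mul_le ((abs_add_le _ _).trans (add_comm _ _).le)
theorem Smo.mono {W W' : Set Site} {l l' : ℕ} {c c' : ℝ} {f : Fn} (h : Smo W l c f) (hW : W' ⊆ W) (hl : 1 ≤ l') (hl' : l' ≤ l)
    (hc : 0 ≤ c) (hc' : c ≤ c') : Smo W' l' c' f := by
  have h1 : (0 : ℝ) < l' := by exact_mod_cast hl
  have h2 : (l' : ℝ) ≤ l := by exact_mod_cast hl'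
  have e1 : c / l ≤ c' / l' := by gcongr; exact hc.trans hc'
  have e2 : c / (l : ℝ) ^ 2 ≤ c' / (l' : ℝ) ^ 2 := by gcongr; exact hc.trans hc'
  intro y hy α γ δ
  obtain ⟨a1, a2, a3, a4, a5⟩ := h y (hW hy) α γ δ
  exact ⟨a1.trans hc', a2.trans e1, a3.trans e2, a4.trans e1, a5.trans e2⟩

theorem smoa2_mas (m s : Fn) (y : Site) (α : Fin 4) :
    mas (m * s) (y, α) = m (y, 0) * mas s (y, α) + mas (fun i => (m i - m (i.1, 0)) * s i) (y, α) := by
  induction α using b1_fin4 <;> simp only [mas_0, mas_1, mas_2, mas_3, Pi.mul_apply] <;> ring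

theorem smoa2_mul {a b A B : ℝ} (ha : |a| ≤ A) (hb : |b| ≤ B) : |a * b| ≤ A * B := by
  rw [abs_mul]
  exact mul_le_mul ha hb (abs_nonneg _) ((abs_nonneg _).trans ha)

/-- **product rule.** `interior` for `s` (on a slightly larger box: radius `R + 2`, `4 (R+2) + 8 = 4 R + 16`);
`dif (m s) (y) = m (y+e) dif s (y) + dif m (y) s (y)`; `mas (m s) (y,·) = m (y,0) mas s + mas ((m (y,·) - m (y,0)) s)`, `abs_mas_le`,
`mas_dif` -/
theorem smo_mul : ∃ C : ℝ, 1 ≤ C ∧ ∀ (m s : Fn) (z : Site) (R l : ℕ) (M : ℝ), 1 ≤ R → R ≤ l → 0 ≤ M →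
    Mult (box z (R + 2)) l m → SolOn wPl (box z (4 * R + 16)) s → SB (box z (4 * R + 16)) M s →
    Smo (box z R) R (C * M) (m * s) := by
  obtain ⟨C0, hC0⟩ := interior
  set C : ℝ := |C0| + 1 with hC
  have hC1 : 1 ≤ C := le_add_of_nonneg_left (abs_nonneg _)
  have hCC : C0 ≤ C := (le_abs_self _).trans (le_add_of_nonneg_right zero_le_one)
  refine ⟨4 * C + 2, by linarith, fun m s z R l M hR hl hM hm hs hb => ?_⟩
  have hR0 : (0 : ℝ) < R := by exact_mod_cast hR
  set ρ : ℝ := (R : ℝ)⁻¹ with hρ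
  have hρ0 : 0 < ρ := inv_pos.2 hR0
  have hl1 : 1 / (l : ℝ) ≤ ρ := by
    rw [one_div]
    exact inv_anti₀ hR0 (by exact_mod_cast hl)
  have hl2 : 1 / (l : ℝ) ^ 2 ≤ ρ * ρ := by
    have h0 : (0 : ℝ) ≤ 1 / (l : ℝ) := by positivity
    calc 1 / (l : ℝ) ^ 2 = 1 / (l : ℝ) * (1 / (l : ℝ)) := by ring
      _ ≤ ρ * ρ := mul_le_mul hl1 hl1 h0 hρ0.le
  have hr1 : ((R + 2 : ℕ) : ℝ)⁻¹ ≤ ρ := inv_anti₀ hR0 (by push_cast; linarith)
  have hr0 : 0 ≤ ((R + 2 : ℕ) : ℝ)⁻¹ := by positivity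
  have hq1 : C0 * M / ((R + 2 : ℕ) : ℝ) ≤ C * M * ρ := by
    rw [div_eq_mul_inv]
    exact mul_le_mul (mul_le_mul_of_nonneg_right hCC hM) hr1 hr0 (by positivity)
  have hq2 : C0 * M / ((R + 2 : ℕ) : ℝ) ^ 2 ≤ C * M * (ρ * ρ) := by
    rw [div_eq_mul_inv, ← inv_pow, sq]
    exact mul_le_mul (mul_le_mul_of_nonneg_right hCC hM) (mul_le_mul hr1 hr1 hr0 hρ0.le) (by positivity)
      (by positivity)
  have e16 : 4 * (R + 2) + 8 = 4 * R + 16 := by ring
  have hI := hC0 s z (R + 2) M (by omega) (by rw [e16]; exact hs) (by rw [e16]; exact hb)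
  have s0 : ∀ y ∈ box z (R + 2), ∀ α, |s (y, α)| ≤ M := fun y hy α =>
    hb y (Finset.mem_coe.2 (box_mono z (by omega) hy)) α
  have s1 : ∀ y ∈ box z (R + 2), ∀ α γ, |dif (dv γ) s (y, α)| ≤ C * M * ρ := fun y hy α γ =>
    (hI y hy α γ 0 0).1.trans hq1
  have s2 : ∀ y ∈ box z (R + 2), ∀ α γ δ, |dif (dv δ) (dif (dv γ) s) (y, α)| ≤ C * M * (ρ * ρ) := fun y hy α γ δ =>
    (hI y hy α γ δ 0).2.1.trans hq2
  have s3 : ∀ y ∈ box z (R + 2), ∀ α, |mas s (y, α)| ≤ C * M * ρ := fun y hy α =>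
    (hI y hy α 0 0 0).2.2.2.1.trans hq1
  have s4 : ∀ y ∈ box z (R + 2), ∀ α γ, |dif (dv γ) (mas s) (y, α)| ≤ C * M * (ρ * ρ) := fun y hy α γ =>
    (hI y hy α γ 0 0).2.2.2.2.trans hq2
  have m0 : ∀ y ∈ box z (R + 2), ∀ α, |m (y, α)| ≤ 1 := fun y hy α => (hm y (Finset.mem_coe.2 hy) α 0 0 0).1
  have m1 : ∀ y ∈ box z (R + 2), ∀ α β, |m (y, α) - m (y, β)| ≤ ρ := fun y hy α β =>
    (hm y (Finset.mem_coe.2 hy) α β 0 0).2.1.trans hl1
  have m2 : ∀ y ∈ box z (R + 2), ∀ α γ, |dif (dv γ) m (y, α)| ≤ ρ := fun y hy α γ =>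
    (hm y (Finset.mem_coe.2 hy) α 0 γ 0).2.2.1.trans hl1
  have m3 : ∀ y ∈ box z (R + 2), ∀ α γ δ, |dif (dv δ) (dif (dv γ) m) (y, α)| ≤ ρ * ρ := fun y hy α γ δ =>
    (hm y (Finset.mem_coe.2 hy) α 0 γ δ).2.2.2.1.trans hl2
  have m4 : ∀ y ∈ box z (R + 2), ∀ α β γ, |dif (dv γ) m (y, α) - dif (dv γ) m (y, β)| ≤ ρ * ρ :=
    fun y hy α β γ => (hm y (Finset.mem_coe.2 hy) α β γ 0).2.2.2.2.trans hl2
  intro y hy α γ δ
  have hy0 : y ∈ box z R := Finset.mem_coe.1 hy
  have hy2 : y ∈ box z (R + 2) := box_mono z (by omega) hy0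
  have hy1 : ∀ β, y + dv β ∈ box z (R + 2) := fun β => box_mono z (by omega) (add_dv_mem_box hy0 β)
  have hy3 : y + dv δ + dv γ ∈ box z (R + 2) := add_dv_mem_box (add_dv_mem_box hy0 δ) γ
  have hMρ : 0 ≤ M * ρ := by positivity
  have hMρ2 : 0 ≤ M * (ρ * ρ) := by positivity
  have hCM : 0 ≤ C * M := by positivity
  have hCMρ : 0 ≤ C * (M * ρ) := by positivity
  have hCMρ2 : 0 ≤ C * (M * (ρ * ρ)) := by positivity
  have d1 : (4 * C + 2) * M / (R : ℝ) = (4 * C + 2) * (M * ρ) := by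
    rw [div_eq_mul_inv, mul_assoc]
  have d2 : (4 * C + 2) * M / (R : ℝ) ^ 2 = (4 * C + 2) * (M * (ρ * ρ)) := by
    rw [div_eq_mul_inv, ← inv_pow, sq, mul_assoc]
  rw [d1, d2]
  refine ⟨?_, ?_, ?_, ?_, ?_⟩
  · have := smoa2_mul (m0 y hy2 α) (s0 y hy2 α)
    rw [Pi.mul_apply]
    nlinarith
  · have e : dif (dv γ) (m * s) (y, α) =
        m (y + dv γ, α) * dif (dv γ) s (y, α) + dif (dv γ) m (y, α) * s (y, α) := by
      simp only [dif, Pi.mul_apply]
      ring
    rw [e]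
    have h1 := smoa2_mul (m0 _ (hy1 γ) α) (s1 y hy2 α γ)
    have h2 := smoa2_mul (m2 y hy2 α γ) (s0 y hy2 α)
    refine (abs_add_le _ _).trans ?_
    nlinarith
  · have e : dif (dv δ) (dif (dv γ) (m * s)) (y, α) =
        m (y + dv δ + dv γ, α) * dif (dv δ) (dif (dv γ) s) (y, α) +
          dif (dv δ) m (y + dv γ, α) * dif (dv γ) s (y, α) +
          dif (dv γ) m (y + dv δ, α) * dif (dv δ) s (y, α) + dif (dv δ) (dif (dv γ) m) (y, α) * s (y, α) := by
      simp only [dif, Pi.mul_apply, add_right_comm y (dv γ) (dv δ)]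
      ring
    rw [e]
    have h1 := smoa2_mul (m0 _ hy3 α) (s2 y hy2 α γ δ)
    have h2 := smoa2_mul (m2 _ (hy1 γ) α δ) (s1 y hy2 α γ)
    have h3 := smoa2_mul (m2 _ (hy1 δ) α γ) (s1 y hy2 α δ)
    have h4 := smoa2_mul (m3 y hy2 α γ δ) (s0 y hy2 α)
    refine (abs_add_le _ _).trans ((add_le_add_left (abs_add_three _ _ _) _).trans ?_)
    nlinarith
  · rw [smoa2_mas]
    have h1 := smoa2_mul (m0 y hy2 0) (s3 y hy2 α)
    have h2 := abs_mas_le (f := fun i => (m i - m (i.1, 0)) * s i) (y := y) (c := ρ * M)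
      (fun β => smoa2_mul (m1 y hy2 β 0) (s0 y hy2 β)) α
    refine (abs_add_le _ _).trans ?_
    nlinarith
  · have e : dif (dv γ) (mas (m * s)) (y, α) =
        m (y + dv γ, 0) * dif (dv γ) (mas s) (y, α) + dif (dv γ) m (y, 0) * mas s (y, α) +
          mas (dif (dv γ) fun i => (m i - m (i.1, 0)) * s i) (y, α) := by
      rw [mas_dif]
      simp only [dif, smoa2_mas m s]
      ring
    rw [e]
    have h1 := smoa2_mul (m0 _ (hy1 γ) 0) (s4 y hy2 α γ)
    have h2 := smoa2_mul (m2 y hy2 0 γ) (s3 y hy2 α)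
    have h3 := abs_mas_le (f := dif (dv γ) fun i => (m i - m (i.1, 0)) * s i) (y := y)
      (c := ρ * (C * M * ρ) + ρ * ρ * M) (fun β => by
        have e' : dif (dv γ) (fun i => (m i - m (i.1, 0)) * s i) (y, β) =
            (m (y + dv γ, β) - m (y + dv γ, 0)) * dif (dv γ) s (y, β) +
              (dif (dv γ) m (y, β) - dif (dv γ) m (y, 0)) * s (y, β) := by
          simp only [dif]
          ring
        rw [e']
        exact (abs_add_le _ _).trans (add_le_add (smoa2_mul (m1 _ (hy1 γ) β 0) (s1 y hy2 β γ))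
          (smoa2_mul (m4 y hy2 β 0 γ) (s0 y hy2 β)))) α
    refine (abs_add_three _ _ _).trans ?_
    nlinarith

theorem smoa_mult {W : Set Site} {l : ℕ} {c : ℝ} {f : Fn} (hl : 1 ≤ l) (hc : 0 < c) (h : Smo W l c f) (ρ : Fn → Site → ℝ)
    (h1 : ∀ a g y, ρ (dif a g) y = ρ g (y + a) - ρ g y) (h2 : ∀ g y c, (∀ α, |g (y, α)| ≤ c) → |ρ g y| ≤ 2 * c)
    (e : Fin 4 → ℝ) (he : ∀ α, |e α| ≤ 1) : Mult W l fun i => (ρ f i.1 + mas f i * e i.2) / (10 * c) := by
  have hl' : (1 : ℝ) ≤ l := by exact_mod_cast hl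
  have key : ∀ (a : Site) (g : Fn), dif a (fun i => (ρ g i.1 + mas g i * e i.2) / (10 * c)) =
      fun i => (ρ (dif a g) i.1 + mas (dif a g) i * e i.2) / (10 * c) := fun a g => by
    funext i
    rw [mas_dif, h1]
    simp only [dif]
    ring
  have hm : ∀ {t b : ℝ} (α : Fin 4), |t| ≤ b → |t * e α| ≤ b := fun α ht => by
    rw [abs_mul]
    exact (mul_le_of_le_one_right (abs_nonneg _) (he α)).trans ht
  have fin : ∀ {t L : ℝ}, |t| ≤ 10 * (c / L) → |t / (10 * c)| ≤ 1 / L := fun {t L} ht => by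
    rw [abs_div, abs_of_pos (by positivity : 0 < 10 * c), div_le_iff₀ (by positivity)]
    exact ht.trans_eq (by ring)
  have p1 : 0 ≤ c / l := by positivity
  have p2 : 0 ≤ c / (l : ℝ) ^ 2 := by positivity
  have q1 : c / l ≤ c := div_le_self hc.le hl'
  have q2 : c / (l : ℝ) ^ 2 ≤ c / l := by gcongr; nlinarith
  intro x hx α β γ δ
  simp only [key, ← sub_div, add_sub_add_left_eq_sub]
  refine ⟨?_, fin ?_, fin ?_, fin ?_, fin ?_⟩
  · refine (fin (L := 1) ((abs_add_le _ _).trans ?_)).trans_eq (div_one _)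
    have := h2 f x c fun α => (h x hx α 0 0).1
    have := hm α (h x hx α 0 0).2.2.2.1
    rw [div_one]
    linarith
  · refine (abs_sub _ _).trans ?_
    have := hm α (h x hx α 0 0).2.2.2.1
    have := hm β (h x hx β 0 0).2.2.2.1
    linarith
  · refine (abs_add_le _ _).trans ?_
    have := h2 _ x _ fun α => (h x hx α γ 0).2.1
    have := hm α (abs_mas_le (fun α => (h x hx α γ 0).2.1) α)
    linarith
  · refine (abs_add_le _ _).trans ?_
    have := h2 _ x _ fun α => (h x hx α γ δ).2.2.1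
    have := hm α (abs_mas_le (fun α => (h x hx α γ δ).2.2.1) α)
    linarith
  · refine (abs_sub _ _).trans ?_
    have := hm α (h x hx α γ 0).2.2.2.2
    have := hm β (h x hx β γ 0).2.2.2.2
    rw [mas_dif]
    linarith

theorem smoa_dec (f : Fn) (i : HE) : f i = ((fld f i.1).re + mas f i * cSol 1 (0, i.2)) * cSol 1 i +
    ((fld f i.1).im + mas f i * cSol Complex.I (0, i.2)) * cSol Complex.I i := by
  obtain ⟨x, α⟩ := i
  have e : f (x, α) = cSol (fld f x) (x, α) + mas f (x, α) := by simp [mas]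
  rw [e]
  generalize mas f (x, α) = t
  generalize fld f x = z
  induction α using b1_fin4 <;> simp only [cSol_0, cSol_1, cSol_2, cSol_3, Complex.one_re, Complex.one_im,
    Complex.I_re, Complex.I_im]
  · ring
  · linear_combination (-t / 2) * b1_r
  · ring
  · linear_combination (-t / 2) * b1_r

/-- **every smooth function is a sum of two (multiplier × constant solution).** `a (y,α) = Re (fld f y) + mas f (y,α) cSol 1 α`,
`b (y,α) = Im (fld f y) + mas f (y,α) cSol I α` (`cSol 1 ² + cSol I ² = 1`), divided by `10 c`; `fld`, `mas` commute with `dif`;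
`c = 0`: take `m₁ = m₂ = 0` -/
theorem smo_split {W : Set Site} {l : ℕ} {c : ℝ} {f : Fn} (hl : 1 ≤ l) (hc : 0 ≤ c) (h : Smo W l c f) :
    ∃ m₁ m₂ : Fn, Mult W l m₁ ∧ Mult W l m₂ ∧
      ∀ i : HE, i.1 ∈ W → f i = 10 * c * (m₁ i * cSol 1 i + m₂ i * cSol Complex.I i) := by
  rcases hc.eq_or_lt with rfl | hc
  · refine ⟨fun _ => 0, fun _ => 0, mult_const W l (by simp), mult_const W l (by simp), fun ⟨x, α⟩ hi => ?_⟩
    simpa using (h x hi α 0 0).1
  refine ⟨_, _, smoa_mult hl hc h (fun g y => (fld g y).re) (fun a g y => by rw [loc_fld_dif, Complex.sub_re])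
      (fun g y c h => (norm_fld_le h).1) (fun α => cSol 1 (0, α)) fun α => by simpa using abs_cSol_le 1 (0, α),
    smoa_mult hl hc h (fun g y => (fld g y).im) (fun a g y => by rw [loc_fld_dif, Complex.sub_im])
      (fun g y c h => (norm_fld_le h).2) (fun α => cSol Complex.I (0, α))
      fun α => by simpa using abs_cSol_le Complex.I (0, α), fun i _ => ?_⟩
  refine (smoa_dec f i).trans ?_
  field_simp

/-! ### part b: Taylor -/

theorem smob1_mas_loc (F : Site → ℂ) : mas (fun i => cSol (F i.1) i) = 0 := by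
  funext ⟨y, α⟩
  have e : fld (fun i => cSol (F i.1) i) y = F y := fld_cSol (F y) y
  simp [mas, e]

theorem smob1_dif_cSol (a : Site) (c : ℂ) : dif a (cSol c) = 0 := by
  funext i
  simp [dif, cSol]

theorem smob1_dif_zero (a : Site) : dif a (0 : Fn) = 0 := by
  funext i
  simp [dif]

theorem smob1_cSol {c : ℂ} {M : ℝ} (h : |c.re| + |c.im| ≤ M) (W : Set Site) (l : ℕ) : Smo W l M (cSol c) := by
  intro y hy α γ δ
  have hM : 0 ≤ M := le_trans (by positivity) h
  have e : mas (cSol c) = 0 := smob1_mas_loc fun _ => c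
  simp only [e, smob1_dif_cSol, smob1_dif_zero, Pi.zero_apply, abs_zero]
  exact ⟨(abs_cSol_le c _).trans h, by positivity, by positivity, by positivity, by positivity⟩

theorem smob1_dif_sub (a : Site) (f : Fn) (c : ℂ) : dif a (f - cSol c) = dif a f := by
  funext i
  simp [dif, cSol]

theorem smob1_mas_sub (f : Fn) (c : ℂ) : mas (f - cSol c) = mas f := by
  funext ⟨y, α⟩
  have e := congrFun (smob1_mas_loc fun _ => c) (y, α)
  induction α using b1_fin4 <;> simp only [mas_0, mas_1, mas_2, mas_3, Pi.sub_apply, Pi.zero_apply] at e ⊢ <;> linarith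

theorem smo_T0 {z : Site} {f : Fn} {c : ℝ} (h : ∀ α, |f (z, α)| ≤ c) (W : Set Site) (l : ℕ) : Smo W l (4 * c) (T0 z f) := by
  exact smob1_cSol (by linarith [(norm_fld_le h).1, (norm_fld_le h).2]) W l

/-- `(f - T0 f) (z, α) = mas f (z, α)`, `dif (T0 f) = 0`, `mas (T0 f) = 0`, `lip_box` -/
theorem smo_taylor1 {z : Site} {f : Fn} {c : ℝ} {l r R : ℕ} (hc : 0 ≤ c) (hl : 1 ≤ l) (hlr : l ≤ r) (hr : r ≤ R)
    (h : Smo (box z R) R c f) : Smo (box z r) l (5 * c * r / R) (f - T0 z f) := by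
  intro y hy α γ δ
  have hsub : ∀ w ∈ box z r, w ∈ box z R := fun w hw => box_subset_box (self_mem_box z 0) (by omega) hw
  have h1 : (1 : ℝ) ≤ l := by exact_mod_cast hl
  have h2 : (l : ℝ) ≤ r := by exact_mod_cast hlr
  have h3 : (r : ℝ) ≤ R := by exact_mod_cast hr
  have hR : (0 : ℝ) < R := by linarith
  have k1 : c / R ≤ 5 * c * r / R / l := by
    rw [le_div_iff₀ (by linarith), div_mul_eq_mul_div]
    exact div_le_div_of_nonneg_right (by nlinarith) hR.le
  have k2 : c / (R : ℝ) ^ 2 ≤ 5 * c * r / R / (l : ℝ) ^ 2 := by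
    rw [div_div, div_le_div_iff₀ (by positivity) (by positivity)]
    have : (l : ℝ) ^ 2 ≤ 5 * r * R := by nlinarith
    have := mul_le_mul_of_nonneg_left this (mul_nonneg hc hR.le)
    nlinarith
  obtain ⟨-, a2, a3, a4, a5⟩ := h y (hsub y hy) α γ δ
  simp only [T0, smob1_dif_sub, smob1_mas_sub]
  refine ⟨?_, a2.trans k1, a3.trans k2, a4.trans k1, a5.trans k2⟩
  have b1 := lip_box (fun w => f (w, α)) hy (g := c / R) fun w hw β => (h w (hsub w hw) α β β).2.1
  have b2 := (h z (self_mem_box z R) α α α).2.2.2.1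
  have e : (f - cSol (fld f z)) (y, α) = (f (y, α) - f (z, α)) + mas f (z, α) := by
    simp [mas, cSol]
  have b3 : 5 * c * r / R = 4 * r * (c / R) + r * (c / R) := by ring
  have b4 : c / R ≤ r * (c / R) := le_mul_of_one_le_left (by positivity) (by linarith)
  rw [e]
  exact (abs_add_le _ _).trans (by linarith)

theorem smob2_lin (x y : ℝ) (A B : ℂ) (i : HE) : cSol (x * A + y * B) i = x * cSol A i + y * cSol B i := by
  simp only [cSol, add_mul, mul_assoc, Complex.add_re, Complex.re_ofReal_mul]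

theorem smob2_half (f : Fn) (x y z : Site) (α : Fin 4) : cSol ((fld f x - fld f y) / 2) (z, α) =
    (f (x, α) - mas f (x, α) - (f (y, α) - mas f (y, α))) / 2 := by
  have := smob2_lin (1 / 2) (-1 / 2) (fld f x) (fld f y) (z, α)
  rw [show (fld f x - fld f y) / 2 = ((1 / 2 : ℝ) : ℂ) * fld f x + ((-1 / 2 : ℝ) : ℂ) * fld f y by push_cast; ring, this]
  simp only [mas, cSol]
  ring

theorem smob2_mas {s f : Fn} {y z : Site} {C : ℂ} (h : ∀ β, s (y, β) = f (y, β) - f (z, β) - cSol C (y, β)) (α : Fin 4) :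
    mas s (y, α) = mas f (y, α) - mas f (z, α) := by
  induction α using b1_fin4 <;> simp only [mas_0, mas_1, mas_2, mas_3, h, cSol_0, cSol_1, cSol_2, cSol_3]
  · linear_combination (C.re / 4) * b1_r
  · ring
  · linear_combination (-C.im / 4) * b1_r
  · ring

/-- `h = f - T0 f - T1 f`: `h (z,·) = 0`; `dif γ h (z,α) = cSol (dif γ fld f - central difference) α + dif γ (mas f) (z,α)` is a second
difference, `≤ 5 c / R²`; `dif dif h = dif dif f`; `mas h (y) = mas f (y) - mas f (z)`; `lip_box` twice -/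
theorem smo_taylor2 {z : Site} {f : Fn} {c : ℝ} {l r R : ℕ} (hc : 0 ≤ c) (hl : 1 ≤ l) (hlr : l ≤ r) (hr : r ≤ R)
    (h : Smo (box z R) R c f) : Smo (box z r) l (40 * c * (r : ℝ) ^ 2 / (R : ℝ) ^ 2) (f - T0 z f - T1 z f) := by
  set A := (fld f (z + (1, 0)) - fld f (z - (1, 0))) / 2 with hA
  set B := (fld f (z + (0, 1)) - fld f (z - (0, 1))) / 2 with hB
  set g := f - T0 z f - T1 z f with hg
  have e0 : ∀ y β, g (y, β) = f (y, β) - f (z, β) - cSol ((((y - z).1 : ℝ) : ℂ) * A + (((y - z).2 : ℝ) : ℂ) * B) (y, β) :=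
    fun y β => by
      simp only [hg, Pi.sub_apply, T0, T1, mas, ← hA, ← hB]
      simp only [cSol]
      ring
  have e1 : ∀ y β γ, dif (dv γ) g (y, β) =
      dif (dv γ) f (y, β) - (((dv γ).1 : ℝ) * cSol A (z, β) + ((dv γ).2 : ℝ) * cSol B (z, β)) := fun y β γ => by
    simp only [dif, e0, smob2_lin]
    simp only [cSol, Prod.fst_sub, Prod.snd_sub, Prod.fst_add, Prod.snd_add]
    push_cast
    ring
  have e2 : ∀ y β γ δ, dif (dv δ) (dif (dv γ) g) (y, β) = dif (dv δ) (dif (dv γ) f) (y, β) := fun y β γ δ => by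
    change dif (dv γ) g (y + dv δ, β) - dif (dv γ) g (y, β) = dif (dv γ) f (y + dv δ, β) - dif (dv γ) f (y, β)
    rw [e1, e1]
    ring
  have e3 : ∀ y β, mas g (y, β) = mas f (y, β) - mas f (z, β) := fun y β => smob2_mas (e0 y) β
  have hsub : ∀ y ∈ box z r, y ∈ box z R := fun y hy => by
    rw [mem_box'] at hy ⊢
    omega
  have hz : z ∈ box z R := mem_box'.2 (by omega)
  set k := c / (R : ℝ) ^ 2 with hk
  have hk0 : 0 ≤ k := by positivity
  have hl1 : (1 : ℝ) ≤ l := by exact_mod_cast hl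
  have hlr' : (l : ℝ) ≤ r := by exact_mod_cast hlr
  have m : ∀ β γ, |mas f (z + dv γ, β) - mas f (z, β)| ≤ k := fun β γ => (h z hz β γ γ).2.2.2.2
  have b0 : ∀ β γ, |dif (dv γ) g (z, β)| ≤ 2 * k := fun β γ => by
    have s0 : |f (z, β) - f (z - (1, 0), β) - (f (z + (1, 0), β) - f (z, β))| ≤ k := by
      simpa [dif, dv, add_assoc, sub_eq_add_neg, Prod.mk_zero_zero] using (h z hz β 0 2).2.2.1
    have s1 : |f (z, β) - f (z - (0, 1), β) - (f (z + (0, 1), β) - f (z, β))| ≤ k := by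
      simpa [dif, dv, add_assoc, sub_eq_add_neg, Prod.mk_zero_zero] using (h z hz β 1 3).2.2.1
    have m0 : |mas f (z + (1, 0), β) - mas f (z, β)| ≤ k := m β 0
    have m1 : |mas f (z + (0, 1), β) - mas f (z, β)| ≤ k := m β 1
    have m2 : |mas f (z - (1, 0), β) - mas f (z, β)| ≤ k := by simpa [dv, sub_eq_add_neg] using m β 2
    have m3 : |mas f (z - (0, 1), β) - mas f (z, β)| ≤ k := by simpa [dv, sub_eq_add_neg] using m β 3
    have d2 : z + dv 2 = z - (1, 0) := by simp [dv, sub_eq_add_neg]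
    have d3 : z + dv 3 = z - (0, 1) := by simp [dv, sub_eq_add_neg]
    rw [abs_le] at s0 s1 m0 m1 m2 m3 ⊢
    rw [e1, hA, hB, smob2_half, smob2_half]
    induction γ using b1_fin4
    · rw [dif, show z + dv 0 = z + (1, 0) from rfl]
      simp only [dv, Matrix.cons_val, Int.cast_one, Int.cast_zero]
      constructor <;> linarith
    · rw [dif, show z + dv 1 = z + (0, 1) from rfl]
      simp only [dv, Matrix.cons_val, Int.cast_one, Int.cast_zero]
      constructor <;> linarith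
    · rw [dif, d2]
      simp only [dv, Matrix.cons_val, Int.cast_one, Int.cast_zero, Int.cast_neg]
      constructor <;> linarith
    · rw [dif, d3]
      simp only [dv, Matrix.cons_val, Int.cast_one, Int.cast_zero, Int.cast_neg]
      constructor <;> linarith
  have b1 : ∀ y ∈ box z r, ∀ β γ, |dif (dv γ) g (y, β)| ≤ 6 * r * k := fun y hy β γ => by
    have h1 := lip_box (fun w => dif (dv γ) g (w, β)) hy (g := k) fun w hw δ =>
      (congrArg abs (e2 w β γ δ)).trans_le (h w (hsub w hw) β γ δ).2.2.1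
    have h2 := abs_sub_abs_le_abs_sub (dif (dv γ) g (y, β)) (dif (dv γ) g (z, β))
    nlinarith [b0 β γ]
  have q0 : 40 * c * (r : ℝ) ^ 2 / (R : ℝ) ^ 2 = 40 * k * r ^ 2 := by rw [hk]; ring
  have q1 : 40 * k * r ≤ 40 * k * r ^ 2 / l := by
    rw [le_div_iff₀ (by linarith)]
    nlinarith [mul_le_mul_of_nonneg_left hlr' (by positivity : 0 ≤ k * r)]
  have q2 : k ≤ 40 * k * r ^ 2 / (l : ℝ) ^ 2 := by
    rw [le_div_iff₀ (by positivity)]
    nlinarith [mul_le_mul_of_nonneg_left (pow_le_pow_left₀ (by linarith) hlr' 2) hk0, mul_nonneg hk0 (sq_nonneg (r : ℝ))]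
  have hkr : 0 ≤ k * r := by positivity
  rw [q0]
  refine fun y hy α γ δ => ⟨?_, (b1 y hy α γ).trans (by linarith), ?_, ?_, ?_⟩
  · have h1 := lip_box (fun w => g (w, α)) hy (g := 6 * r * k) fun w hw δ => b1 w hw α δ
    have h2 : g (z, α) = 0 := by simp [e0, cSol]
    simp only [h2, sub_zero] at h1
    nlinarith [mul_nonneg hk0 (sq_nonneg (r : ℝ))]
  · rw [e2]
    exact (h y (hsub y hy) α γ δ).2.2.1.trans q2
  · have h1 := lip_box (fun w => mas f (w, α)) hy (g := k) fun w hw δ => (h w (hsub w hw) α δ δ).2.2.2.2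
    rw [e3]
    exact h1.trans (by linarith)
  · refine le_of_eq_of_le ?_ ((h y (hsub y hy) α γ δ).2.2.2.2.trans q2)
    simp only [dif, e3, sub_sub_sub_cancel_right]

theorem smo_cSol (c : ℂ) (W : Set Site) (l : ℕ) : Smo W l (|c.re| + |c.im|) (cSol c) := by
  exact smob1_cSol le_rfl W l

theorem smob1_fOf {z : Site} {l r : ℕ} (hl : 1 ≤ l) (hlr : l ≤ r) {F : ℂ → ℂ} (hF : ∀ u v, F (u + v) = F u + F v)
    (hb : ∀ w, |(F w).re| + |(F w).im| ≤ |w.re| + |w.im|) : Smo (box z r) l (2 * r) (fOf z F) := by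
  intro y hy α γ δ
  have h1 : (1 : ℝ) ≤ l := by exact_mod_cast hl
  have h2 : (l : ℝ) ≤ r := by exact_mod_cast hlr
  have e1 : mas (fOf z F) = 0 := smob1_mas_loc fun w => F (toC (w - z))
  have e2 : dif (dv γ) (fOf z F) = cSol (F (toC (dv γ))) := by
    funext i
    have : toC (i.1 + dv γ - z) = toC (i.1 - z) + toC (dv γ) := by
      apply Complex.ext <;> simp [toC] <;> ring
    simp [dif, fOf, cSol, this, hF, add_mul]
  simp only [e1, e2, smob1_dif_cSol, smob1_dif_zero, Pi.zero_apply, abs_zero]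
  refine ⟨(abs_cSol_le _ _).trans ((hb _).trans ?_), (abs_cSol_le _ _).trans ((hb _).trans ?_), by positivity,
    by positivity, by positivity⟩
  · have hy' := mem_box'.1 hy
    have a1 : |y.1 - z.1| ≤ (r : ℤ) := abs_le.2 ⟨by omega, by omega⟩
    have a2 : |y.2 - z.2| ≤ (r : ℤ) := abs_le.2 ⟨by omega, by omega⟩
    have a3 : |(y.1 : ℝ) - z.1| ≤ r := by exact_mod_cast a1
    have a4 : |(y.2 : ℝ) - z.2| ≤ r := by exact_mod_cast a2
    simp only [toC, Prod.fst_sub, Prod.snd_sub, Int.cast_sub]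
    linarith
  · have : (1 : ℝ) ≤ 2 * r / l := by
      rw [le_div_iff₀ (by linarith)]
      linarith
    refine le_trans (le_of_eq ?_) this
    induction γ using b1_fin4 <;> simp [toC, dv]

/-- the two linear test functions of `z0` -/
theorem smo_fOf {z : Site} {l r : ℕ} (hl : 1 ≤ l) (hlr : l ≤ r) :
    Smo (box z r) l (2 * r) (fOf z fun w => Complex.I * (starRingEnd ℂ) w) ∧
      Smo (box z r) l (2 * r) (fOf z fun w => (starRingEnd ℂ) w) := by
  exact ⟨smob1_fOf hl hlr (fun u v => by simp [mul_add]) fun w => by simp [add_comm],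
    smob1_fOf hl hlr (fun u v => by simp) fun w => by simp⟩

/-- `(m - m q) / (5 r / l')` is a multiplier at the scale `l ≤ r ≤ l'` (`lip_box` with centre `b`: `|m (y,α) - m q| ≤ (8 r + 1) / l'`) -/
theorem mult_sub {b : Site} {m : Fn} {q : HE} {l r l' : ℕ} (hl : 1 ≤ l) (hlr : l ≤ r) (hr : r ≤ l') (hq : q.1 ∈ box b r)
    (h : Mult (box b r) l' m) : Mult (box b r) l fun i => (m i - m q) / (9 * r / l') := by
  have h1 : (1 : ℝ) ≤ l := by exact_mod_cast hl
  have h2 : (l : ℝ) ≤ r := by exact_mod_cast hlr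
  have h3 : (r : ℝ) ≤ l' := by exact_mod_cast hr
  have hl' : (0 : ℝ) < l' := by linarith
  have hr0 : (0 : ℝ) < r := by linarith
  have hκ : (0 : ℝ) < 9 * r / l' := by positivity
  have key : ∀ {a A B : ℝ}, |a| ≤ A → A ≤ B * (9 * r / l') → |a / (9 * r / l')| ≤ B := fun ha hA => by
    rw [abs_div, abs_of_pos hκ, div_le_iff₀ hκ]
    exact ha.trans hA
  have k1 : (1 : ℝ) / l' ≤ 1 / l * (9 * r / l') := by
    rw [div_mul_div_comm, div_le_div_iff₀ hl' (by positivity)]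
    nlinarith
  have k2 : (1 : ℝ) / (l' : ℝ) ^ 2 ≤ 1 / (l : ℝ) ^ 2 * (9 * r / l') := by
    rw [div_mul_div_comm, div_le_div_iff₀ (by positivity) (by positivity)]
    have : (l : ℝ) ^ 2 ≤ 9 * r * l' := by nlinarith
    nlinarith
  intro x hx α β γ δ
  obtain ⟨-, a2, a3, a4, a5⟩ := h x hx α β γ δ
  refine ⟨key (A := 9 * r / l') ?_ (by rw [one_mul]), ?_, ?_, ?_, ?_⟩
  · have b1 := lip_box (fun w => m (w, α)) hx (g := 1 / l') fun w hw β => (h w hw α α β β).2.2.1
    have b2 := lip_box (fun w => m (w, α)) hq (g := 1 / l') fun w hw β => (h w hw α α β β).2.2.1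
    have b3 := (h q.1 hq α q.2 α α).2.1
    have b4 : (1 : ℝ) / l' ≤ r * (1 / l') := le_mul_of_one_le_left (by positivity) (by linarith)
    have e : (9 * r / l' : ℝ) = 9 * (r * (1 / l')) := by ring
    rw [e, abs_le] at *
    constructor <;> linarith [b1.1, b1.2, b2.1, b2.2, b3.1, b3.2]
  · convert key a2 k1 using 2
    ring
  · convert key a3 k1 using 2
    simp only [dif]
    ring
  · convert key a4 k2 using 2
    simp only [dif]
    ring
  · convert key a5 k2 using 2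
    simp only [dif]
    ring

end Crest.Agent.R165.D2
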