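import Crest.Agent.R165.D2.Geo
import Crest.Agent.R165.D2.Smo

/-! # R165/D2/Mode (owner helper6): one-particle contraction near the boundary, a spin, a cluster, outside -/

set_option autoImplicit false
set_option linter.unusedVariables false
noncomputable section
open Classical

namespace Crest.Agent.R165.D2

theorem ma_iff {a w c : ℝ} (hw : 0 < w) (hc : 0 ≤ c) : a ^ 2 * w ≤ c ^ 2 ↔ |a| * Real.sqrt w ≤ c := by
  have e : a ^ 2 * w = (|a| * Real.sqrt w) ^ 2 := by rw [mul_pow, sq_abs, Real.sq_sqrt hw.le]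
  rw [e, sq_le_sq₀ (by positivity) hc]

/-- **rank one from the mode property.** `N s = max over W × Fin 4 of |s| √ω`, `ν = sup N` over `𝒮`. If `N s ≤ 4 η` for all `s` take `φ = 0`. Otherwise
take `s₀ ∈ 𝒮` with `N s₀ ≥ ν / 2`, `ν > 4 η`, `q` a maximiser for `s₀`, `φ = s₀ / s₀ q`. For `s`: `|c₂| ν / 2 ≤ η + |c₁| ν` gives `|c₁| ≥ 1/6`, so
`N (s - t s₀) ≤ 6 η`, `t = -c₂/c₁`; `|s q / s₀ q - t| N s₀ = |s q - t s₀ q| √(ω q) ≤ 6 η` -/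
theorem rank_one {W : Finset Site} (hW : W.Nonempty) (ω : Site → ℝ) (hω : ∀ y, 0 < ω y) (𝒮 : Set Fn) {N₀ η : ℝ} (hN : 0 ≤ N₀)
    (hη : 0 ≤ η) (h0 : ∀ s ∈ 𝒮, ∀ y ∈ W, ∀ α, s (y, α) ^ 2 * ω y ≤ N₀ ^ 2)
    (hm : ∀ s₁ ∈ 𝒮, ∀ s₂ ∈ 𝒮, ∃ c₁ c₂ : ℝ, |c₁| + |c₂| = 1 ∧ ∀ y ∈ W, ∀ α, (c₁ • s₁ + c₂ • s₂) (y, α) ^ 2 * ω y ≤ η ^ 2) :
    ∃ (q : HE) (φ : Fn), q.1 ∈ W ∧ (φ = 0 ∨ ∃ t : ℝ, ∃ s₀ ∈ 𝒮, φ = t • s₀) ∧ ∀ s ∈ 𝒮, ∀ y ∈ W, ∀ α,
      (s q * φ (y, α)) ^ 2 * ω y ≤ N₀ ^ 2 ∧ (s (y, α) - s q * φ (y, α)) ^ 2 * ω y ≤ (12 * η) ^ 2 := by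
  have h12 : 0 ≤ 12 * η := by linarith
  by_cases hs : ∀ s ∈ 𝒮, ∀ y ∈ W, ∀ α, |s (y, α)| * Real.sqrt (ω y) ≤ 12 * η
  · obtain ⟨y₀, hy₀⟩ := hW
    refine ⟨(y₀, 0), 0, hy₀, Or.inl rfl, fun s hs' y hy α => ⟨by simpa using sq_nonneg N₀, ?_⟩⟩
    rw [ma_iff (hω y) h12]
    simpa using hs s hs' y hy α
  push Not at hs
  obtain ⟨s₁, hs₁, y₁, hy₁, α₁, h₁⟩ := hs
  set A : Set ℝ := {a | ∃ s ∈ 𝒮, ∃ y ∈ W, ∃ α, a = |s (y, α)| * Real.sqrt (ω y)} with hA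
  have hbd : BddAbove A := ⟨N₀, by
    rintro _ ⟨s, hs, y, hy, α, rfl⟩
    exact (ma_iff (hω y) hN).1 (h0 s hs y hy α)⟩
  have hle : ∀ s ∈ 𝒮, ∀ y ∈ W, ∀ α, |s (y, α)| * Real.sqrt (ω y) ≤ sSup A := fun s hs y hy α =>
    le_csSup hbd ⟨s, hs, y, hy, α, rfl⟩
  have hν : 12 * η < sSup A := h₁.trans_le (hle s₁ hs₁ y₁ hy₁ α₁)
  obtain ⟨_, ⟨s₀, hs₀, y₀, hy₀, α₀, rfl⟩, h₀⟩ :=
    exists_lt_of_lt_csSup (s := A) ⟨_, s₁, hs₁, y₁, hy₁, α₁, rfl⟩ (show sSup A / 2 < sSup A by linarith)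
  obtain ⟨q, hq, hmax⟩ := Finset.exists_max_image (W ×ˢ (Finset.univ : Finset (Fin 4)))
    (fun i : HE => |s₀ i| * Real.sqrt (ω i.1)) ⟨(y₀, α₀), by simpa using hy₀⟩
  have hqW : q.1 ∈ W := (Finset.mem_product.1 hq).1
  have hmax' : ∀ y ∈ W, ∀ α, |s₀ (y, α)| * Real.sqrt (ω y) ≤ |s₀ q| * Real.sqrt (ω q.1) := fun y hy α =>
    hmax (y, α) (by simpa using hy)
  have hNq : sSup A / 2 < |s₀ q| * Real.sqrt (ω q.1) := h₀.trans_le (hmax' y₀ hy₀ α₀)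
  have hq0 : 0 < |s₀ q| := by
    refine (abs_nonneg _).lt_of_ne fun h => ?_
    rw [← h, zero_mul] at hNq
    linarith
  have hq1 : s₀ q ≠ 0 := abs_pos.1 hq0
  -- the basic estimate for multiples of `φ`
  have key : ∀ (a : ℝ), ∀ y ∈ W, ∀ α, |a * ((s₀ q)⁻¹ * s₀ (y, α))| * Real.sqrt (ω y) ≤ |a| * Real.sqrt (ω q.1) := by
    intro a y hy α
    rw [abs_mul, abs_mul, abs_inv, mul_assoc, mul_assoc]
    refine mul_le_mul_of_nonneg_left ?_ (abs_nonneg a)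
    rw [inv_mul_le_iff₀ hq0]
    exact hmax' y hy α
  refine ⟨q, (s₀ q)⁻¹ • s₀, hqW, Or.inr ⟨_, s₀, hs₀, rfl⟩, fun s hs y hy α => ⟨?_, ?_⟩⟩
  · rw [ma_iff (hω y) hN, Pi.smul_apply, smul_eq_mul]
    exact (key _ y hy α).trans ((ma_iff (hω q.1) hN).1 (h0 s hs q.1 hqW q.2))
  obtain ⟨c₁, c₂, hc, hd⟩ := hm s hs s₀ hs₀
  have hd' : ∀ y ∈ W, ∀ α, |c₁ * s (y, α) + c₂ * s₀ (y, α)| * Real.sqrt (ω y) ≤ η := fun y hy α =>
    (ma_iff (hω y) hη).1 (hd y hy α)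
  have hdq : |c₁ * s q + c₂ * s₀ q| * Real.sqrt (ω q.1) ≤ η := hd' q.1 hqW q.2
  have hsq : |s q| * Real.sqrt (ω q.1) ≤ sSup A := hle s hs q.1 hqW q.2
  have hr := Real.sqrt_nonneg (ω q.1)
  have hc1 : 1 / 6 ≤ |c₁| := by
    have a1 : |c₂| * |s₀ q| ≤ |c₁ * s q + c₂ * s₀ q| + |c₁| * |s q| := by
      rw [← abs_mul, ← abs_mul]
      have := abs_sub (c₁ * s q + c₂ * s₀ q) (c₁ * s q)
      rwa [add_sub_cancel_left] at this
    have a2 := mul_le_mul_of_nonneg_right a1 hr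
    have a3 := mul_le_mul_of_nonneg_left hsq (abs_nonneg c₁)
    have a4 := mul_le_mul_of_nonneg_left hNq.le (abs_nonneg c₂)
    have a5 : |c₂| = 1 - |c₁| := by linarith
    rw [a5] at a2 a4
    by_contra hlt
    push Not at hlt
    have a6 : |c₁| * sSup A ≤ 1 / 6 * sSup A := mul_le_mul_of_nonneg_right hlt.le (by linarith)
    nlinarith
  have hc0 : 0 < |c₁| := by linarith
  have hc0' : c₁ ≠ 0 := abs_pos.1 hc0
  rw [ma_iff (hω y) h12, Pi.smul_apply, smul_eq_mul]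
  have e : s (y, α) - s q * ((s₀ q)⁻¹ * s₀ (y, α)) =
      c₁⁻¹ * ((c₁ * s (y, α) + c₂ * s₀ (y, α)) - (c₁ * s q + c₂ * s₀ q) * ((s₀ q)⁻¹ * s₀ (y, α))) := by
    field_simp
    ring
  rw [e, abs_mul, abs_inv, mul_assoc, inv_mul_le_iff₀ hc0]
  have b1 := mul_le_mul_of_nonneg_right (abs_sub (c₁ * s (y, α) + c₂ * s₀ (y, α))
    ((c₁ * s q + c₂ * s₀ q) * ((s₀ q)⁻¹ * s₀ (y, α)))) (Real.sqrt_nonneg (ω y))
  have b2 := key (c₁ * s q + c₂ * s₀ q) y hy α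
  have b3 := hd' y hy α
  have b4 := mul_le_mul_of_nonneg_right hc1 h12
  linarith

section
variable {p : Par} {K : ℕ} {Γs : ℝ} {𝔤 : Geom} {j : ℕ}

/-- `rank_one` on `W = box b r`, `r = (T+3) ℓ`, `ω = dB S λ`; `in_ups`, `pr_rk1`, `pr_dl`; `m q s q φ = (const m q) * (s q • φ)`,
`m s - m q s q φ = m (s - s q • φ) + c ((m - m q) / c) (s q • φ)`, `c = 9 r / λ' = 900 (T+3) / L` (`mult_sub`), `dn_cls` -/
theorem rk1_of (h : Hyp p K Γs 𝔤 j) (b : Site) (𝒮 : Set Fn) {κ₀ η : ℝ} (hκ : 0 < κ₀) (hη : 0 < η)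
    (hsol : ∀ s ∈ 𝒮, SolOn 𝔤.w (box b ((p.T + 3) * p.l j)) s)
    (hcls : ∀ x s, supd x b ≤ (p.T + 4) * p.l j → Cls p 𝔤 (j + 1) x (𝔤.Gam (j + 1)) s → s ∈ 𝒮)
    (h0 : ∀ s ∈ 𝒮, ∀ y ∈ box b ((p.T + 3) * p.l j), ∀ α, s (y, α) ^ 2 * dB 𝔤.S (p.lam j) y ≤ (κ₀ * 𝔤.Gam j) ^ 2)
    (hm : ∀ s₁ ∈ 𝒮, ∀ s₂ ∈ 𝒮, ∃ c₁ c₂ : ℝ, |c₁| + |c₂| = 1 ∧ ∀ y ∈ box b ((p.T + 3) * p.l j), ∀ α,
      (c₁ • s₁ + c₂ • s₂) (y, α) ^ 2 * dB 𝔤.S (p.lam j) y ≤ (η * κ₀ * 𝔤.Gam j) ^ 2) :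
    Rk1 p 𝔤 j b κ₀ ((12 * η + 900 * (p.T + 3) / p.L) * κ₀) := by

  have h1 := l_eq h.ok j
  have h2 := lam_ge h.ok j
  have h3 := h.lam_big
  have h4 : 100 * p.l j ≤ p.T * p.l j := Nat.mul_le_mul_right _ h.hT
  have hΓ := h.gam_pos.1
  have e2 : (p.T + 2) * p.l j = p.T * p.l j + 2 * p.l j := by ring
  have e3 : (p.T + 3) * p.l j = p.T * p.l j + 3 * p.l j := by ring
  have e4 : (p.T + 4) * p.l j = p.T * p.l j + 4 * p.l j := by ring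
  obtain ⟨q, φ, hq, hφ, hr⟩ := rank_one ⟨b, self_mem_box b _⟩ (dB 𝔤.S (p.lam j))
    (fun y => one_pos.trans_le (D3.one_le_dB 𝔤.S (by omega) y)) 𝒮 (by positivity) (by positivity) h0 hm
  have hs : ∀ t : ℝ, SolOn 𝔤.w (box b ((p.T + 3) * p.l j)) (t • φ) := fun t y hy α => by
    rcases hφ with rfl | ⟨t', s₀, hs₀, rfl⟩
    · simp [opA, opp, sv]
    · rw [smul_smul, opA_smul, Pi.smul_apply, hsol s₀ hs₀ y hy α, smul_zero]
  refine ⟨q, φ, fun x x' hb hx u hu => ?_⟩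
  have d1 := supd_triangle x x' b
  have b1 : ∀ R, p.lam (j + 1) ≤ R → (↑(box b ((p.T + 3) * p.l j)) : Set Site) ⊆ box x R := fun R hR y hy => by
    have a1 := mem_box.1 (Finset.mem_coe.1 hy)
    have a2 := supd_triangle y b x
    rw [supd_comm b x] at a2
    exact Finset.mem_coe.2 (mem_box.2 (by omega))
  have b2 : ∀ R, R ≤ p.l j → box x' R ⊆ box b ((p.T + 3) * p.l j) := fun R hR y hy => by
    have a1 := mem_box.1 hy
    have a2 := supd_triangle y x' b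
    exact mem_box.2 (by omega)
  have hq' : SuppIn (box x (p.lam (j + 1))) (rk1 (extF φ) (dl q) u) := b1_rk1 (suppIn_dl (b1 _ le_rfl hq)) _ u
  have c1 : ∀ s, Cls p 𝔤 (j + 1) x (𝔤.Gam (j + 1)) s → Cls p 𝔤 j x' (κ₀ * 𝔤.Gam j) (s q • φ) := fun s hc =>
    ⟨fun y hy => hs _ y (b2 _ (by omega) hy),
      fun y hy α => (hr s (hcls x s (by omega) hc) y (b2 _ (by omega) hy) α).1⟩
  have hL : (0 : ℝ) < p.L := by exact_mod_cast (show 0 < p.L by have := h.ok.1; omega)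
  constructor
  · refine in_ups h.ok hκ hq' fun m s hm hc => ?_
    have a1 := dn_cls h.ok hΓ hκ.le (mult_const _ _ (hm q.1 (b1 _ (by omega) hq) q.2 q.2 q.2 q.2).1) (c1 s hc) u hu
    have e : ((fun _ => m (q.1, q.2)) * (s q • φ) : Fn) = (m * s) q • φ := funext fun i => by simp [mul_assoc]
    rwa [e, pr_extF_smul, mul_comm, ← pr_dl q (m * s), ← pr_rk1] at a1
  · refine in_ups h.ok (by positivity) (((ups_supp h.ok hu).mono (b2_box h hx (by omega) le_rfl)).sub hq')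
      fun m s hm hc => ?_
    have hm' := Mult.mono hm (b1 _ (by omega)) (by omega) le_rfl
    have a1 := dn_cls h.ok hΓ (κ := 12 * η * κ₀) (s := s - s q • φ) (by positivity)
      (Mult.mono hm' (Finset.coe_subset.2 (b2 (2 * p.lam j) (by omega))) (by omega) (by omega))
      ⟨fun y hy α => ?_, fun y hy α => ?_⟩ u hu
    · have a2 := dn_cls h.ok hΓ hκ.le (Mult.mono (mult_sub (l := p.lam j) (by omega) (by omega) (by omega) hq hm')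
        (Finset.coe_subset.2 (b2 (2 * p.lam j) (by omega))) (by omega) le_rfl) (c1 s hc) u hu
      have hc0 : (9 * (((p.T + 3) * p.l j : ℕ) : ℝ) / (p.lam (j + 1) : ℝ)) = 900 * (p.T + 3) / p.L := by
        have : (0 : ℝ) < p.lam j := by exact_mod_cast (show 0 < p.lam j by omega)
        rw [lam_succ h.ok, h1]
        push_cast
        field_simp
        ring
      rw [hc0] at a2
      have hc1 : (0 : ℝ) < 900 * (p.T + 3) / p.L := by positivity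
      generalize (900 * (p.T + 3) / p.L : ℝ) = c at a2 hc1 ⊢
      have e : m * s - (m * s) q • φ = m * (s - s q • φ) + c • ((fun i => (m i - m q) / c) * (s q • φ)) :=
        funext fun i => by
          simp only [Pi.sub_apply, Pi.add_apply, Pi.mul_apply, Pi.smul_apply, smul_eq_mul]
          field_simp
          ring
      rw [pr_sub, pr_rk1, pr_dl, mul_comm (pr u _), ← pr_extF_smul, ← pr_extF_sub, e, pr_extF_add, pr_extF_smul]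
      refine (abs_add_le _ _).trans ?_
      rw [abs_mul, abs_of_pos hc1, add_mul]
      exact add_le_add a1 (mul_le_mul_of_nonneg_left a2 hc1.le)
    · rw [opA_sub, Pi.sub_apply, hs _ y (b2 _ (by omega) hy) α,
        hsol s (hcls x s (by omega) hc) y (b2 _ (by omega) hy) α, sub_zero]
    · exact (hr s (hcls x s (by omega) hc) y (b2 _ (by omega) hy) α).2.trans_eq (by ring)


theorem Rk1.mono {b : Site} {κ₀ κ₁ κ₁' : ℝ} (h : Rk1 p 𝔤 j b κ₀ κ₁) (h₁ : 0 ≤ κ₁) (h₁' : κ₁ ≤ κ₁') : Rk1 p 𝔤 j b κ₀ κ₁' := by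

  obtain ⟨q, φ, h⟩ := h
  exact ⟨q, φ, fun x x' a1 a2 u hu => ⟨(h x x' a1 a2 u hu).1, (h x x' a1 a2 u hu).2.mono (bal_ups x) h₁ h₁'⟩⟩


/-- `dB S λ ≤ dB S λ'` (`B3.dB_scale`, or `exists_dB`, `le_dB`), `incl` -/
theorem triv_in (h : Hyp p K Γs 𝔤 j) {x x' : Site} (hx : supd x x' ≤ 2 * p.l j) :
    ∀ u ∈ 𝔤.Ups p j x', In (gr 𝔤 j) (𝔤.Ups p (j + 1) x) u := by
  have h1 := l_eq h.ok j
  have h2 := lam_ge h.ok j
  have h3 := h.lam_big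
  have h4 : 100 * p.l j ≤ p.T * p.l j := Nat.mul_le_mul_right _ h.hT
  refine incl h hx h.gr_pos.1 fun s hs y hy α => ?_
  have hb := b2_box h hx (R := 2 * p.lam j + 1) (R' := 2 * p.lam (j + 1) + 1) (by omega) (by omega) (Finset.mem_coe.2 hy)
  have h5 := B3.dB_scale 𝔤.S (l := p.lam j) (l' := p.lam (j + 1)) (N := 1) le_rfl (by omega) y
  rw [Nat.cast_one, one_mul] at h5
  rw [gr, div_mul_cancel₀ _ h.gam_pos.1.ne']
  exact (mul_le_mul_of_nonneg_left h5 (sq_nonneg _)).trans (hs.2 y (Finset.mem_coe.1 hb) α)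

/-- `dB S λ' ≥ 16 λ` on `box x' (2λ+1)`, `dB S λ ≤ λ`, `Γ' ≤ 2 Γ` -/
theorem gen_in (h : Hyp p K Γs 𝔤 j) {x x' : Site} (hx : supd x x' ≤ 2 * p.l j) (hS : ∀ v ∈ 𝔤.S, 20 * p.lam j ≤ supd x' v) :
    ∀ u ∈ 𝔤.Ups p j x', In (1 / 2) (𝔤.Ups p (j + 1) x) u := by
  have h1 := l_eq h.ok j
  have h2 := lam_ge h.ok j
  have h3 := h.lam_big
  have h4 : 100 * p.l j ≤ p.T * p.l j := Nat.mul_le_mul_right _ h.hT
  refine incl h hx (by norm_num) fun s hs y hy α => ?_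
  have hb := b2_box h hx (R := 2 * p.lam j + 1) (R' := 2 * p.lam (j + 1) + 1) (by omega) (by omega) (Finset.mem_coe.2 hy)
  have h5 := B3.le_dB (S := 𝔤.S) (l := p.lam (j + 1)) (d := 16 * p.lam j) (x := y) (by omega) fun v hv => by
    have a1 := hS v hv
    have a2 := mem_box.1 hy
    have a3 := supd_triangle x' y v
    rw [supd_comm x' y] at a3
    omega
  have h6 := hs.2 y (Finset.mem_coe.1 hb) α
  have h7 := B3.dB_le 𝔤.S (p.lam j) y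
  have h8 := h.geo.gam.2.2.1
  obtain ⟨g0, g1⟩ := h.gam_pos
  push_cast at h5
  nlinarith [mul_le_mul_of_nonneg_left h5 (sq_nonneg (s (y, α))), mul_le_mul_of_nonneg_left h7 (sq_nonneg (s (y, α))),
    mul_self_le_mul_self g1.le h8]

/-- `sol_out` with `z = x`, `r = 3 ℓ`, `D = T ℓ` -/
theorem out_in (h : Hyp p K Γs 𝔤 j) {x x' : Site} (hx : supd x x' ≤ 2 * p.l j) (hD : 𝔤.Far (p.T * p.l j) x)
    (h0 : |𝔤.w (x, 0)| ≠ tc) {κ : ℝ} (hκ : 0 < κ) : ∀ u ∈ 𝔤.Ups p j x', In κ (𝔤.Ups p (j + 1) x) u := by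
  have h1 := l_eq h.ok j
  have h2 := lam_ge h.ok j
  have h3 := h.lam_big
  have h4 : 100 * p.l j ≤ p.T * p.l j := Nat.mul_le_mul_right _ h.hT
  refine incl h hx hκ fun s hs y hy α => ?_
  have h5 : y ∈ box x (3 * p.l j) := by
    have a2 := mem_box.1 hy
    have a3 := supd_triangle y x' x
    rw [supd_comm x' x] at a3
    exact mem_box.2 (by omega)
  rw [sol_out h h0 hD (r := 3 * p.l j) (by omega) (s := s) (fun z hz => hs.1 z (Finset.mem_coe.2 (mem_box.2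
    ((mem_box.1 (Finset.mem_coe.1 hz)).trans (by omega))))) h5 α]
  simpa using sq_nonneg _
end

/-- `mode_bdry` and `mode_bdry_free` in one statement, with amplitude `A` -/
theorem md_mode (η : ℝ) (hη : 0 < η) : ∃ Lm Km : ℕ, 1 ≤ Lm ∧ ∀ (p : Par) (K : ℕ) (Γs : ℝ) (𝔤 : Geom) (j : ℕ), Hyp p K Γs 𝔤 j →
    ∀ b ∈ 𝔤.Bb, ∀ (r : ℕ) (A : ℝ) (s₁ s₂ : Fn), 0 < A → Km ≤ r → Km * r ≤ K * p.l (j + 1) → Lm * r + 4 < K * p.l (j + 1) →
      SolOn 𝔤.w (box b (Lm * r)) s₁ → SolOn 𝔤.w (box b (Lm * r)) s₂ → SB (box b (Lm * r)) A s₁ → SB (box b (Lm * r)) A s₂ →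
      ∃ c₁ c₂ : ℝ, |c₁| + |c₂| = 1 ∧ SB (box b r) (η * A) (c₁ • s₁ + c₂ • s₂) := by
  obtain ⟨L₁, K₁, hL₁, H₁⟩ := mode_bdry η hη
  obtain ⟨L₂, K₂, hL₂, H₂⟩ := mode_bdry_free η hη
  refine ⟨L₁ + L₂, K₁ + K₂, by omega, fun p K Γs 𝔤 j h b hb r A s₁ s₂ hA hr hK hL h1 h2 h3 h4 => ?_⟩
  rw [add_mul] at hK hL h1 h2 h3 h4
  have hs : ∀ {s : Fn} {R : ℕ}, SolOn 𝔤.w (box b (L₁ * r + L₂ * r)) s → R ≤ L₁ * r + L₂ * r →
      SolOn 𝔤.w (box b R) (A⁻¹ • s) := fun hs hR y hy α => by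
    rw [opA_smul, Pi.smul_apply, hs y (box_mono b hR hy) α, smul_zero]
  have hb' : ∀ {s : Fn} {R : ℕ}, SB (box b (L₁ * r + L₂ * r)) A s → R ≤ L₁ * r + L₂ * r →
      SB (box b R) 1 (A⁻¹ • s) := fun hs hR y hy α => by
    rw [Pi.smul_apply, smul_eq_mul, abs_mul, abs_of_pos (inv_pos.2 hA), inv_mul_le_iff₀ hA, mul_one]
    exact hs y (box_mono b hR hy) α
  have hS : ∀ v ∈ 𝔤.S, ∀ R, R ≤ L₁ * r + L₂ * r + 4 → v ∉ box b R := fun v hv R hR hv' => by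
    have h5 := (h.geo.spin v hv).2 b hb
    have h6 := mem_box.1 hv'
    omega
  suffices ∃ c₁ c₂ : ℝ, |c₁| + |c₂| = 1 ∧ SB (box b r) η (c₁ • A⁻¹ • s₁ + c₂ • A⁻¹ • s₂) by
    obtain ⟨c₁, c₂, hc, H⟩ := this
    refine ⟨c₁, c₂, hc, fun y hy α => ?_⟩
    have h5 := H y hy α
    have e : (c₁ • A⁻¹ • s₁ + c₂ • A⁻¹ • s₂) (y, α) = A⁻¹ * (c₁ • s₁ + c₂ • s₂) (y, α) := by
      simp only [Pi.add_apply, Pi.smul_apply, smul_eq_mul]; ring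
    rwa [e, abs_mul, abs_of_pos (inv_pos.2 hA), inv_mul_le_iff₀ hA, mul_comm] at h5
  obtain ⟨ρ, hρ, ⟨E, hE, hw, hB, -⟩ | ⟨T, -, hE, hw, hB, -⟩⟩ := h.geo.typ
  · rw [hw] at hs h1 h2
    refine H₁ E ρ 𝔤.S b r _ _ hE (by omega) (le_trans ?_ hρ) (by rwa [hB] at hb) (fun v hv => hS v hv _ (by omega))
      (hs h1 (by omega)) (hs h2 (by omega)) (hb' h3 (by omega)) (hb' h4 (by omega))
    exact_mod_cast (show K₁ * r ≤ K * p.l (j + 1) by omega)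
  · rw [hw] at hs h1 h2
    refine H₂ T ρ 𝔤.S b r _ _ hE (by omega) (le_trans ?_ hρ) (by rwa [hB] at hb) (fun v hv => hS v hv _ (by omega))
      (hs h1 (by omega)) (hs h2 (by omega)) (hb' h3 (by omega)) (hb' h4 (by omega))
    exact_mod_cast (show K₂ * r ≤ K * p.l (j + 1) by omega)

/-- **boundary.** `η = 1 / (24 T³)`; `mode_bdry` / `mode_bdry_free` give `Lm, Km`; `r = (T+3) ℓ`,
`𝒮 = {s | SolOn w (box b (Lm r)) s ∧ SB (box b (Lm r)) (Γ' / √λ') s}` (the spins are at distance `≥ K ℓ'` from `b`, so `dB S λ' = λ'`: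
`DU.dB_eq_of_far`); `L ≥ 50 (Lm (T+3) + T + 4)`, `L ≥ 1800 (T+3) T³`, `K ≥ Km` (`r ≤ ℓ'`); `rk1_of` with `κ₀ = g / √L` -/
theorem rk1_bdry (T : ℕ) : ∃ L₀ K₀ : ℕ, ∀ (p : Par) (K : ℕ) (Γs : ℝ) (𝔤 : Geom) (j : ℕ), Hyp p K Γs 𝔤 j → p.T = T → L₀ ≤ p.L →
    K₀ ≤ K → ∀ b ∈ 𝔤.Bb, Rk1 p 𝔤 j b (gr 𝔤 j / Real.sqrt p.L) (gr 𝔤 j / Real.sqrt p.L / (p.T : ℝ) ^ 3) := by
  rcases Nat.eq_zero_or_pos T with rfl | hT
  · exact ⟨0, 0, fun p K Γs 𝔤 j h hT => absurd h.hT (by omega)⟩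
  have hT' : (0 : ℝ) < T := by exact_mod_cast hT
  obtain ⟨Lm, Km, hLm, H⟩ := md_mode (1 / (24 * (T : ℝ) ^ 3)) (by positivity)
  refine ⟨50 * (Lm * (T + 3) + T + 4) + 1800 * (T + 3) * T ^ 3, Km, fun p K Γs 𝔤 j h hpT hL hK b hb => ?_⟩
  subst hpT
  have e1 := l_eq h.ok j
  have e2 := l_eq h.ok (j + 1)
  have e3 := lam_succ h.ok j
  have e4 := lam_ge h.ok j
  have e5 := lam_ge h.ok (j + 1)
  have e6 := h.K_le_l
  have hL1 : 1 ≤ p.L := by omega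
  have hK1 : p.l (j + 1) ≤ K * p.l (j + 1) := Nat.le_mul_of_pos_left _ (by have := h.hK; omega)
  have hbig : Lm * ((p.T + 3) * p.l j) + (p.T + 4) * p.l j ≤ 2 * p.lam (j + 1) := by
    have : 50 * (Lm * (p.T + 3) + p.T + 4) * p.lam j ≤ p.L * p.lam j := Nat.mul_le_mul_right _ (by omega)
    rw [e3, e1]
    nlinarith
  have hr1 : (p.T + 3) * p.l j ≤ Lm * ((p.T + 3) * p.l j) := Nat.le_mul_of_pos_left _ hLm
  have hr2 : p.l j ≤ (p.T + 3) * p.l j := Nat.le_mul_of_pos_left _ (by omega)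
  have hL' : (0 : ℝ) < p.L := by exact_mod_cast hL1
  have hl : (0 : ℝ) < p.lam j := by exact_mod_cast (show 0 < p.lam j by omega)
  have hl' : (0 : ℝ) < p.lam (j + 1) := by exact_mod_cast (show 0 < p.lam (j + 1) by omega)
  obtain ⟨g0, g1⟩ := h.gam_pos
  have hκ : 0 < gr 𝔤 j / Real.sqrt p.L := div_pos h.gr_pos.1 (Real.sqrt_pos.2 hL')
  set A := 𝔤.Gam (j + 1) / Real.sqrt (p.lam (j + 1)) with hA
  have hA0 : 0 < A := div_pos g1 (Real.sqrt_pos.2 hl')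
  have hAA : A ^ 2 * p.lam j = (gr 𝔤 j / Real.sqrt p.L * 𝔤.Gam j) ^ 2 := by
    rw [hA, gr, mul_pow, div_pow, div_pow, div_pow, Real.sq_sqrt hl'.le, Real.sq_sqrt hL'.le, e3]
    push_cast
    field_simp
  have hsq : ∀ {t c : ℝ} (y : Site), |t| ≤ c * A → t ^ 2 * dB 𝔤.S (p.lam j) y ≤ (c * (gr 𝔤 j / Real.sqrt p.L) * 𝔤.Gam j) ^ 2 :=
    fun {t c} y ht => by
      have h1 : t ^ 2 ≤ (c * A) ^ 2 := sq_le_sq' (abs_le.1 ht).1 (abs_le.1 ht).2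
      calc t ^ 2 * dB 𝔤.S (p.lam j) y ≤ t ^ 2 * p.lam j := mul_le_mul_of_nonneg_left (B3.dB_le _ _ _) (sq_nonneg _)
        _ ≤ (c * A) ^ 2 * p.lam j := mul_le_mul_of_nonneg_right h1 hl.le
        _ = _ := by rw [mul_pow, mul_assoc, hAA]; ring
  have key := rk1_of h b {s | SolOn 𝔤.w (box b (Lm * ((p.T + 3) * p.l j))) s ∧ SB (box b (Lm * ((p.T + 3) * p.l j))) A s}
    hκ (η := 1 / (24 * (p.T : ℝ) ^ 3)) (by positivity) (fun s hs y hy => hs.1 y (box_mono b hr1 hy)) (fun x s hx hs => ?_)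
    (fun s hs y hy α => ?_) fun s₁ h₁ s₂ h₂ => ?_
  · refine key.mono (by positivity) ?_
    rw [div_eq_mul_inv (gr 𝔤 j / Real.sqrt p.L), mul_comm (gr 𝔤 j / Real.sqrt p.L)]
    refine mul_le_mul_of_nonneg_right ?_ hκ.le
    have h1 : (1800 * (p.T + 3) * p.T ^ 3 : ℝ) ≤ p.L := by exact_mod_cast (show 1800 * (p.T + 3) * p.T ^ 3 ≤ p.L by omega)
    have h2 : 900 * (p.T + 3 : ℝ) / p.L ≤ 1 / (2 * (p.T : ℝ) ^ 3) := by
      rw [div_le_div_iff₀ hL' (by positivity)]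
      linarith
    refine (add_le_add le_rfl h2).trans_eq ?_
    field_simp
    norm_num
  · have hsub : ∀ y ∈ box b (Lm * ((p.T + 3) * p.l j)), supd y x ≤ 2 * p.lam (j + 1) := fun y hy => by
      have h1 := mem_box.1 hy
      have h2 := supd_triangle y b x
      rw [supd_comm b x] at h2
      omega
    refine ⟨fun y hy => hs.1 y (Finset.mem_coe.2 (mem_box.2 (hsub y hy))), fun y hy α => ?_⟩
    have h1 := hs.2 y (mem_box.2 ((hsub y hy).trans (Nat.le_succ _))) α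
    rw [DU.dB_eq_of_far fun v hv => ?_] at h1
    · refine abs_le_of_sq_le_sq ?_ hA0.le
      rw [hA, div_pow, Real.sq_sqrt hl'.le, le_div_iff₀ hl']
      exact h1
    · have h2 := (h.geo.spin v hv).2 b hb
      have h3 := mem_box.1 (Finset.mem_coe.1 hy)
      have h4 := supd_triangle v y b
      rw [supd_comm v y] at h4
      omega
  · have := hsq (c := 1) y (by rw [one_mul]; exact hs.2 y (box_mono b hr1 hy) α)
    rwa [one_mul] at this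
  · have hKr : Km * ((p.T + 3) * p.l j) ≤ K * p.l (j + 1) := Nat.mul_le_mul hK (by omega)
    obtain ⟨c₁, c₂, hc, H'⟩ := H p K Γs 𝔤 j h b hb _ A s₁ s₂ hA0 (by omega) hKr (by omega) h₁.1 h₂.1 h₁.2 h₂.2
    exact ⟨c₁, c₂, hc, fun y hy α => hsq y (H' y hy α)⟩

theorem mde_dB_le {S : Finset Site} {v y : Site} (hv : v ∈ S) {l l' : ℕ} (h : l ≤ l') : dB S l y ≤ dB {v} l' y := by
  obtain ⟨d, h1, h2, -, h3⟩ := B3.exists_dB S l y
  rw [h1]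
  exact B3.le_dB (h2.trans h) fun u hu => by rw [Finset.mem_singleton.1 hu]; exact h3 v hv

theorem mde_le_dB {S : Finset Site} {v y : Site} {l l' : ℕ} (h : l ≤ l') (hS : ∀ u ∈ S, u ≠ v → l ≤ supd y u) :
    dB {v} l y ≤ dB S l' y := by
  obtain ⟨d, h1, h2, -, h3⟩ := B3.exists_dB {v} l y
  rw [h1]
  refine B3.le_dB (h2.trans h) fun u hu => ?_
  by_cases e : u = v
  · rw [e]; exact h3 v (Finset.mem_singleton_self v)
  · have := hS u hu e; omega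

theorem mde_edge (x : Site) (α : Fin 4) : (edgeOf x α).1 + uv (edgeOf x α).2 ∈ box x 1 := by
  obtain ⟨a, b⟩ := x
  fin_cases α <;> simp [edgeOf, uv, mem_box'] <;> omega

/-- **isolated spin.** `mode_branch`; `𝒮 = {s | SolOn w (box v (Lm r)) s ∧ s² dB {v} (Lm r) ≤ Γ'² on box v (Lm r)}`, `Lm r ≤ λ' / 2`.
On this box `w = wOf univ S` (`w_in`), `exists_gauge S {v}` + `SolOn.gauge` pass to `wOf univ {v}`; `dB S l y = dB {v} l y` for `l ≤ λ'` because the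
other spins are at distance `≥ K ℓ'`; rescale by `√(Lm r) / Γ'`; `dB {v} λ ≤ dB {v} r`; `κ₀ = g` -/
theorem rk1_spin (T : ℕ) : ∃ L₀ K₀ : ℕ, ∀ (p : Par) (K : ℕ) (Γs : ℝ) (𝔤 : Geom) (j : ℕ), Hyp p K Γs 𝔤 j → p.T = T → L₀ ≤ p.L →
    K₀ ≤ K → (j : ℕ∞) < 𝔤.jN → ∀ v ∈ 𝔤.S, Rk1 p 𝔤 j v (gr 𝔤 j) (gr 𝔤 j / (p.T : ℝ) ^ 3) := by
  rcases Nat.eq_zero_or_pos T with rfl | hT
  · exact ⟨0, 0, fun p K Γs 𝔤 j h hp => absurd h.hT (by omega)⟩
  have hT' : (0 : ℝ) < T := by exact_mod_cast hT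
  obtain ⟨Lm, Km, hLm, H⟩ := mode_branch (1 / (24 * (T : ℝ) ^ 3)) (by positivity)
  refine ⟨100 * (Lm * (T + 3) + (T + 4)) + 1800 * ((T + 3) * T ^ 3), Km, fun p K Γs 𝔤 j h hp hL hK hj v hv => ?_⟩
  subst hp
  obtain ⟨hΓ, hΓ'⟩ := h.gam_pos
  have hg := h.gr_pos.1
  have hgΓ : gr 𝔤 j * 𝔤.Gam j = 𝔤.Gam (j + 1) := div_mul_cancel₀ _ hΓ.ne'
  have e1 := l_eq h.ok j
  have e2 := l_eq h.ok (j + 1)
  have e3 := lam_ge h.ok j
  have e4 := h.K_le_l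
  have hK1 : 1 ≤ K := by have := h.hK; have := h.ok.1; omega
  have e5 : p.l (j + 1) ≤ K * p.l (j + 1) := Nat.le_mul_of_pos_left _ hK1
  set r := (p.T + 3) * p.l j with hr
  set N := Lm * r with hN
  have e6 : p.l j ≤ r := Nat.le_mul_of_pos_left _ (by omega)
  have e7 : r ≤ N := Nat.le_mul_of_pos_left _ hLm
  have e8 : N + (p.T + 4) * p.l j ≤ p.lam (j + 1) := by
    calc N + (p.T + 4) * p.l j = 100 * (Lm * (p.T + 3) + (p.T + 4)) * p.lam j := by rw [hN, hr, e1]; ring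
      _ ≤ p.L * p.lam j := Nat.mul_le_mul_right _ (by omega)
      _ = _ := (lam_succ h.ok j).symm
  have hsep := (h.geo.sep hj).1 v hv
  have hN0 : (0 : ℝ) < N := by exact_mod_cast (show 0 < N by omega)
  obtain ⟨σ, hσ, hσe⟩ := exists_gauge 𝔤.S {v} v (N + 1) fun u hu => by
    refine ⟨fun hu' => Finset.mem_singleton.2 (by_contra fun e => ?_), fun hu' => Finset.mem_singleton.1 hu' ▸ hv⟩
    have a1 := hsep u hu' (Ne.symm e)
    have a2 := mem_box.1 hu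
    rw [supd_comm] at a2
    omega
  have hw : ∀ x ∈ (↑(box v N) : Set Site), ∀ α, wOf Set.univ {v} (edgeOf x α) = gaugeW σ 𝔤.w (edgeOf x α) := by
    intro x hx α
    have a1 : (edgeOf x α).1 ∈ box v (N + 1) := box_subset_box hx le_rfl (edgeOf_fst_mem_box x α)
    have a2 : (edgeOf x α).1 + uv (edgeOf x α).2 ∈ box v (N + 1) := box_subset_box hx le_rfl (mde_edge x α)
    rw [gaugeW, w_in h (e₀ := (v, 0)) (h.geo.spin v hv).1 (r := N + 1)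
      (fun b hb => by have := (h.geo.spin v hv).2 b hb; dsimp only; omega) _ a1, wOf, wOf, if_pos (Set.mem_univ _),
      if_pos (Set.mem_univ _), ← hσe _ a1 a2]
    ring
  set t := Real.sqrt N / 𝔤.Gam (j + 1) with ht
  have ht2 : t ^ 2 * 𝔤.Gam (j + 1) ^ 2 = N := by
    rw [ht, div_pow, Real.sq_sqrt hN0.le, div_mul_cancel₀ _ (by positivity)]
  have hσ2 : ∀ y, σ y ^ 2 = 1 := fun y => by rw [sq, hσ.mul_self]
  refine (rk1_of h v {s | SolOn 𝔤.w (box v N) s ∧ ∀ y ∈ box v N, ∀ α, s (y, α) ^ 2 * dB {v} N y ≤ 𝔤.Gam (j + 1) ^ 2}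
    (η := 1 / (24 * (p.T : ℝ) ^ 3)) hg (by positivity) (fun s hs y hy => hs.1 y (box_mono v e7 hy))
    (fun x s hx hs => ?_) (fun s hs y hy α => ?_) fun s₁ hs₁ s₂ hs₂ => ?_).mono (by positivity) ?_
  · have hb : ∀ y ∈ box v N, supd y x ≤ 2 * p.lam (j + 1) := fun y hy => by
      have a1 := mem_box.1 hy
      have a2 := supd_triangle y v x
      rw [supd_comm v x] at a2
      omega
    refine ⟨fun y hy => hs.1 y (Finset.mem_coe.2 (mem_box.2 (hb y hy))), fun y hy α => ?_⟩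
    refine le_trans (mul_le_mul_of_nonneg_left (mde_le_dB (by omega) fun u hu e => ?_) (sq_nonneg _))
      (hs.2 y (mem_box.2 ((hb y hy).trans (Nat.le_succ _))) α)
    have a1 := hsep u hu (Ne.symm e)
    have a2 := mem_box.1 hy
    have a3 := supd_triangle v y u
    rw [supd_comm v y] at a3
    omega
  · rw [hgΓ]
    exact (mul_le_mul_of_nonneg_left (mde_dB_le hv (by omega)) (sq_nonneg _)).trans (hs.2 y (box_mono v e7 hy) α)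
  · have k1 : ∀ s, SolOn 𝔤.w (box v N) s → SolOn (wOf Set.univ {v}) (box v N) (t • gaugeF σ s) := fun s hs y hy α => by
      rw [opA_smul, Pi.smul_apply, hs.gauge hσ hw y hy α, smul_zero]
    have k2 : ∀ s : Fn, (∀ y ∈ box v N, ∀ α, s (y, α) ^ 2 * dB {v} N y ≤ 𝔤.Gam (j + 1) ^ 2) →
        WB {v} (box v N) N 1 (t • gaugeF σ s) := fun s hs y hy α => by
      have := mul_le_mul_of_nonneg_left (hs y hy α) (sq_nonneg t)
      simp only [Pi.smul_apply, smul_eq_mul, gaugeF, mul_pow, hσ2, one_pow, one_mul]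
      rw [← ht2, mul_assoc]; exact this
    obtain ⟨c₁, c₂, hc, hW⟩ := H v r _ _ (by omega) (k1 _ hs₁.1) (k1 _ hs₂.1) (k2 _ hs₁.2) (k2 _ hs₂.2)
    refine ⟨c₁, c₂, hc, fun y hy α => ?_⟩
    have a1 := hW y hy α
    have a2 : (c₁ • t • gaugeF σ s₁ + c₂ • t • gaugeF σ s₂) (y, α) = t * σ y * (c₁ • s₁ + c₂ • s₂) (y, α) := by
      simp only [Pi.add_apply, Pi.smul_apply, smul_eq_mul, gaugeF]; ring
    rw [a2, mul_pow, mul_pow, hσ2, mul_one, mul_assoc] at a1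
    have a3 : (r : ℝ) ≤ N := by exact_mod_cast e7
    have ht0 : 0 < t ^ 2 := by positivity
    refine (mul_le_mul_of_nonneg_left (mde_dB_le hv (l' := r) (by omega)) (sq_nonneg _)).trans
      (le_of_mul_le_mul_left (a1.trans ?_) ht0)
    rw [mul_assoc _ (gr 𝔤 j), hgΓ, mul_pow, mul_left_comm, ht2]
    exact mul_le_mul_of_nonneg_left a3 (sq_nonneg _)
  · have a1 : (1800 * ((p.T + 3) * p.T ^ 3) : ℝ) ≤ p.L := by exact_mod_cast (show 1800 * ((p.T + 3) * p.T ^ 3) ≤ p.L by omega)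
    have a2 : (900 * (p.T + 3) / p.L : ℝ) ≤ 1 / (2 * (p.T : ℝ) ^ 3) := by
      rw [div_le_div_iff₀ (lt_of_lt_of_le (by positivity) a1) (by positivity)]
      linarith
    calc _ ≤ (12 * (1 / (24 * (p.T : ℝ) ^ 3)) + 1 / (2 * (p.T : ℝ) ^ 3)) * gr 𝔤 j := by gcongr
      _ = _ := by field_simp; ring

/-- **small even cluster.** `S = ∅`: `s² λ' ≤ Γ'²`. Otherwise, with `Lm = L / 4`, `r = λ`: on `box xc (4 Lm λ) ⊆ box x (2 λ')` the weights are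
`wOf univ S` (`w_in` at a spin); on `frame xc (Lm λ) (4 Lm λ)`: `dB S λ' ≥ λ' / 16`, `|s| ≤ 4 Γ' / √λ'`; `mode_cluster` (`K ≥ 100 Km`) bounds `s` on
`frame xc λ (4 Lm λ)`, `apriori_sup` (`E = univ`, `Reg univ ρ` is vacuous) on `box xc (2 λ)`; `incl` -/
theorem clu_in : ∃ C : ℝ, 0 < C ∧ ∀ L : ℕ, ∃ K₀ : ℕ, ∀ (p : Par) (K : ℕ) (Γs : ℝ) (𝔤 : Geom) (j : ℕ), Hyp p K Γs 𝔤 j → p.L = L →
    K₀ ≤ K → 𝔤.jN ≤ j → Good p K 𝔤 j → ∀ x x' b, b ∈ Fp 𝔤 → supd x' b ≤ (p.T + 2) * p.l j → supd x x' ≤ 2 * p.l j →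
      ∀ u ∈ 𝔤.Ups p j x', In (C * gr 𝔤 j / Real.sqrt p.L) (𝔤.Ups p (j + 1) x) u := by
  obtain ⟨C₁, H₁⟩ := mode_cluster
  obtain ⟨C₂, Ka, H₂⟩ := apriori_sup
  refine ⟨4 * (|C₁| + |C₂ * C₁| + 1), by positivity, fun L => ?_⟩
  obtain ⟨Km, H₁⟩ := H₁ (L / 4 + 1) (by omega)
  refine ⟨100 * (Km + Ka + 1), fun p K Γs 𝔤 j h hL hK hj hg x x' b hb hxb hx => ?_⟩
  obtain ⟨xc, r₀, hr₀, hev, hS, hO⟩ := hg.resolve_left (not_lt.2 hj)
  have hl := l_eq h.ok j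
  have hl' := l_eq h.ok (j + 1)
  have h8 := lam_ge h.ok j
  have hbig := h.lam_big
  have hT : 100 * p.l j ≤ p.T * p.l j := Nat.mul_le_mul_right _ h.hT
  have hKl := h.K_le_l
  have hls := lam_succ h.ok j
  rw [hL] at hls
  have hL0 : (0 : ℝ) < p.L := by exact_mod_cast (show 0 < p.L by have := h.ok.1; omega)
  have hG := h.gam_pos
  have hgr := h.gr_pos.1
  rw [add_mul] at hxb
  have hr1 : 100 * (Km * r₀) + 100 * r₀ ≤ p.l j :=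
    le_trans (by nlinarith [Nat.zero_le (Ka * r₀)]) ((Nat.mul_le_mul_right r₀ hK).trans hr₀)
  have hA : p.lam (j + 1) ≤ 4 * ((L / 4 + 1) * p.lam j) := by
    rw [hls, ← mul_assoc]; exact Nat.mul_le_mul_right _ (by omega)
  have hB : 4 * ((L / 4 + 1) * p.lam j) ≤ p.lam (j + 1) + 4 * p.lam j := by
    rw [hls, ← mul_assoc, ← add_mul]; exact Nat.mul_le_mul_right _ (by omega)
  have hKl' : p.l (j + 1) ≤ K * p.l (j + 1) := Nat.le_mul_of_pos_left _ (by omega)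
  obtain ⟨e₀, he₀, hw₀, hB₀, hbc⟩ : ∃ e₀ : Edge, e₀.1 = b ∧ |𝔤.w e₀| = tc ∧
      (∀ b' ∈ 𝔤.Bb, K * p.l (j + 1) ≤ supd e₀.1 b') ∧ supd b xc ≤ r₀ := by
    rcases hb with hb | ⟨k, hk, rfl⟩
    · exact ⟨(b, 0), rfl, (h.geo.spin b hb).1, (h.geo.spin b hb).2, mem_box.1 (hS b hb)⟩
    · exact ⟨𝔤.y k, rfl, (h.geo.obs k hk).1, (h.geo.obs k hk).2, mem_box.1 (hO k hk)⟩
  have hxc : supd xc x ≤ r₀ + (p.T * p.l j + 2 * p.l j) + 2 * p.l j := by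
    have h1 := supd_triangle xc b x
    have h2 := supd_triangle b x' x
    rw [supd_comm xc b] at h1
    rw [supd_comm b x', supd_comm x' x] at h2
    omega
  refine incl h hx (by positivity) fun s hs y hy α => ?_
  have hlam : (0 : ℝ) < p.lam j := by exact_mod_cast (show 0 < p.lam j by omega)
  have hlam' : (0 : ℝ) < p.lam (j + 1) := by exact_mod_cast (show 0 < p.lam (j + 1) by omega)
  set c : ℝ := Real.sqrt (p.lam (j + 1)) / (4 * 𝔤.Gam (j + 1)) with hc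
  have hc2 : c ^ 2 * (16 * 𝔤.Gam (j + 1) ^ 2) = p.lam (j + 1) := by
    have := hG.2
    rw [hc, div_pow, Real.sq_sqrt hlam'.le]
    field_simp
    ring
  have hc0 : 0 < c := div_pos (Real.sqrt_pos.2 hlam') (by linarith [hG.2])
  have hin : ∀ z, supd z xc ≤ 4 * ((L / 4 + 1) * p.lam j) → z ∈ box x (2 * p.lam (j + 1)) := fun z hz => by
    have h1 := supd_triangle z xc x
    exact mem_box.2 (by omega)
  have hsol : SolOn (wOf Set.univ 𝔤.S) (box xc (4 * (L / 4 + 1) * p.lam j)) (c • s) := by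
    refine DU.SolOn.smul (fun z hz β => ?_) c
    have hz' := mem_box.1 (Finset.mem_coe.1 hz)
    rw [mul_assoc] at hz'
    have h1 := hs.1 z (hin z hz') β
    have h2 := mem_box.1 (edgeOf_fst_mem_box z β)
    have h3 := supd_triangle (edgeOf z β).1 z xc
    have h4 := supd_triangle (edgeOf z β).1 xc b
    rw [supd_comm xc b] at h4
    have e := w_in h hw₀ (r := 2 * p.lam (j + 1)) (fun b' hb' => le_trans (by omega) (hB₀ b' hb')) (edgeOf z β)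
      (by rw [he₀]; exact mem_box.2 (by omega))
    unfold opA at h1 ⊢
    rwa [← e]
  have hfr : SB (frame xc ((L / 4 + 1) * p.lam j) (4 * (L / 4 + 1) * p.lam j)) 1 (c • s) := by
    intro z hz β
    obtain ⟨h1, h2⟩ := Finset.mem_sdiff.1 (Finset.mem_coe.1 hz)
    rw [mem_box] at h1 h2
    rw [mul_assoc] at h1
    have h3 := hs.2 z (box_mono x (Nat.le_succ _) (hin z h1)) β
    have h4 : (p.lam (j + 1) : ℝ) / 16 ≤ dB 𝔤.S (p.lam (j + 1)) z := le_dB (by linarith) fun v hv => by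
      have h5 := mem_box.1 (hS v hv)
      have h6 := supd_triangle z v xc
      have h7 : p.lam (j + 1) ≤ 16 * supd z v := by omega
      have h8 : (p.lam (j + 1) : ℝ) ≤ 16 * supd z v := by exact_mod_cast h7
      linarith
    have h5 := (mul_le_mul_of_nonneg_left h4 (sq_nonneg (s (z, β)))).trans h3
    rw [← sq_le_one_iff_abs_le_one, Pi.smul_apply, smul_eq_mul, mul_pow]
    refine le_of_mul_le_mul_right ?_ (show (0 : ℝ) < 16 * 𝔤.Gam (j + 1) ^ 2 by have := hG.2; positivity)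
    rw [mul_right_comm, hc2]
    linarith
  have h1 := H₁ 𝔤.S xc (p.lam j) r₀ (c • s) (by omega) (by omega) hev hS hsol hfr
  have h4 : 4 * p.lam j ≤ 4 * (L / 4 + 1) * p.lam j := Nat.mul_le_mul_right _ (by omega)
  have h2 := H₂ Set.univ _ 𝔤.S xc (p.lam j) (c • s) C₁ (reg_univ _) (by omega) le_rfl
    (fun z hz => hsol z (box_mono xc h4 hz)) fun z hz => h1 z (by
      obtain ⟨a1, a2⟩ := Finset.mem_sdiff.1 (Finset.mem_coe.1 hz)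
      exact Finset.mem_coe.2 (Finset.mem_sdiff.2 ⟨box_mono xc h4 a1, a2⟩))
  have h3 : (c • s) (y, α) ^ 2 * dB 𝔤.S (p.lam j) y ≤ (|C₁| + |C₂ * C₁| + 1) ^ 2 * p.lam j := by
    have a1 := abs_nonneg C₁
    have a2 := abs_nonneg (C₂ * C₁)
    by_cases hy' : y ∈ box xc (2 * p.lam j)
    · refine (h2 y hy' α).trans (mul_le_mul_of_nonneg_right ?_ hlam.le)
      rw [← sq_abs]
      gcongr
      linarith
    · have a3 := mem_box.1 hy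
      have a4 := supd_triangle y x' b
      have a5 := supd_triangle y b xc
      have a6 := h1 y (Finset.mem_coe.2 (Finset.mem_sdiff.2 ⟨mem_box.2 (by rw [mul_assoc]; omega),
        fun a7 => hy' (box_mono xc (by omega) a7)⟩)) α
      refine mul_le_mul ?_ (B3.dB_le _ _ _) (zero_le_one.trans (B3.one_le_dB _ (by omega) _)) (sq_nonneg _)
      rw [← sq_abs]
      gcongr
      linarith [le_abs_self C₁]
  have e1 : (p.lam (j + 1) : ℝ) = p.L * p.lam j := by rw [hls, hL]; push_cast; ring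
  have e2 : (4 * (|C₁| + |C₂ * C₁| + 1) * gr 𝔤 j / Real.sqrt p.L * 𝔤.Gam j) ^ 2 * c ^ 2 =
      (|C₁| + |C₂ * C₁| + 1) ^ 2 * p.lam j := by
    have := hG.1
    rw [div_mul_eq_mul_div, mul_assoc, gr, div_mul_cancel₀ _ hG.1.ne', div_pow, Real.sq_sqrt hL0.le,
      div_mul_eq_mul_div, div_eq_iff hL0.ne']
    linear_combination (|C₁| + |C₂ * C₁| + 1) ^ 2 * (hc2.trans e1)
  refine le_of_mul_le_mul_right ?_ (show 0 < c ^ 2 by positivity)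
  rw [e2]
  refine le_of_eq_of_le ?_ h3
  rw [Pi.smul_apply, smul_eq_mul]
  ring

/-- the facts that need `L` and `K` large -/
structure Pkg (p : Par) (K : ℕ) (𝔤 : Geom) (j : ℕ) : Prop where
  bd : ∀ b ∈ 𝔤.Bb, Rk1 p 𝔤 j b (gr 𝔤 j / Real.sqrt p.L) (gr 𝔤 j / Real.sqrt p.L / (p.T : ℝ) ^ 3)
  sp : (j : ℕ∞) < 𝔤.jN → ∀ v ∈ 𝔤.S, Rk1 p 𝔤 j v (gr 𝔤 j) (gr 𝔤 j / (p.T : ℝ) ^ 3)
  clu : 𝔤.jN ≤ j → Good p K 𝔤 j → ∀ x x' b, b ∈ Fp 𝔤 → supd x' b ≤ (p.T + 2) * p.l j → supd x x' ≤ 2 * p.l j →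
      ∀ u ∈ 𝔤.Ups p j x', In (gr 𝔤 j / (p.T : ℝ) ^ 2) (𝔤.Ups p (j + 1) x) u

theorem exists_pkg (T : ℕ) : ∃ L₀ : ℕ, ∀ L, L₀ ≤ L → ∃ K₀ : ℕ, ∀ (p : Par) (K : ℕ) (Γs : ℝ) (𝔤 : Geom) (j : ℕ),
    Hyp p K Γs 𝔤 j → p.T = T → p.L = L → K₀ ≤ K → Pkg p K 𝔤 j := by
  obtain ⟨L₁, K₁, h₁⟩ := rk1_bdry T
  obtain ⟨L₂, K₂, h₂⟩ := rk1_spin T
  obtain ⟨C, hC, h₃⟩ := clu_in
  refine ⟨max L₁ (max L₂ ⌈(C * (T : ℝ) ^ 2) ^ 2⌉₊), fun L hL => ?_⟩
  obtain ⟨K₃, h₃⟩ := h₃ L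
  refine ⟨max K₁ (max K₂ K₃), fun p K Γs 𝔤 j h hT hpL hK => ⟨h₁ p K Γs 𝔤 j h hT (by omega) (by omega),
    h₂ p K Γs 𝔤 j h hT (by omega) (by omega), fun hj hg x x' b hb hx' hx u hu => ?_⟩⟩
  have hg0 := h.gr_pos.1
  refine (h₃ p K Γs 𝔤 j h hpL (by omega) hj hg x x' b hb hx' hx u hu).mono (bal_ups x) (by positivity) ?_
  have hT0 : (0 : ℝ) < (p.T : ℝ) ^ 2 := by
    have : (0 : ℝ) < p.T := by exact_mod_cast (show 0 < p.T by have := h.hT; omega)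
    positivity
  have h4 : C * (p.T : ℝ) ^ 2 ≤ Real.sqrt p.L := by
    refine Real.le_sqrt_of_sq_le ?_
    rw [hT, hpL]
    exact Nat.ceil_le.1 (by omega)
  rw [div_le_div_iff₀ (lt_of_lt_of_le (by positivity) h4) hT0]
  nlinarith [mul_le_mul_of_nonneg_left h4 hg0.le]

end Crest.Agent.R165.D2
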