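import Crest.Agent.R165.D2.One
import Crest.Agent.R165.D2.Mode
import Crest.Agent.R165.D2.Count

/-! # R165/D2/RemD (helper51): the remainder next to an energy observable (proofs of `rem_obs`, `rem_mix_sep`) -/

set_option autoImplicit false
set_option linter.unusedVariables false
noncomputable section
open Classical

namespace Crest.Agent.R165.D2

/-- the base point of an observable in the separated regime -/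
theorem remd_bp {p : Par} {K : ℕ} {Γs : ℝ} {𝔤 : Geom} {j : ℕ} (h : Hyp p K Γs 𝔤 j) (hj : (j : ℕ∞) < 𝔤.jN) {k : ℕ} (hk : k < 𝔤.m)
    {x : Site} (hx : supd x (𝔤.y k).1 ≤ 3 * p.l j) :
    Bp p 𝔤 j x (𝔤.y k).1 (p.lam (j + 1) / 2) (p.lam (j + 1) / 2) ∧ Pl 𝔤 (𝔤.y k).1 (6 * p.l j) ∧
      ((p.lam (j + 1) / 2 : ℕ) : ℝ) = p.L * p.l j / 200 := by
  have h1 := l_eq h.ok j
  have h1' := l_eq h.ok (j + 1)
  have h2 := lam_ge h.ok j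
  have h3 := h.lam_big
  have h5 : 100 * p.l j ≤ p.T * p.l j := Nat.mul_le_mul_right _ h.hT
  have h6 : p.l (j + 1) ≤ K * p.l (j + 1) := Nat.le_mul_of_pos_left _ (by have := h.hK; have := h.ok.1; omega)
  have hF : 𝔤.Far (p.lam (j + 1) / 2) (𝔤.y k).1 := fun b hb => le_trans (by omega) (obs_far h hj hk b hb)
  have hw : |𝔤.w ((𝔤.y k).1, (𝔤.y k).2)| = tc := (h.geo.obs k hk).1
  refine ⟨⟨by rwa [supd_comm], ⟨_, hw⟩, hF, fun v hv => hF v (Or.inr hv), by omega, le_rfl, by omega⟩,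
    pl_of_far h hw hF (by omega), ?_⟩
  have hR : 200 * (p.lam (j + 1) / 2) = p.L * p.l j := by
    have := lam_half h.ok (j + 1)
    rw [← l_succ]; omega
  rw [eq_div_iff (by norm_num), mul_comm]; exact_mod_cast hR

/-- back from the plane gauge -/
theorem remd_ungauge {p : Par} {𝔤 : Geom} {j k R : ℕ} {x : Site} (hP : Pl 𝔤 (𝔤.y k).1 R) (l : List (GV Ix)) {B : ℝ}
    (h : GBd (gaugeV (sgn 𝔤.S (𝔤.y k).1) '' 𝔤.U p (j + 1) x)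
      (wedge (l.map (gaugeV (sgn 𝔤.S (𝔤.y k).1))) +
        nu0 (wedge (l.map (gaugeV (sgn 𝔤.S (𝔤.y k).1)))) • ((eM Sum.inl (𝔤.y k) : Al) : Gr Ix)) B) :
    GBd (𝔤.U p (j + 1) x)
      (wedge l - ((-1 / tc) * nu0 (gmap (gaugeV (sgn 𝔤.S (𝔤.y k).1)) (wedge l))) • ((𝔤.oK k : Al) : Gr Ix)) B := by
  have hσ := isSign_sgn 𝔤.S (𝔤.y k).1
  have := h.gmap (U' := 𝔤.U p (j + 1) x) (gaugeV (sgn 𝔤.S (𝔤.y k).1)) (by
    rintro _ ⟨v, hv, rfl⟩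
    rwa [gaugeV_gaugeV hσ])
  rw [← gmap_wedge, map_add, gmap_gauge_gauge hσ] at this
  convert this using 1
  rw [← gauge_oK hP, map_smul, map_smul, smul_smul, sub_eq_add_neg, ← neg_smul]
  congr 2
  have := tc_pos.1.ne'
  field_simp

theorem remd_obs : ∃ (C : ℝ) (T₀ : ℕ), 0 < C ∧ ∀ (p : Par) (K : ℕ) (Γs : ℝ) (𝔤 : Geom) (j : ℕ) (x : Site) (k : ℕ), Hyp p K Γs 𝔤 j →
    T₀ ≤ p.T → (j : ℕ∞) < 𝔤.jN → k < 𝔤.m → supd x (𝔤.y k).1 ≤ 3 * p.l j →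
    ∀ l : List (GV Ix), (∀ u ∈ l, u ∈ Aset p 𝔤 j x) → Even l.length → l ≠ [] →
      GBd (𝔤.U p (j + 1) x)
        (wedge l - ((-1 / tc) * nu0 (gmap (gaugeV (sgn 𝔤.S (𝔤.y k).1)) (wedge l))) • ((𝔤.oK k : Al) : Gr Ix))
        (C * gr 𝔤 j ^ 2 / (p.L : ℝ) ^ 2) := by
  obtain ⟨C, hC, hJ⟩ := jets
  obtain ⟨C', hC', hD⟩ := jets_dl
  refine ⟨(3 * C ^ 2 + 24 * C' ^ 2 + 44 * C ^ 4) * 200 ^ 2, ⌈C⌉₊, by positivity,
    fun p K Γs 𝔤 j x k h hT hj hk hx l hl he hne => ?_⟩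
  obtain ⟨hB, hP, hR⟩ := remd_bp h hj hk hx
  have J := hJ p K Γs 𝔤 j x _ _ _ h hB
  have J' := (hD p K Γs 𝔤 j x _ _ _ h hB).1
  have F := fb h hB.near hP
  refine remd_ungauge hP l ?_
  have hl' : ∀ u ∈ l.map (gaugeV (sgn 𝔤.S (𝔤.y k).1)), u ∈ gaugeV (sgn 𝔤.S (𝔤.y k).1) '' Aset p 𝔤 j x := fun u hu => by
    obtain ⟨v, hv, rfl⟩ := List.mem_map.1 hu
    exact ⟨v, hl v hv, rfl⟩
  have he' : Even (l.map (gaugeV (sgn 𝔤.S (𝔤.y k).1))).length := by rwa [List.length_map]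
  have hne' : l.map (gaugeV (sgn 𝔤.S (𝔤.y k).1)) ≠ [] := by simpa using hne
  generalize l.map (gaugeV (sgn 𝔤.S (𝔤.y k).1)) = l' at hl' he' hne'
  have h1 := l_eq h.ok j
  have h2 := lam_ge h.ok j
  have hl1 : (1 : ℝ) ≤ p.l j := by exact_mod_cast (show 1 ≤ p.l j by omega)
  have hlam : (p.l j : ℝ) = 100 * p.lam j := by exact_mod_cast h1
  have hT1 : (100 : ℝ) ≤ p.T := by exact_mod_cast h.hT
  have hL1 : 1000 * (p.T : ℝ) ^ 3 ≤ p.L := by exact_mod_cast h.hL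
  have hTC : C ≤ p.T := (Nat.le_ceil C).trans (by exact_mod_cast hT)
  have hT3 : (p.T : ℝ) ≤ (p.T : ℝ) ^ 3 := le_self_pow₀ (by linarith) (by norm_num)
  have hL0 : (0 : ℝ) < p.L := by linarith
  obtain ⟨hg0, hg2⟩ := h.gr_pos
  obtain ⟨hΓ, hΓ'⟩ := h.gam_pos
  obtain ⟨ρ, hρ⟩ : ∃ ρ : ℝ, ρ = 200 / p.L := ⟨_, rfl⟩
  have hρ0 : 0 < ρ := by rw [hρ]; positivity
  have hρC : C * ρ ≤ 1 / 5 := by
    rw [hρ, ← mul_div_assoc, div_le_iff₀ hL0]; linarith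
  have hρ1 : ρ ≤ 1 := by nlinarith
  obtain ⟨D, hDd⟩ : ∃ D : ℝ, D = ((p.lam (j + 1) / 2 : ℕ) : ℝ) := ⟨_, rfl⟩
  have hlD : (p.l j : ℝ) / D = ρ := by rw [hDd, hR, hρ]; field_simp
  have hD1 : 1 ≤ D := by rw [hDd]; exact_mod_cast (show 1 ≤ p.lam (j + 1) / 2 by have := lam_ge h.ok (j + 1); omega)
  rw [← hDd] at J J'
  rw [hlD] at J
  have hs : Real.sqrt ρ ^ 2 = ρ := Real.sq_sqrt hρ0.le
  have hs1 : Real.sqrt ρ ≤ 1 := Real.sqrt_le_one.2 hρ1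
  have hs0 : 0 < Real.sqrt ρ := Real.sqrt_pos.2 hρ0
  have hfin : (3 * C ^ 2 + 24 * C' ^ 2 + 44 * C ^ 4) * 200 ^ 2 * gr 𝔤 j ^ 2 / (p.L : ℝ) ^ 2 =
      (3 * C ^ 2 + 24 * C' ^ 2 + 44 * C ^ 4) * (gr 𝔤 j ^ 2 * ρ ^ 2) := by rw [hρ]; field_simp
  rw [hfin]
  have hκ0 : (C * gr 𝔤 j * Real.sqrt ρ) ^ 2 = C ^ 2 * gr 𝔤 j ^ 2 * ρ := by rw [mul_pow, mul_pow, hs]
  have hX : 0 ≤ gr 𝔤 j ^ 2 * ρ ^ 2 := by positivity
  by_cases h2l : l'.length = 2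
  · obtain ⟨u, v, rfl⟩ := List.length_eq_two.1 h2l
    have e : wedge [u, v] = ExteriorAlgebra.ι ℝ u * ExteriorAlgebra.ι ℝ v := by
      rw [wedge_cons, wedge_cons, wedge_nil, mul_one]
    rw [e]
    refine (obs2 J J' F (by positivity) (by positivity) (by positivity) (by positivity) (by positivity)
      (hl' u (by simp)) (hl' v (by simp))).mono subset_rfl ?_
    have a1 : (C * gr 𝔤 j * Real.sqrt ρ * ρ) ^ 2 ≤ C ^ 2 * (gr 𝔤 j ^ 2 * ρ ^ 2) := by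
      rw [mul_pow, hκ0]
      have : C ^ 2 * (gr 𝔤 j ^ 2 * ρ ^ 2) * ρ ≤ C ^ 2 * (gr 𝔤 j ^ 2 * ρ ^ 2) :=
        mul_le_of_le_one_right (by positivity) hρ1
      linarith
    have a2 : 2 * (C * gr 𝔤 j * Real.sqrt ρ) * (C * gr 𝔤 j * Real.sqrt ρ * ρ) = 2 * C ^ 2 * (gr 𝔤 j ^ 2 * ρ ^ 2) := by
      linear_combination (2 * ρ) * hκ0
    have a3 : (20 * Real.sqrt (p.lam j) / 𝔤.Gam j) ^ 2 = 4 * p.l j / 𝔤.Gam j ^ 2 := by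
      rw [div_pow, mul_pow, Real.sq_sqrt (by positivity), hlam]; ring
    have a4 : (C' * 𝔤.Gam (j + 1) / Real.sqrt D) ^ 2 = C' ^ 2 * 𝔤.Gam (j + 1) ^ 2 / D := by
      rw [div_pow, mul_pow, Real.sq_sqrt (by linarith)]
    have a5 : (C' * 𝔤.Gam (j + 1) / Real.sqrt D / D) ^ 2 + 2 * (C' * 𝔤.Gam (j + 1) / Real.sqrt D) *
        (C' * 𝔤.Gam (j + 1) / Real.sqrt D / D) ≤ 3 * (C' ^ 2 * 𝔤.Gam (j + 1) ^ 2 / D ^ 2) := by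
      have b1 : (C' * 𝔤.Gam (j + 1) / Real.sqrt D / D) ^ 2 = C' ^ 2 * 𝔤.Gam (j + 1) ^ 2 / D ^ 2 / D := by
        rw [div_pow _ D, a4]; ring
      have b2 : 2 * (C' * 𝔤.Gam (j + 1) / Real.sqrt D) * (C' * 𝔤.Gam (j + 1) / Real.sqrt D / D) =
          2 * (C' ^ 2 * 𝔤.Gam (j + 1) ^ 2 / D ^ 2) := by
        rw [show 2 * (C' * 𝔤.Gam (j + 1) / Real.sqrt D) * (C' * 𝔤.Gam (j + 1) / Real.sqrt D / D) =
          2 * (C' * 𝔤.Gam (j + 1) / Real.sqrt D) ^ 2 / D by ring, a4]; ring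
      have b3 : C' ^ 2 * 𝔤.Gam (j + 1) ^ 2 / D ^ 2 / D ≤ C' ^ 2 * 𝔤.Gam (j + 1) ^ 2 / D ^ 2 :=
        div_le_self (by positivity) hD1
      linarith
    have a6 : 2 * (4 * p.l j / 𝔤.Gam j ^ 2) * (3 * (C' ^ 2 * 𝔤.Gam (j + 1) ^ 2 / D ^ 2)) ≤
        24 * C' ^ 2 * (gr 𝔤 j ^ 2 * ρ ^ 2) := by
      have hD0 : 0 < D := by linarith
      calc 2 * (4 * p.l j / 𝔤.Gam j ^ 2) * (3 * (C' ^ 2 * 𝔤.Gam (j + 1) ^ 2 / D ^ 2))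
          = 24 * C' ^ 2 * (gr 𝔤 j ^ 2 * ρ ^ 2) / p.l j := by rw [← hlD, gr]; field_simp; ring
        _ ≤ _ := div_le_self (by positivity) hl1
    rw [a2, a3]
    have a7 := mul_le_mul_of_nonneg_left a5 (show 0 ≤ 2 * (4 * p.l j / 𝔤.Gam j ^ 2) by positivity)
    have a8 : 0 ≤ 44 * C ^ 4 * (gr 𝔤 j ^ 2 * ρ ^ 2) := by positivity
    linarith
  · rw [show nu0 (wedge l') = 0 from ev2_wedge _ _ l' h2l, zero_smul, add_zero]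
    have h4 : 4 ≤ l'.length := by
      have := List.length_pos_iff.2 hne'
      obtain ⟨n, hn⟩ := he'
      omega
    have hk1 : C * gr 𝔤 j * Real.sqrt ρ * ρ ≤ 1 / 2 := by
      have b1 : gr 𝔤 j * Real.sqrt ρ ≤ 2 := (mul_le_of_le_one_right hg0.le hs1).trans hg2
      have b2 := mul_le_mul hρC b1 (by positivity) (by norm_num)
      linarith
    refine (pauli2 (by positivity) (mul_le_of_le_one_right (by positivity) hρ1) hk1 _ l'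
      (fun u hu => ⟨J.h0 u (hl' u hu), J.h1 u (hl' u hu)⟩) h4).mono subset_rfl ?_
    rw [mul_pow _ ρ, hκ0]
    have b1 : gr 𝔤 j ^ 2 * ρ ^ 2 ≤ 4 := by
      have : gr 𝔤 j * ρ ≤ 2 := (mul_le_of_le_one_right hg0.le hρ1).trans hg2
      rw [← mul_pow]; nlinarith [mul_pos hg0 hρ0]
    have b2 := mul_le_mul_of_nonneg_left b1 (show 0 ≤ 11 * C ^ 4 * (gr 𝔤 j ^ 2 * ρ ^ 2) by positivity)
    have b3 : 0 ≤ (3 * C ^ 2 + 24 * C' ^ 2) * (gr 𝔤 j ^ 2 * ρ ^ 2) := by positivity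
    nlinarith

/-- monomials with sources in the separated regime: exactly one observable `k` is in range, and the remainder is `a τ_k` times the
remainder of `rem_obs` (any `j`) -/
theorem remd_core {p : Par} {K : ℕ} {Γs : ℝ} {𝔤 : Geom} {j : ℕ} {x : Site} (h : Hyp p K Γs 𝔤 j) (hj : (j : ℕ∞) < 𝔤.jN)
    (lB lA : List (GV Ix)) (hB : ∀ u ∈ lB, u ∈ Bset p 𝔤 j x) (hA : ∀ u ∈ lA, u ∈ Aset p 𝔤 j x) (heB : Even lB.length)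
    (hB' : lB ≠ []) (hA' : lA ≠ []) : ∃ k < 𝔤.m, supd x (𝔤.y k).1 ≤ 3 * p.l j ∧ ∀ B : ℝ,
      GBd (𝔤.U p (j + 1) x)
        (wedge lA - ((-1 / tc) * nu0 (gmap (gaugeV (sgn 𝔤.S (𝔤.y k).1)) (wedge lA))) • ((𝔤.oK k : Al) : Gr Ix)) B →
      GBd (𝔤.U p (j + 1) x) (Rm p 𝔤 j x (wedge lB * wedge lA)) (𝔤.h (j + 1) / 𝔤.h j * B) := by
  have h1 := l_eq h.ok j
  have h3 := h.lam_big
  have h5 : 100 * p.l j ≤ p.T * p.l j := Nat.mul_le_mul_right _ h.hT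
  have h1' := l_eq h.ok (j + 1)
  obtain ⟨h0, h0', -⟩ := h.geo.wt
  have spec : ∀ u ∈ lB, ∃ k b, ∃ t : ℝ, k < 𝔤.m ∧ supd x (𝔤.y k).1 ≤ 3 * p.l j ∧ |t| ≤ 𝔤.h j ^ (-(1 / 2 : ℝ)) ∧
      u = t • dz k b := fun u hu => by
    obtain ⟨x', hx', hu'⟩ := hB u hu
    obtain ⟨k, b, t, hk, hd, ht, e⟩ := uz_spec h.ok hu'
    have := supd_triangle x x' (𝔤.y k).1
    rw [supd_comm] at hd
    exact ⟨k, b, t, hk, by omega, ht, e⟩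
  obtain ⟨u₀, hu₀⟩ := List.exists_mem_of_ne_nil lB hB'
  obtain ⟨k, -, -, hk, hx, -⟩ := spec u₀ hu₀
  have uniq : ∀ k' < 𝔤.m, supd x (𝔤.y k').1 ≤ 3 * p.l j → k' = k := fun k' hk' hx' =>
    obs_unique h hj hk hk' (x := x) (by omega) (by omega)
  refine ⟨k, hk, hx, fun B hG => ?_⟩
  obtain ⟨a, ha, hw⟩ := wedge_src k (Real.rpow_pos_of_pos h0 (-(1 / 2 : ℝ))).le lB (fun u hu => by
    obtain ⟨k', b, t, hk', hx', ht, e⟩ := spec u hu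
    exact ⟨b, t, ht, uniq k' hk' hx' ▸ e⟩) heB hB'
  have hSF : ∀ u ∈ lA, SF u := fun u hu => (aset_supp h.ok (hA u hu)).sf
  rw [rm_mix lB lA (fun u hu => by
      obtain ⟨k', b, t, -, -, -, e⟩ := spec u hu
      exact ⟨k', b, t, e⟩) hSF hB' hA', mvG_one hj hk hx uniq, hw, smul_mul_assoc]
  have ho : 𝔤.obsC k (a • (((tau k : Al) : Gr Ix) * wedge lA)) =
      a * ((-1 / tc) * nu0 (gmap (gaugeV (sgn 𝔤.S (𝔤.y k).1)) (wedge lA))) := by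
    rw [map_smul, Geom.obsC, LinearMap.smul_apply, LinearMap.comp_apply, LinearMap.comp_apply, dTau_tau_mul k lA hSF]
    rfl
  have hτ : GBd (𝔤.U p (j + 1) x) ((tau k : Al) : Gr Ix) (𝔤.h (j + 1)) :=
    gbd_tau hk h0' (by rw [if_neg (Nat.succ_ne_zero j), mem_box, supd_comm]; omega)
  have ha' : |a| ≤ (𝔤.h j)⁻¹ := by
    rwa [← Real.rpow_natCast, ← Real.rpow_mul h0.le, show -(1 / 2 : ℝ) * ((2 : ℕ) : ℝ) = -1 by norm_num,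
      Real.rpow_neg_one] at ha
  have hB0 := hG.nonneg
  refine GBd.mono (c := |a| * (𝔤.h (j + 1) * B)) ?_ subset_rfl ?_
  · convert (hτ.mul hG).smul a using 1
    rw [ho, MulMemClass.coe_mul, mul_sub, mul_smul_comm, smul_sub, smul_smul]
  · calc |a| * (𝔤.h (j + 1) * B) ≤ (𝔤.h j)⁻¹ * (𝔤.h (j + 1) * B) := by gcongr
      _ = _ := by ring

/-- a bound `C / L` next to an observable is below `kap` -/
theorem remd_kap {p : Par} {K : ℕ} {Γs : ℝ} {𝔤 : Geom} {j : ℕ} {x : Site} (h : Hyp p K Γs 𝔤 j) (hj : (j : ℕ∞) < 𝔤.jN) {k : ℕ}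
    (hk : k < 𝔤.m) (hx : supd x (𝔤.y k).1 ≤ 3 * p.l j) {C : ℝ} (hC : 0 ≤ C) : C / p.L ≤ kap p K 𝔤 j C 0 x := by
  have h5 : 100 * p.l j ≤ p.T * p.l j := Nat.mul_le_mul_right _ h.hT
  have h1 : phi p j (Fp 𝔤) x = 1 / p.T := phi_near h (Or.inr ⟨k, hk, rfl⟩) (by omega)
  have hT1 : (100 : ℝ) ≤ p.T := by exact_mod_cast h.hT
  have hL1 : 1000 * (p.T : ℝ) ^ 3 ≤ p.L := by exact_mod_cast h.hL
  have hT3 : (0 : ℝ) < (p.T : ℝ) ^ 3 := by positivity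
  have h2 : 0 ≤ C / p.L * phi p j 𝔤.Bb x ^ 2 := by positivity
  have h3 : C / p.L ≤ C / (p.T : ℝ) ^ 3 := div_le_div_of_nonneg_left hC hT3 (by linarith)
  rw [kap, if_pos (show Good p K 𝔤 j from Or.inl hj), h1, div_pow, one_pow, mul_one, mul_one_div]
  linarith

theorem remd_mix_sep : ∃ (C : ℝ) (T₀ : ℕ), 0 < C ∧ ∀ (p : Par) (K : ℕ) (Γs : ℝ) (𝔤 : Geom) (j : ℕ) (x : Site), Hyp p K Γs 𝔤 j →
    T₀ ≤ p.T → j ≠ 0 → (j : ℕ∞) < 𝔤.jN → ∀ lB lA : List (GV Ix), (∀ u ∈ lB, u ∈ Bset p 𝔤 j x) → (∀ u ∈ lA, u ∈ Aset p 𝔤 j x) →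
      Even lB.length → Even lA.length → lB ≠ [] → lA ≠ [] →
      GBd (𝔤.U p (j + 1) x) (Rm p 𝔤 j x (wedge lB * wedge lA)) (kap p K 𝔤 j C 0 x) := by
  obtain ⟨C, T₀, hC, H⟩ := remd_obs
  refine ⟨4 * C, T₀, by positivity, fun p K Γs 𝔤 j x h hT hj0 hj lB lA hB hA heB heA hB' hA' => ?_⟩
  obtain ⟨k, hk, hx, hc⟩ := remd_core h hj lB lA hB hA heB hB' hA'
  refine (hc _ (H p K Γs 𝔤 j x k h hT hj hk hx lA hA heA hA')).mono subset_rfl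
    (le_trans ?_ (remd_kap h hj hk hx (by positivity)))
  obtain ⟨h0, h0', h2⟩ := h.geo.wt
  rw [if_pos hj, if_neg hj0] at h2
  obtain ⟨hg0, hg2⟩ := h.gr_pos
  have hL0 : (0 : ℝ) < p.L := by exact_mod_cast (show 0 < p.L by have := h.ok.1; omega)
  have a1 : 𝔤.h (j + 1) / 𝔤.h j ≤ p.L := (div_le_iff₀ h0).2 h2
  have a2 : gr 𝔤 j ^ 2 ≤ 4 := by nlinarith
  calc 𝔤.h (j + 1) / 𝔤.h j * (C * gr 𝔤 j ^ 2 / (p.L : ℝ) ^ 2) ≤ p.L * (C * 4 / (p.L : ℝ) ^ 2) := by gcongr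
    _ = 4 * C / p.L := by field_simp

/-- `j = 0`: `rem_mix_sep0` from `rem_obs0` -/
theorem remd_mix_sep0 {C : ℝ} (hC : 0 < C) {p : Par} {K : ℕ} {Γs : ℝ} {𝔤 : Geom} {x : Site} (h : Hyp p K Γs 𝔤 0)
    (hj : ((0 : ℕ) : ℕ∞) < 𝔤.jN) (lB lA : List (GV Ix)) (hB : ∀ u ∈ lB, u ∈ Bset p 𝔤 0 x) (hA : ∀ u ∈ lA, u ∈ Aset p 𝔤 0 x)
    (heB : Even lB.length) (hB' : lB ≠ []) (hA' : lA ≠ [])
    (H : ∀ k < 𝔤.m, supd x (𝔤.y k).1 ≤ 3 * p.l 0 → GBd (𝔤.U p (0 + 1) x)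
      (wedge lA - ((-1 / tc) * nu0 (gmap (gaugeV (sgn 𝔤.S (𝔤.y k).1)) (wedge lA))) • ((𝔤.oK k : Al) : Gr Ix))
      (C * gr 𝔤 0 ^ 2 / (p.L * p.l 1))) :
    GBd (𝔤.U p (0 + 1) x) (Rm p 𝔤 0 x (wedge lB * wedge lA)) (kap p K 𝔤 0 C 0 x) := by
  obtain ⟨k, hk, hx, hc⟩ := remd_core h hj lB lA hB hA heB hB' hA'
  refine (hc _ (H k hk hx)).mono subset_rfl (le_trans ?_ (remd_kap h hj hk hx hC.le))
  obtain ⟨h0, h0', h2⟩ := h.geo.wt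
  rw [if_pos hj, if_pos rfl] at h2
  obtain ⟨hΓ, hΓ'⟩ := h.gam_pos
  have hL0 : (0 : ℝ) < p.L := by exact_mod_cast (show 0 < p.L by have := h.ok.1; omega)
  have hl0 : (0 : ℝ) < p.l 1 := by
    exact_mod_cast (show 0 < p.l 1 by have := l_eq h.ok 1; have := lam_ge h.ok 1; omega)
  have a1 : 𝔤.h (0 + 1) / 𝔤.h 0 ≤ 𝔤.Gam 0 ^ 2 * p.l 1 / 𝔤.Gam 1 ^ 2 := (div_le_iff₀ h0).2 h2
  have hΓ1 : 0 < 𝔤.Gam 1 := hΓ'
  calc 𝔤.h (0 + 1) / 𝔤.h 0 * (C * gr 𝔤 0 ^ 2 / (p.L * p.l 1))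
      ≤ 𝔤.Gam 0 ^ 2 * p.l 1 / 𝔤.Gam 1 ^ 2 * (C * gr 𝔤 0 ^ 2 / (p.L * p.l 1)) := by gcongr
    _ = C / p.L := by rw [gr, zero_add]; field_simp

end Crest.Agent.R165.D2
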