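import Crest.Agent.R165.D2.One
import Crest.Agent.R165.D2.Mode
import Crest.Agent.R165.D2.Count
import Crest.Agent.R165.D2.RemD

/-! # R165/D2/Rem (owner helper6): the remainder `Rm` contracts -/

set_option autoImplicit false
set_option linter.unusedVariables false
noncomputable section
open Classical

namespace Crest.Agent.R165.D2

/-- transport back from the plane gauge -/
theorem gbd_ungauge {σ : Site → ℝ} (hσ : IsSign σ) {U : Set (GV Ix)} {F : Gr Ix} {c : ℝ} (h : GBd (gaugeV σ '' U) F c) :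
    GBd U (gmap (gaugeV σ) F) c := by
  refine h.gmap _ ?_
  rintro _ ⟨v, hv, rfl⟩
  rwa [gaugeV_gaugeV hσ]

/-- the bulk base point `z = x`: `Ds = cd S (λ'/2) x`, `D = min (cd Bb (λ'/2) x) Ds`. If `D < Ds` a boundary point is within `λ'/2`, so the spins are far
(`GeoOK.spin`) and `Ds = λ'/2 = ℓ'/200` -/
theorem bp_bulk {p : Par} {K : ℕ} {Γs : ℝ} {𝔤 : Geom} {j : ℕ} (h : Hyp p K Γs 𝔤 j) {x : Site} (hx : 𝔤.Bulk p j x) :
    ∃ D Ds : ℕ, Bp p 𝔤 j x x D Ds ∧ p.T * p.l j ≤ D ∧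
      (p.l j / Ds : ℝ) * (p.l j / D : ℝ) ^ 2 ≤ 200 / p.L * phi p j 𝔤.Bb x ^ 2 + phi p j (Fp 𝔤) x ^ 3 := by
  have h1 := h.lam_big
  have h2 := lam_half h.ok (j + 1)
  have h3 := l_eq h.ok (j + 1)
  have h4 : 100 * p.l j ≤ p.T * p.l j := Nat.mul_le_mul_right _ h.hT
  have h5 := l_eq h.ok j
  have h6 := lam_ge h.ok j
  set R := p.lam (j + 1) / 2 with hR
  set B := cd 𝔤.Bb R x with hB
  set Ds := cd (↑𝔤.S) R x with hDs
  have hTB : p.T * p.l j ≤ B := le_cd (by omega) fun b hb => hx.1 b (Or.inl hb)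
  have hTS : p.T * p.l j ≤ Ds := le_cd (by omega) fun b hb => hx.1 b (Or.inr hb)
  have hDsR : Ds ≤ R := cd_le _ _ _
  refine ⟨min B Ds, Ds, ⟨by rw [supd_self]; omega, ⟨0, hx.2⟩, fun b hb => ?_, fun v hv => cd_le_supd R x hv, by omega,
    min_le_right _ _, by omega⟩, by omega, ?_⟩
  · rcases hb with hb | hb
    · exact (min_le_left _ _).trans (cd_le_supd R x hb)
    · exact (min_le_right _ _).trans (cd_le_supd R x hb)
  have hl : (0 : ℝ) < p.l j := by exact_mod_cast (show 0 < p.l j by omega)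
  have hL : (0 : ℝ) < p.L := by
    have := h.ok.1
    exact_mod_cast (show 0 < p.L by omega)
  have e1 : phi p j 𝔤.Bb x = p.l j / B := by
    rw [phi, ← hR, ← hB, max_eq_left hTB]
  have p2 := (phi_pos h (Fp 𝔤) x).1
  rcases le_or_gt Ds B with hc | hc
  · rw [min_eq_right hc]
    have e2 : (p.l j / Ds : ℝ) ≤ phi p j (Fp 𝔤) x := by
      rw [phi, ← hR]
      refine div_le_div_of_nonneg_left hl.le (by exact_mod_cast (show 0 < max _ _ by omega)) ?_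
      exact_mod_cast max_le (cd_anti Set.subset_union_left R x) hTS
    have e3 : (p.l j / Ds : ℝ) ^ 3 ≤ phi p j (Fp 𝔤) x ^ 3 := pow_le_pow_left₀ (by positivity) e2 3
    have e4 : 0 ≤ 200 / (p.L : ℝ) * phi p j 𝔤.Bb x ^ 2 := by positivity
    calc _ = (p.l j / Ds : ℝ) ^ 3 := by ring
      _ ≤ _ := by linarith
  · rw [min_eq_left hc.le, e1]
    obtain ⟨b, hb, e2⟩ := (cd_cases 𝔤.Bb R x).resolve_left (by omega)
    have e3 : R ≤ Ds := le_cd le_rfl fun v hv => by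
      have f1 := (h.geo.spin v hv).2 b hb
      have f2 := supd_triangle v x b
      have f3 : p.l (j + 1) ≤ K * p.l (j + 1) := Nat.le_mul_of_pos_left _ (by
        have := h.hK
        have := h.ok.1
        omega)
      rw [supd_comm v x] at f2
      omega
    have e4 : 200 * Ds = p.L * p.l j := by rw [← l_succ]; omega
    have e5 : (200 : ℝ) * Ds = p.L * p.l j := by exact_mod_cast e4
    have e6 : (p.l j / Ds : ℝ) = 200 / p.L := by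
      rw [div_eq_div_iff (by exact_mod_cast (show Ds ≠ 0 by omega)) hL.ne', e5, mul_comm]
    rw [e6]
    exact le_add_of_nonneg_right (by positivity)

theorem remb_two {C₁ C₂ G G' l lam D Ds : ℝ} (hG : 0 < G) (hl : 1 ≤ l) (hlam : 0 ≤ lam) (hlam' : lam ≤ l) (hD : 0 < D)
    (hDs : 0 < Ds) :
    (C₁ * (G' / G) * Real.sqrt (l / Ds) * (l / D)) ^ 2 +
      2 * (C₁ * (G' / G) * Real.sqrt (l / Ds)) * (C₁ * (G' / G) * Real.sqrt (l / Ds) * (l / D) ^ 2) +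
      50 * ((20 * Real.sqrt lam / G) ^ 2 + 20 * Real.sqrt lam / G * (240 * l * Real.sqrt lam / G)) *
        ((C₂ * G' / Real.sqrt Ds / D) ^ 2 + 2 * (C₂ * G' / Real.sqrt Ds) * (C₂ * G' / Real.sqrt Ds / D ^ 2)) ≤
      (3 * C₁ ^ 2 + 780000 * C₂ ^ 2) * (G' / G) ^ 2 * (l / Ds * (l / D) ^ 2) := by
  have h1 : Real.sqrt (l / Ds) ^ 2 = l / Ds := Real.sq_sqrt (by positivity)
  have h2 : Real.sqrt lam ^ 2 = lam := Real.sq_sqrt hlam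
  have h3 : Real.sqrt Ds ^ 2 = Ds := Real.sq_sqrt hDs.le
  have h4 : 0 < Real.sqrt Ds := Real.sqrt_pos.2 hDs
  have e1 : (C₁ * (G' / G) * Real.sqrt (l / Ds) * (l / D)) ^ 2 +
      2 * (C₁ * (G' / G) * Real.sqrt (l / Ds)) * (C₁ * (G' / G) * Real.sqrt (l / Ds) * (l / D) ^ 2) =
      3 * C₁ ^ 2 * (G' / G) ^ 2 * (Real.sqrt (l / Ds) ^ 2 * (l / D) ^ 2) := by ring
  have e2 : (20 * Real.sqrt lam / G) ^ 2 + 20 * Real.sqrt lam / G * (240 * l * Real.sqrt lam / G) =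
      Real.sqrt lam ^ 2 * (400 + 4800 * l) / G ^ 2 := by field_simp; ring
  have e3 : (C₂ * G' / Real.sqrt Ds / D) ^ 2 + 2 * (C₂ * G' / Real.sqrt Ds) * (C₂ * G' / Real.sqrt Ds / D ^ 2) =
      3 * C₂ ^ 2 * G' ^ 2 / (Real.sqrt Ds ^ 2 * D ^ 2) := by field_simp; ring
  rw [e1, e2, e3, h1, h2, h3]
  have h5 : lam * (400 + 4800 * l) ≤ 5200 * l ^ 3 := by
    have : lam * (400 + 4800 * l) ≤ l * (5200 * l) := mul_le_mul hlam' (by linarith) (by linarith) (by linarith)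
    nlinarith [mul_nonneg (sq_nonneg l) (sub_nonneg.2 hl)]
  have h6 : 50 * (lam * (400 + 4800 * l) / G ^ 2) * (3 * C₂ ^ 2 * G' ^ 2 / (Ds * D ^ 2)) ≤
      50 * (5200 * l ^ 3 / G ^ 2) * (3 * C₂ ^ 2 * G' ^ 2 / (Ds * D ^ 2)) := by gcongr
  have e4 : 50 * (5200 * l ^ 3 / G ^ 2) * (3 * C₂ ^ 2 * G' ^ 2 / (Ds * D ^ 2)) =
      780000 * C₂ ^ 2 * (G' / G) ^ 2 * (l / Ds * (l / D) ^ 2) := by field_simp; ring
  rw [e4] at h6
  linarith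

/-- **plane-gauge bound at a base point, source-free monomials**: `bulk2` (length 2), `loc2_wedge` + `pauli2` (length `≥ 4`), with `jets`, `jets_dl`, `fb` -/
theorem rem_bp : ∃ (C : ℝ) (T₀ : ℕ), 0 < C ∧ ∀ (p : Par) (K : ℕ) (Γs : ℝ) (𝔤 : Geom) (j : ℕ) (x : Site) (D Ds : ℕ), Hyp p K Γs 𝔤 j →
    Bp p 𝔤 j x x D Ds → T₀ * p.l j ≤ D → ∀ l : List (GV Ix), (∀ u ∈ l, u ∈ gaugeV (sgn 𝔤.S x) '' Aset p 𝔤 j x) → Even l.length → l ≠ [] →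
      GBd (gaugeV (sgn 𝔤.S x) '' 𝔤.U p (j + 1) x) (wedge l - loc2 x (wedge l))
        (C * gr 𝔤 j ^ 2 * ((p.l j / Ds : ℝ) * (p.l j / D : ℝ) ^ 2)) := by
  obtain ⟨C₁, hC₁, H₁⟩ := jets
  obtain ⟨C₂, hC₂, H₂⟩ := jets_dl
  refine ⟨3 * C₁ ^ 2 + 780000 * C₂ ^ 2 + 44 * C₁ ^ 4, ⌈4 * C₁⌉₊, by positivity, ?_⟩
  intro p K Γs 𝔤 j x D Ds h hb hT l hl he hne
  have J₁ := H₁ p K Γs 𝔤 j x x D Ds h hb
  have J₂ := (H₂ p K Γs 𝔤 j x x D Ds h hb).1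
  have h1 := l_eq h.ok j
  have h2 := lam_ge h.ok j
  have h3 := hb.lo
  have h4 := hb.le
  obtain ⟨j₀, hj₀⟩ := hb.ins
  have hF := fb h hb.near (pl_of_far h hj₀ (R := 6 * p.l j) hb.far (by omega))
  obtain ⟨hG, hG'⟩ := h.gam_pos
  obtain ⟨hg, hg2⟩ := h.gr_pos
  have hl1 : (1 : ℝ) ≤ p.l j := by exact_mod_cast (show 1 ≤ p.l j by omega)
  have hlam : (p.lam j : ℝ) ≤ p.l j := by exact_mod_cast (show p.lam j ≤ p.l j by omega)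
  have hD : (p.l j : ℝ) ≤ D := by exact_mod_cast (show p.l j ≤ D by omega)
  have hDs : (p.l j : ℝ) ≤ Ds := by exact_mod_cast (show p.l j ≤ Ds by omega)
  have hD0 : (0 : ℝ) < D := by linarith
  have hDs0 : (0 : ℝ) < Ds := by linarith
  have hC0 : 0 ≤ C₁ := by linarith
  have hC0' : 0 ≤ C₂ := by linarith
  have hl0 : (0 : ℝ) < p.l j := by linarith
  have hX : 0 ≤ gr 𝔤 j ^ 2 * ((p.l j / Ds : ℝ) * (p.l j / D : ℝ) ^ 2) := by positivity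
  by_cases h2l : l.length = 2
  · obtain ⟨u, v, rfl⟩ := List.length_eq_two.1 h2l
    have e : wedge [u, v] = ExteriorAlgebra.ι ℝ u * ExteriorAlgebra.ι ℝ v := by simp [wedge]
    rw [e]
    refine (bulk2 J₁ J₂ hF (by positivity) (by positivity) (by positivity) (by positivity) (by positivity) (by positivity)
      (by positivity) (by positivity) (hl u (by simp)) (hl v (by simp))).mono subset_rfl ?_
    refine (remb_two hG hl1 (Nat.cast_nonneg _) hlam hD0 hDs0).trans ?_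
    have : 0 ≤ 44 * C₁ ^ 4 * (gr 𝔤 j ^ 2 * ((p.l j / Ds : ℝ) * (p.l j / D : ℝ) ^ 2)) := by positivity
    show (3 * C₁ ^ 2 + 780000 * C₂ ^ 2) * gr 𝔤 j ^ 2 * _ ≤ _
    linarith
  · have h4l : 4 ≤ l.length := by
      have := List.length_pos_of_ne_nil hne
      obtain ⟨m, hm⟩ := he
      omega
    rw [loc2_wedge x l (Or.inl h2l), sub_zero]
    have hs : (p.l j / Ds : ℝ) ≤ 1 := (div_le_one hDs0).2 hDs
    have hs' : Real.sqrt (p.l j / Ds) ≤ 1 := Real.sqrt_le_one.2 hs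
    have hδ : (p.l j / D : ℝ) ≤ 1 := (div_le_one hD0).2 hD
    have hδ' : 4 * C₁ * (p.l j / D : ℝ) ≤ 1 := by
      rw [← mul_div_assoc, div_le_one hD0]
      have : ((⌈4 * C₁⌉₊ * p.l j : ℕ) : ℝ) ≤ D := by exact_mod_cast hT
      push_cast at this
      exact (mul_le_mul_of_nonneg_right (Nat.le_ceil _) hl0.le).trans this
    have hk : C₁ * gr 𝔤 j * Real.sqrt (p.l j / Ds) * (p.l j / D) ≤ 1 / 2 := by
      have : C₁ * gr 𝔤 j * Real.sqrt (p.l j / Ds) * (p.l j / D) ≤ C₁ * 2 * 1 * (p.l j / D) := by gcongr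
      linarith
    refine (pauli2 (κ₀ := C₁ * gr 𝔤 j * Real.sqrt (p.l j / Ds)) (by positivity)
      (mul_le_of_le_one_right (by positivity) hδ) hk x l (fun u hu => ⟨J₁.h0 u (hl u hu), J₁.h1 u (hl u hu)⟩) h4l).mono
      subset_rfl ?_
    have e1 : Real.sqrt (p.l j / Ds) ^ 2 = p.l j / Ds := Real.sq_sqrt (by positivity)
    have e2 : 11 * (C₁ * gr 𝔤 j * Real.sqrt (p.l j / Ds)) ^ 2 * (C₁ * gr 𝔤 j * Real.sqrt (p.l j / Ds) * (p.l j / D)) ^ 2 =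
        11 * C₁ ^ 4 * (gr 𝔤 j ^ 2 * Real.sqrt (p.l j / Ds) ^ 2) *
          (gr 𝔤 j ^ 2 * (Real.sqrt (p.l j / Ds) ^ 2 * (p.l j / D) ^ 2)) := by ring
    rw [e2, e1]
    have h5 : gr 𝔤 j ^ 2 * (p.l j / Ds : ℝ) ≤ 2 ^ 2 * 1 := by gcongr
    have h6 : 11 * C₁ ^ 4 * (gr 𝔤 j ^ 2 * (p.l j / Ds : ℝ)) * (gr 𝔤 j ^ 2 * ((p.l j / Ds : ℝ) * (p.l j / D : ℝ) ^ 2)) ≤
        11 * C₁ ^ 4 * (2 ^ 2 * 1) * (gr 𝔤 j ^ 2 * ((p.l j / Ds : ℝ) * (p.l j / D : ℝ) ^ 2)) := by gcongr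
    have h7 : 0 ≤ (3 * C₁ ^ 2 + 780000 * C₂ ^ 2) * (gr 𝔤 j ^ 2 * ((p.l j / Ds : ℝ) * (p.l j / D : ℝ) ^ 2)) := by positivity
    linarith

/-- **bulk** (`bp_bulk`, `rem_bp`, `gbd_ungauge`, `gmap_wedge`, `g ≤ 2`) -/
theorem rem_bulk : ∃ (C : ℝ) (T₀ : ℕ), 0 < C ∧ ∀ (p : Par) (K : ℕ) (Γs : ℝ) (𝔤 : Geom) (j : ℕ) (x : Site), Hyp p K Γs 𝔤 j → T₀ ≤ p.T →
    𝔤.Bulk p j x → ∀ l : List (GV Ix), (∀ u ∈ l, u ∈ Aset p 𝔤 j x) → Even l.length → l ≠ [] →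
      GBd (𝔤.U p (j + 1) x) (wedge l - 𝔤.loc2G p j x (wedge l)) (kap p K 𝔤 j C 0 x) := by
  obtain ⟨C, T₀, hC, H⟩ := rem_bp
  refine ⟨800 * C, T₀, by positivity, fun p K Γs 𝔤 j x h hT hx l hl he hne => ?_⟩
  obtain ⟨D, Ds, hBp, hD, hineq⟩ := bp_bulk h hx
  have hσ := isSign_sgn 𝔤.S x
  have h1 := gbd_ungauge hσ (H p K Γs 𝔤 j x D Ds h hBp ((Nat.mul_le_mul_right _ hT).trans hD) (l.map (gaugeV (sgn 𝔤.S x)))
    (fun u hu => by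
      obtain ⟨v, hv, rfl⟩ := List.mem_map.1 hu
      exact ⟨v, hl v hv, rfl⟩) (by rwa [List.length_map]) (by simpa using hne))
  rw [← gmap_wedge, map_sub, gmap_gauge_gauge hσ] at h1
  rw [Geom.loc2G, if_pos hx]
  refine h1.mono subset_rfl ((mul_le_mul_of_nonneg_left hineq (by positivity)).trans ?_)
  obtain ⟨g0, g2⟩ := h.gr_pos
  have p1 := (phi_pos h 𝔤.Bb x).1
  have p2 := (phi_pos h (Fp 𝔤) x).1
  have hT1 : (1 : ℝ) ≤ p.T := by exact_mod_cast (show 1 ≤ p.T by have := h.hT; omega)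
  have e2 : gr 𝔤 j ^ 2 ≤ 4 := by nlinarith
  have e1 : gr 𝔤 j ^ 2 ≤ 800 * if Good p K 𝔤 j then 1 else (p.T : ℝ) ^ 3 * gr 𝔤 j ^ 2 := by
    split_ifs
    · linarith
    · nlinarith [mul_le_mul_of_nonneg_right (one_le_pow₀ (n := 3) hT1) (sq_nonneg (gr 𝔤 j)), sq_nonneg (gr 𝔤 j)]
  rw [kap, zero_add, mul_add]
  refine add_le_add ?_ ?_
  · calc C * gr 𝔤 j ^ 2 * (200 / p.L * phi p j 𝔤.Bb x ^ 2) ≤ C * 4 * (200 / p.L * phi p j 𝔤.Bb x ^ 2) := by gcongr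
      _ = _ := by ring
  · calc C * gr 𝔤 j ^ 2 * phi p j (Fp 𝔤) x ^ 3
        ≤ C * (800 * if Good p K 𝔤 j then 1 else (p.T : ℝ) ^ 3 * gr 𝔤 j ^ 2) * phi p j (Fp 𝔤) x ^ 3 := by gcongr
      _ = _ := by ring

theorem remc_le {p : Par} {K : ℕ} {Γs : ℝ} {𝔤 : Geom} {j : ℕ} (h : Hyp p K Γs 𝔤 j) {C a : ℝ} (hC : 1 ≤ C) (ha : 0 ≤ a) (x : Site) :
    a ≤ kap p K 𝔤 j C a x ∧ C / p.L * phi p j 𝔤.Bb x ^ 2 ≤ kap p K 𝔤 j C a x ∧
      C * ((if Good p K 𝔤 j then 1 else (p.T : ℝ) ^ 3 * gr 𝔤 j ^ 2) * phi p j (Fp 𝔤) x ^ 3) ≤ kap p K 𝔤 j C a x := by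
  have h1 : 0 ≤ C / p.L * phi p j 𝔤.Bb x ^ 2 := by positivity
  have h3 := (phi_pos h (Fp 𝔤) x).1
  have h2 : 0 ≤ C * (if Good p K 𝔤 j then 1 else (p.T : ℝ) ^ 3 * gr 𝔤 j ^ 2) * phi p j (Fp 𝔤) x ^ 3 := by
    split_ifs <;> positivity
  unfold kap
  refine ⟨by linarith, by linarith, ?_⟩
  rw [← mul_assoc]
  linarith

theorem remc_clu {p : Par} {K : ℕ} {Γs : ℝ} {𝔤 : Geom} {j : ℕ} (h : Hyp p K Γs 𝔤 j) (hP : Pkg p K 𝔤 j) (hj : 𝔤.jN ≤ j) {x b : Site}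
    (hb : b ∈ Fp 𝔤) (hx : supd x b ≤ p.T * p.l j) (l : List (GV Ix)) (hl : ∀ u ∈ l, u ∈ Aset p 𝔤 j x) (h2 : 2 ≤ l.length) :
    GBd (𝔤.U p (j + 1) x) (wedge l) ((if Good p K 𝔤 j then 1 else (p.T : ℝ) ^ 3 * gr 𝔤 j ^ 2) * phi p j (Fp 𝔤) x ^ 3) := by
  have hT : (100 : ℝ) ≤ p.T := by exact_mod_cast h.hT
  obtain ⟨g0, g2⟩ := h.gr_pos
  rw [phi_near h hb hx]
  split_ifs with hG
  · refine (pauli0 (κ := gr 𝔤 j / (p.T : ℝ) ^ 2) (by positivity) ((div_le_one (by positivity)).2 (by nlinarith)) l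
      (fun u hu => ?_) h2).mono subset_rfl ?_
    · obtain ⟨x', hx', hu⟩ := hl u hu
      refine (hP.clu hj hG x x' b hb ?_ hx' u hu).subset Set.subset_union_left
      have := supd_triangle x' x b
      rw [supd_comm x' x] at this
      rw [add_mul]
      omega
    · rw [div_pow, one_mul, div_pow, one_pow, ← pow_mul, div_le_div_iff₀ (by positivity) (by positivity), one_mul,
        show 2 * 2 = 1 + 3 by rfl, pow_add]
      exact mul_le_mul_of_nonneg_right (by nlinarith) (by positivity)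
  · have h1 := (h.gr_bad hG).2
    have hK : (1 : ℝ) ≤ K := by
      have := h.hK
      have := h.ok.1
      exact_mod_cast (show 1 ≤ K by omega)
    have h3 : (1 : ℝ) ≤ K * (𝔤.S.card + 𝔤.m + 1) :=
      one_le_mul_of_one_le_of_one_le hK (le_add_of_nonneg_left (by positivity))
    refine (pauli0 g0.le (by nlinarith) l (fun u hu => ?_) h2).mono subset_rfl (le_of_eq ?_)
    · obtain ⟨x', hx', hu⟩ := hl u hu
      exact (triv_in h hx' u hu).subset Set.subset_union_left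
    · field_simp

theorem remc_rk1 {p : Par} {K : ℕ} {Γs : ℝ} {𝔤 : Geom} {j : ℕ} (h : Hyp p K Γs 𝔤 j) {x b : Site} {κ : ℝ} (hκ : 0 ≤ κ) (hκ2 : κ ≤ 2)
    (hR : Rk1 p 𝔤 j b κ (κ / (p.T : ℝ) ^ 3)) (hx : supd x b ≤ p.T * p.l j) (l : List (GV Ix)) (hl : ∀ u ∈ l, u ∈ Aset p 𝔤 j x)
    (h2 : 2 ≤ l.length) : GBd (𝔤.U p (j + 1) x) (wedge l) (3 * κ ^ 2 * (1 / p.T) ^ 3) := by
  have hT : (100 : ℝ) ≤ p.T := by exact_mod_cast h.hT
  have hT3 : (4 : ℝ) ≤ (p.T : ℝ) ^ 3 := le_trans (by norm_num) (pow_le_pow_left₀ (by norm_num) hT 3)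
  obtain ⟨q, φ, hR⟩ := hR
  refine (pauli1 hκ (κ₁ := κ / (p.T : ℝ) ^ 3) (by positivity) ((div_le_iff₀ (by positivity)).2 (by linarith)) (extF φ) (dl q) l
    (fun u hu => ?_) h2).mono subset_rfl ?_
  · obtain ⟨x', hx', hu⟩ := hl u hu
    refine (hR x x' ?_ hx' u hu).imp (fun h => h.subset Set.subset_union_left) fun h => h.subset Set.subset_union_left
    have := supd_triangle x' x b
    rw [supd_comm x' x] at this
    rw [add_mul]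
    omega
  · have h3 : κ / (p.T : ℝ) ^ 3 ≤ κ := div_le_self hκ (by linarith)
    have h4 : 0 ≤ κ / (p.T : ℝ) ^ 3 := by positivity
    have h5 : 3 * κ ^ 2 * (1 / (p.T : ℝ)) ^ 3 = 3 * κ * (κ / (p.T : ℝ) ^ 3) := by field_simp
    rw [h5]
    nlinarith

/-- **not bulk**: near the boundary `pauli1` + `Pkg.bd`; near a spin `pauli1` + `Pkg.sp` (separated) or `pauli0` + `Pkg.clu` / `triv_in`; outside `pauli0` + `out_in`
(`κ = min 1 √a`); `phi_near` -/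
theorem rem_near {p : Par} {K : ℕ} {Γs : ℝ} {𝔤 : Geom} {j : ℕ} (h : Hyp p K Γs 𝔤 j) (hP : Pkg p K 𝔤 j) {x : Site} (hx : ¬ 𝔤.Bulk p j x)
    {a : ℝ} (ha : 0 < a) (l : List (GV Ix)) (hl : ∀ u ∈ l, u ∈ Aset p 𝔤 j x) (h2 : 2 ≤ l.length) :
    GBd (𝔤.U p (j + 1) x) (wedge l) (kap p K 𝔤 j 12 a x) := by
  obtain ⟨k1, k2, k3⟩ := remc_le h (C := 12) (by norm_num) ha.le x
  obtain ⟨g0, g2⟩ := h.gr_pos
  have hT : (100 : ℝ) ≤ p.T := by exact_mod_cast h.hT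
  by_cases hF : 𝔤.Far (p.T * p.l j) x
  · refine (pauli0 (κ := min 1 (Real.sqrt a)) (by positivity) (min_le_left _ _) l (fun u hu => ?_) h2).mono subset_rfl
      (le_trans ?_ k1)
    · obtain ⟨x', hx', hu⟩ := hl u hu
      exact (out_in h hx' hF (fun h0 => hx ⟨hF, h0⟩) (by positivity) u hu).subset Set.subset_union_left
    · exact (pow_le_pow_left₀ (by positivity) (min_le_right _ _) 2).trans_eq (Real.sq_sqrt ha.le)
  simp only [Geom.Far, not_forall, not_le] at hF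
  obtain ⟨b, hb | hb, hxb⟩ := hF
  · have hL : (1 : ℝ) ≤ p.L := by
      have := h.ok.1
      exact_mod_cast (show 1 ≤ p.L by omega)
    have hs : 1 ≤ Real.sqrt p.L := Real.one_le_sqrt.2 hL
    refine (remc_rk1 h (by positivity) ((div_le_self g0.le hs).trans g2) (hP.bd b hb) hxb.le l hl h2).mono subset_rfl
      (le_trans ?_ k2)
    rw [phi_near h hb hxb.le, div_pow, Real.sq_sqrt (by linarith)]
    have e1 : (1 / (p.T : ℝ)) ^ 3 ≤ (1 / (p.T : ℝ)) ^ 2 :=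
      pow_le_pow_of_le_one (by positivity) ((div_le_one (by linarith)).2 (by linarith)) (by norm_num)
    have e2 : 3 * (gr 𝔤 j ^ 2 / p.L) ≤ 12 / p.L := by
      rw [← mul_div_assoc]
      exact div_le_div_of_nonneg_right (by nlinarith) (by linarith)
    exact mul_le_mul e2 e1 (by positivity) (by positivity)
  · have hb' : b ∈ Fp 𝔤 := Or.inl hb
    rcases le_or_gt 𝔤.jN (j : ℕ∞) with hj | hj
    · have h3 := remc_clu h hP hj hb' hxb.le l hl h2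
      exact h3.mono subset_rfl (le_trans (by linarith [h3.nonneg]) k3)
    · refine (remc_rk1 h g0.le g2 (hP.sp hj b hb) hxb.le l hl h2).mono subset_rfl (le_trans ?_ k3)
      rw [if_pos (show Good p K 𝔤 j from Or.inl hj), phi_near h hb' hxb.le]
      have : gr 𝔤 j ^ 2 * (1 / (p.T : ℝ)) ^ 3 ≤ 4 * (1 / (p.T : ℝ)) ^ 3 :=
        mul_le_mul_of_nonneg_right (by nlinarith) (by positivity)
      linarith

/-- **next to an observable, separated regime**: base point `z = (y k).1`, `D = Ds = λ'/2` (`obs_far`); `obs2` (length 2), `ev2_wedge` + `pauli2` (length `≥ 4`),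
`gauge_oK`, `gbd_ungauge` -/
theorem rem_obs : ∃ (C : ℝ) (T₀ : ℕ), 0 < C ∧ ∀ (p : Par) (K : ℕ) (Γs : ℝ) (𝔤 : Geom) (j : ℕ) (x : Site) (k : ℕ), Hyp p K Γs 𝔤 j →
    T₀ ≤ p.T → (j : ℕ∞) < 𝔤.jN → k < 𝔤.m → supd x (𝔤.y k).1 ≤ 3 * p.l j →
    ∀ l : List (GV Ix), (∀ u ∈ l, u ∈ Aset p 𝔤 j x) → Even l.length → l ≠ [] →
      GBd (𝔤.U p (j + 1) x)
        (wedge l - ((-1 / tc) * nu0 (gmap (gaugeV (sgn 𝔤.S (𝔤.y k).1)) (wedge l))) • ((𝔤.oK k : Al) : Gr Ix))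
        (C * gr 𝔤 j ^ 2 / (p.L : ℝ) ^ 2) :=
  remd_obs

/-- **monomials with sources, separated regime**: `uz_spec`, `obs_unique`, `wedge_src` (`wedge lB = a • τ_k`, `|a| ≤ 1 / h`), `rm_mix`, `mvG_one`, `dTau_tau_mul`,
`gbd_tau` (`h' ≤ L h`), `rem_obs`, `phi_near`, `T³ ≤ L` -/
theorem rem_mix_sep : ∃ (C : ℝ) (T₀ : ℕ), 0 < C ∧ ∀ (p : Par) (K : ℕ) (Γs : ℝ) (𝔤 : Geom) (j : ℕ) (x : Site), Hyp p K Γs 𝔤 j →
    T₀ ≤ p.T → j ≠ 0 → (j : ℕ∞) < 𝔤.jN → ∀ lB lA : List (GV Ix), (∀ u ∈ lB, u ∈ Bset p 𝔤 j x) → (∀ u ∈ lA, u ∈ Aset p 𝔤 j x) →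
      Even lB.length → Even lA.length → lB ≠ [] → lA ≠ [] →
      GBd (𝔤.U p (j + 1) x) (Rm p 𝔤 j x (wedge lB * wedge lA)) (kap p K 𝔤 j C 0 x) :=
  remd_mix_sep

/-- the same at `j = 0`, with the true sizes (`jets0`, `fb0`): `κ₀ = C g / √Ds`, `κ₁ = κ₀ ℓ / D` -/
theorem rem_obs0 : ∃ (C : ℝ) (T₀ : ℕ), 0 < C ∧ ∀ (p : Par) (K : ℕ) (Γs : ℝ) (𝔤 : Geom) (x : Site) (k : ℕ), Hyp p K Γs 𝔤 0 →
    T₀ ≤ p.T → ((0 : ℕ) : ℕ∞) < 𝔤.jN → k < 𝔤.m → supd x (𝔤.y k).1 ≤ 3 * p.l 0 →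
    ∀ l : List (GV Ix), (∀ u ∈ l, u ∈ Aset p 𝔤 0 x) → Even l.length → l ≠ [] →
      GBd (𝔤.U p (0 + 1) x)
        (wedge l - ((-1 / tc) * nu0 (gmap (gaugeV (sgn 𝔤.S (𝔤.y k).1)) (wedge l))) • ((𝔤.oK k : Al) : Gr Ix))
        (C * gr 𝔤 0 ^ 2 / (p.L * p.l 1)) := by
  obtain ⟨C, hC, hJ⟩ := jets0
  obtain ⟨C', hC', hD⟩ := jets_dl
  refine ⟨(3 * C ^ 2 + 6 * C' ^ 2 + 44 * C ^ 4) * 200 ^ 2, ⌈C⌉₊, by positivity,
    fun p K Γs 𝔤 x k h hT hj hk hx l hl he hne => ?_⟩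
  obtain ⟨hB, hP, hR⟩ := remd_bp h hj hk hx
  have J := hJ p K Γs 𝔤 x _ _ _ h hB
  have J' := (hD p K Γs 𝔤 0 x _ _ _ h hB).1
  have F := fb0 h hB.near
  refine remd_ungauge hP l ?_
  have hl' : ∀ u ∈ l.map (gaugeV (sgn 𝔤.S (𝔤.y k).1)), u ∈ gaugeV (sgn 𝔤.S (𝔤.y k).1) '' Aset p 𝔤 0 x := fun u hu => by
    obtain ⟨v, hv, rfl⟩ := List.mem_map.1 hu
    exact ⟨v, hl v hv, rfl⟩
  have he' : Even (l.map (gaugeV (sgn 𝔤.S (𝔤.y k).1))).length := by rwa [List.length_map]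
  have hne' : l.map (gaugeV (sgn 𝔤.S (𝔤.y k).1)) ≠ [] := by simpa using hne
  generalize l.map (gaugeV (sgn 𝔤.S (𝔤.y k).1)) = l' at hl' he' hne'
  have h1 := l_eq h.ok 0
  have h2 := lam_ge h.ok 0
  have hl1 : (1 : ℝ) ≤ p.l 0 := by exact_mod_cast (show 1 ≤ p.l 0 by omega)
  have hT1 : (100 : ℝ) ≤ p.T := by exact_mod_cast h.hT
  have hL1 : 1000 * (p.T : ℝ) ^ 3 ≤ p.L := by exact_mod_cast h.hL
  have hTC : C ≤ p.T := (Nat.le_ceil C).trans (by exact_mod_cast hT)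
  have hT3 : (p.T : ℝ) ≤ (p.T : ℝ) ^ 3 := le_self_pow₀ (by linarith) (by norm_num)
  have hL0 : (0 : ℝ) < p.L := by linarith
  obtain ⟨hg0, hg2⟩ := h.gr_pos
  obtain ⟨hΓ, hΓ'⟩ := h.gam_pos
  obtain ⟨ρ, hρ⟩ : ∃ ρ : ℝ, ρ = 200 / p.L := ⟨_, rfl⟩
  have hρ0 : 0 < ρ := by rw [hρ]; positivity
  have hρC : C * ρ ≤ 1 / 5 := by
    rw [hρ, ← mul_div_assoc, div_le_iff₀ hL0]; linarith
  have hρ1 : ρ ≤ 1 := by nlinarith
  obtain ⟨D, hDd⟩ : ∃ D : ℝ, D = ((p.lam (0 + 1) / 2 : ℕ) : ℝ) := ⟨_, rfl⟩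
  have hlD : (p.l 0 : ℝ) / D = ρ := by rw [hDd, hR, hρ]; field_simp
  have hD1 : 1 ≤ D := by rw [hDd]; exact_mod_cast (show 1 ≤ p.lam (0 + 1) / 2 by have := lam_ge h.ok (0 + 1); omega)
  have hD0 : 0 < D := by linarith
  have hl1' : (p.l 1 : ℝ) = p.L * p.l 0 := by exact_mod_cast l_succ p 0
  have hfin : (3 * C ^ 2 + 6 * C' ^ 2 + 44 * C ^ 4) * 200 ^ 2 * gr 𝔤 0 ^ 2 / (p.L * p.l 1) =
      (3 * C ^ 2 + 6 * C' ^ 2 + 44 * C ^ 4) * (gr 𝔤 0 ^ 2 / D * ρ) := by rw [hρ, hDd, hR, hl1']; field_simp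
  rw [← hDd] at J J'
  rw [hlD] at J
  rw [hfin]
  have hs1 : 1 ≤ Real.sqrt D := Real.one_le_sqrt.2 hD1
  have hκ0 : (C * gr 𝔤 0 / Real.sqrt D) ^ 2 = C ^ 2 * (gr 𝔤 0 ^ 2 / D) := by
    rw [div_pow, mul_pow, Real.sq_sqrt hD0.le, mul_div_assoc]
  have hX : 0 ≤ gr 𝔤 0 ^ 2 / D * ρ := by positivity
  by_cases h2l : l'.length = 2
  · obtain ⟨u, v, rfl⟩ := List.length_eq_two.1 h2l
    have e : wedge [u, v] = ExteriorAlgebra.ι ℝ u * ExteriorAlgebra.ι ℝ v := by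
      rw [wedge_cons, wedge_cons, wedge_nil, mul_one]
    rw [e]
    refine (obs2 J J' F (by positivity) (by positivity) (by positivity) (by positivity) (by positivity)
      (hl' u (by simp)) (hl' v (by simp))).mono subset_rfl ?_
    have a1 : (C * gr 𝔤 0 / Real.sqrt D * ρ) ^ 2 ≤ C ^ 2 * (gr 𝔤 0 ^ 2 / D * ρ) := by
      rw [mul_pow, hκ0]
      have : C ^ 2 * (gr 𝔤 0 ^ 2 / D * ρ) * ρ ≤ C ^ 2 * (gr 𝔤 0 ^ 2 / D * ρ) :=
        mul_le_of_le_one_right (by positivity) hρ1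
      linarith
    have a2 : 2 * (C * gr 𝔤 0 / Real.sqrt D) * (C * gr 𝔤 0 / Real.sqrt D * ρ) = 2 * C ^ 2 * (gr 𝔤 0 ^ 2 / D * ρ) := by
      linear_combination (2 * ρ) * hκ0
    have a4 : (C' * 𝔤.Gam (0 + 1) / Real.sqrt D) ^ 2 = C' ^ 2 * 𝔤.Gam (0 + 1) ^ 2 / D := by
      rw [div_pow, mul_pow, Real.sq_sqrt (by linarith)]
    have a5 : (C' * 𝔤.Gam (0 + 1) / Real.sqrt D / D) ^ 2 + 2 * (C' * 𝔤.Gam (0 + 1) / Real.sqrt D) *
        (C' * 𝔤.Gam (0 + 1) / Real.sqrt D / D) ≤ 3 * (C' ^ 2 * 𝔤.Gam (0 + 1) ^ 2 / D ^ 2) := by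
      have b1 : (C' * 𝔤.Gam (0 + 1) / Real.sqrt D / D) ^ 2 = C' ^ 2 * 𝔤.Gam (0 + 1) ^ 2 / D ^ 2 / D := by
        rw [div_pow _ D, a4]; ring
      have b2 : 2 * (C' * 𝔤.Gam (0 + 1) / Real.sqrt D) * (C' * 𝔤.Gam (0 + 1) / Real.sqrt D / D) =
          2 * (C' ^ 2 * 𝔤.Gam (0 + 1) ^ 2 / D ^ 2) := by
        rw [show 2 * (C' * 𝔤.Gam (0 + 1) / Real.sqrt D) * (C' * 𝔤.Gam (0 + 1) / Real.sqrt D / D) =
          2 * (C' * 𝔤.Gam (0 + 1) / Real.sqrt D) ^ 2 / D by ring, a4]; ring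
      have b3 : C' ^ 2 * 𝔤.Gam (0 + 1) ^ 2 / D ^ 2 / D ≤ C' ^ 2 * 𝔤.Gam (0 + 1) ^ 2 / D ^ 2 :=
        div_le_self (by positivity) hD1
      linarith
    have a6 : 2 * (1 / 𝔤.Gam 0) ^ 2 * (3 * (C' ^ 2 * 𝔤.Gam (0 + 1) ^ 2 / D ^ 2)) ≤
        6 * C' ^ 2 * (gr 𝔤 0 ^ 2 / D * ρ) := by
      calc 2 * (1 / 𝔤.Gam 0) ^ 2 * (3 * (C' ^ 2 * 𝔤.Gam (0 + 1) ^ 2 / D ^ 2))
          = 6 * C' ^ 2 * (gr 𝔤 0 ^ 2 / D * ρ) / p.l 0 := by rw [← hlD, gr]; field_simp; ring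
        _ ≤ _ := div_le_self (by positivity) hl1
    rw [a2]
    have a7 := mul_le_mul_of_nonneg_left a5 (show 0 ≤ 2 * (1 / 𝔤.Gam 0) ^ 2 by positivity)
    have a8 : 0 ≤ 44 * C ^ 4 * (gr 𝔤 0 ^ 2 / D * ρ) := by positivity
    linarith
  · rw [show nu0 (wedge l') = 0 from ev2_wedge _ _ l' h2l, zero_smul, add_zero]
    have h4 : 4 ≤ l'.length := by
      have := List.length_pos_iff.2 hne'
      obtain ⟨n, hn⟩ := he'
      omega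
    have hk1 : C * gr 𝔤 0 / Real.sqrt D * ρ ≤ 1 / 2 := by
      have b1 : gr 𝔤 0 / Real.sqrt D ≤ 2 := (div_le_self hg0.le hs1).trans hg2
      have b2 := mul_le_mul hρC b1 (by positivity) (by norm_num)
      rw [mul_div_assoc]
      linarith
    refine (pauli2 (by positivity) (mul_le_of_le_one_right (by positivity) hρ1) hk1 _ l'
      (fun u hu => ⟨J.h0 u (hl' u hu), J.h1 u (hl' u hu)⟩) h4).mono subset_rfl ?_
    rw [mul_pow _ ρ, hκ0]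
    have b1 : gr 𝔤 0 ^ 2 / D * ρ ≤ 4 :=
      (mul_le_of_le_one_right (by positivity) hρ1).trans ((div_le_self (by positivity) hD1).trans (by nlinarith))
    have b2 := mul_le_mul_of_nonneg_left b1 (show 0 ≤ 11 * C ^ 4 * (gr 𝔤 0 ^ 2 / D * ρ) by positivity)
    have b3 : 0 ≤ (3 * C ^ 2 + 6 * C' ^ 2) * (gr 𝔤 0 ^ 2 / D * ρ) := by positivity
    nlinarith

/-- as `rem_mix_sep` with `h₁ ≤ (ℓ₁ / g²) h₀` and `rem_obs0` -/
theorem rem_mix_sep0 : ∃ (C : ℝ) (T₀ : ℕ), 0 < C ∧ ∀ (p : Par) (K : ℕ) (Γs : ℝ) (𝔤 : Geom) (x : Site), Hyp p K Γs 𝔤 0 →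
    T₀ ≤ p.T → ((0 : ℕ) : ℕ∞) < 𝔤.jN → ∀ lB lA : List (GV Ix), (∀ u ∈ lB, u ∈ Bset p 𝔤 0 x) → (∀ u ∈ lA, u ∈ Aset p 𝔤 0 x) →
      Even lB.length → Even lA.length → lB ≠ [] → lA ≠ [] →
      GBd (𝔤.U p (0 + 1) x) (Rm p 𝔤 0 x (wedge lB * wedge lA)) (kap p K 𝔤 0 C 0 x) := by
  obtain ⟨C, T₀, hC, H⟩ := rem_obs0
  exact ⟨C, T₀, hC, fun p K Γs 𝔤 x h hT hj lB lA hB hA heB heA hB' hA' =>
    remd_mix_sep0 hC h hj lB lA hB hA heB hB' hA' fun k hk hx => H p K Γs 𝔤 x k h hT hj hk hx lA hA heA hA'⟩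

/-- **monomials with sources, cluster regime**: `rm_mix`, `mvG_clu`, `in_uz`, `pauli0` with `Pkg.clu` / `triv_in`, `phi_near` -/
theorem rem_mix_clu {p : Par} {K : ℕ} {Γs : ℝ} {𝔤 : Geom} {j : ℕ} (h : Hyp p K Γs 𝔤 j) (hP : Pkg p K 𝔤 j) (hj : 𝔤.jN ≤ j) {x : Site}
    (lB lA : List (GV Ix)) (hB : ∀ u ∈ lB, u ∈ Bset p 𝔤 j x) (hA : ∀ u ∈ lA, u ∈ Aset p 𝔤 j x) (hA2 : 2 ≤ lA.length) (hB' : lB ≠ []) :
    GBd (𝔤.U p (j + 1) x) (Rm p 𝔤 j x (wedge lB * wedge lA)) (kap p K 𝔤 j 1 0 x) := by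
  have hs : ∀ u ∈ lB, Src u := fun u hu => by
    obtain ⟨x', -, hu⟩ := hB u hu
    obtain ⟨k, b, t, -, -, -, e⟩ := uz_spec h.ok hu
    exact ⟨k, b, t, e⟩
  rw [rm_mix lB lA hs (fun u hu => (aset_supp h.ok (hA u hu)).sf) hB' (by rintro rfl; simp at hA2), mvG_clu hj,
    LinearMap.zero_apply, sub_zero]
  obtain ⟨u, hu⟩ := List.exists_mem_of_ne_nil lB hB'
  obtain ⟨x', hx', hu⟩ := hB u hu
  obtain ⟨k, -, -, hk, hy, -, -⟩ := uz_spec h.ok hu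
  have hx : supd x (𝔤.y k).1 ≤ p.T * p.l j := by
    have e1 := supd_triangle x x' (𝔤.y k).1
    have e2 := l_eq h.ok j
    have e3 : 100 * p.l j ≤ p.T * p.l j := Nat.mul_le_mul_right _ h.hT
    rw [supd_comm] at hy
    omega
  refine ((remc_clu h hP hj (Or.inr ⟨k, hk, rfl⟩) hx lA hA hA2).wedge_mul fun v hv => ?_).mono subset_rfl
    ((one_mul _).symm.trans_le (remc_le h le_rfl le_rfl x).2.2)
  obtain ⟨x'', hx'', hv⟩ := hB v hv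
  exact Or.inr ((in_uz h hx'' hv).2 hj)

theorem kap_mono {p : Par} {K : ℕ} {Γs : ℝ} {𝔤 : Geom} {j : ℕ} (h : Hyp p K Γs 𝔤 j) {C C' a a' : ℝ} (hC : C ≤ C') (ha : a ≤ a') (x : Site) :
    kap p K 𝔤 j C a x ≤ kap p K 𝔤 j C' a' x := by
  have p2 := (phi_pos h (Fp 𝔤) x).1
  have e1 : (0 : ℝ) ≤ if Good p K 𝔤 j then 1 else (p.T : ℝ) ^ 3 := by
    split_ifs <;> positivity
  unfold kap
  gcongr

/-- **the remainder contracts** (`gbd_lin`, `bd_small`, `coe_rem`, the five cases) -/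
theorem rem_bound : ∃ (C : ℝ) (T₀ : ℕ), 0 < C ∧ ∀ (p : Par) (K : ℕ) (Γs : ℝ) (𝔤 : Geom) (j : ℕ) (a : ℝ), Hyp p K Γs 𝔤 j → T₀ ≤ p.T →
    Pkg p K 𝔤 j → 0 < a → ∀ (Z : Finset Site) (x : Site) (F : Al) (c : ℝ), geoZ.Small (p.l j) Z → x ∈ Z → flipS F = F →
      𝔤.Bd p j Z F c → 𝔤.Bd p (j + 1) {x} (F - cstA F - toEv (𝔤.loc2G p j x) F - toEv (𝔤.mvG p j x) F) (kap p K 𝔤 j C a x * c) := by
  obtain ⟨C₁, T₁, hC₁, h₁⟩ := rem_bulk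
  obtain ⟨C₂, T₂, hC₂, h₂⟩ := rem_mix_sep
  obtain ⟨C₃, T₃, hC₃, h₃⟩ := rem_mix_sep0
  refine ⟨C₁ + C₂ + C₃ + 12, max (max T₁ T₂) T₃, by positivity, fun p K Γs 𝔤 j a h hT hP ha Z x F c hZ hx hF hB => ?_⟩
  rw [bd_single, coe_rem]
  have hk : 0 ≤ kap p K 𝔤 j (C₁ + C₂ + C₃ + 12) a x := kap_nonneg h (by positivity) ha.le x
  have hA : ∀ u ∈ Aset p 𝔤 j x, SF u := fun u hu => (aset_supp h.ok hu).sf
  have hBs : ∀ u ∈ Bset p 𝔤 j x, Src u := fun u ⟨x', _, hu⟩ => by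
    obtain ⟨k, b, t, -, -, -, e⟩ := uz_spec h.ok hu
    exact ⟨k, b, t, e⟩
  refine gbd_lin hA hBs (Rm p 𝔤 j x) hk (fun lB lA hlB hlA eB eA => ?_) hF (bd_small hZ hx hB)
  by_cases hA0 : lA = []
  · subst hA0
    rw [wedge_nil, mul_one, rm_src lB fun u hu => hBs u (hlB u hu)]
    exact (GBd.zero _).mono subset_rfl hk
  have hA2 : 2 ≤ lA.length := by
    obtain ⟨n, hn⟩ := eA
    have : lA.length ≠ 0 := fun e => hA0 (List.length_eq_zero_iff.1 e)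
    omega
  by_cases hB0 : lB = []
  · subst hB0
    rw [wedge_nil, one_mul, rm_sf lA (fun u hu => hA u (hlA u hu)) hA0]
    by_cases hb : 𝔤.Bulk p j x
    · exact (h₁ p K Γs 𝔤 j x h ((le_max_left _ _).trans ((le_max_left _ _).trans hT)) hb lA hlA eA hA0).mono subset_rfl
        (kap_mono h (by linarith) ha.le x)
    · have e : 𝔤.loc2G p j x = 0 := if_neg hb
      rw [e, LinearMap.zero_apply, sub_zero]
      exact (rem_near h hP hb ha lA hlA hA2).mono subset_rfl (kap_mono h (by linarith) le_rfl x)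
  by_cases hj : (j : ℕ∞) < 𝔤.jN
  · by_cases hj0 : j = 0
    · subst hj0
      exact (h₃ p K Γs 𝔤 x h ((le_max_right _ _).trans hT) hj lB lA hlB hlA eB eA hB0 hA0).mono subset_rfl
        (kap_mono h (by linarith) ha.le x)
    exact (h₂ p K Γs 𝔤 j x h ((le_max_right _ _).trans ((le_max_left _ _).trans hT)) hj0 hj lB lA hlB hlA eB eA hB0 hA0).mono
      subset_rfl (kap_mono h (by linarith) ha.le x)
  · exact (rem_mix_clu h hP (not_lt.1 hj) lB lA hlB hlA hA2 hB0).mono subset_rfl (kap_mono h (by linarith) ha.le x)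

end Crest.Agent.R165.D2
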