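import Crest.Agent.R165.D2.One

/-! # R165/D2/Side (owner helper6): the fields `mkn`, `obsC`, `oK`, `mv`, `coup` of `StepOK`, generators at scale `0` -/

set_option autoImplicit false
set_option linter.unusedVariables false
noncomputable section
open Classical

namespace Crest.Agent.R165.D2

/-- `jets_dl` with `z = x`, `D = Ds = 50 ℓ`; `mX_bd`, `kX_bd`, `gauge_mk`, `GBd.gmap` (gauge back), `ℓ' = L ℓ` -/
theorem mkn_bd : ∃ C : ℝ, 0 < C ∧ ∀ (p : Par) (K : ℕ) (Γs : ℝ) (𝔤 : Geom) (j : ℕ) (x : Site), Hyp p K Γs 𝔤 j → 𝔤.Bulk p j x →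
    𝔤.Bd p (j + 1) {x} (mX 𝔤.w x) (C * (p.L : ℝ) ^ 2 * 𝔤.Gam (j + 1) ^ 2 / p.l (j + 1)) ∧
    𝔤.Bd p (j + 1) {x} (kX 𝔤.w x) (C * (p.L : ℝ) ^ 2 * 𝔤.Gam (j + 1) ^ 2 / (p.l (j + 1) : ℝ) ^ 2) := by
  obtain ⟨C, hC, H⟩ := jets_dl
  refine ⟨C ^ 2, by positivity, fun p K Γs 𝔤 j x h hB => ?_⟩
  have h1 := h.lam_big
  have h2 : 100 * p.l j ≤ p.T * p.l j := Nat.mul_le_mul_right _ h.hT
  have h3 := l_eq h.ok j
  have h4 := lam_ge h.ok j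
  have hfar : 𝔤.Far (50 * p.l j) x := fun b hb => le_trans (by omega) (hB.1 b hb)
  obtain ⟨hJ, hI⟩ := H p K Γs 𝔤 j x x (50 * p.l j) (50 * p.l j) h
    ⟨by rw [supd_self]; omega, ⟨0, hB.2⟩, hfar, fun v hv => hfar v (Or.inr hv), le_rfl, le_rfl, by omega⟩
  have hP : Pl 𝔤 x 1 := pl_of_far h hB.2 hfar (by omega)
  have hΓ := h.gam_pos.2
  have hl : (1 : ℝ) ≤ p.l j := by exact_mod_cast (show 1 ≤ p.l j by omega)
  have hL : (1 : ℝ) ≤ p.L := by exact_mod_cast (show 1 ≤ p.L by have := h.ok.1; omega)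
  have back : ∀ u ∈ gaugeV (sgn 𝔤.S x) '' 𝔤.U p (j + 1) x, gaugeV (sgn 𝔤.S x) u ∈ 𝔤.U p (j + 1) x := by
    rintro _ ⟨v, hv, rfl⟩
    rwa [gaugeV_gaugeV (isSign_sgn _ _)]
  set d : ℝ := C * 𝔤.Gam (j + 1) / Real.sqrt ((50 * p.l j : ℕ) : ℝ) with hd
  have hd0 : 0 ≤ d := by positivity
  have hd2 : d ^ 2 = C ^ 2 * 𝔤.Gam (j + 1) ^ 2 / (50 * p.l j) := by
    rw [hd, div_pow, Real.sq_sqrt (by positivity), mul_pow]
    push_cast
    rfl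
  have hq : 0 ≤ C ^ 2 * 𝔤.Gam (j + 1) ^ 2 / p.l j := by positivity
  constructor
  · rw [bd_single, ← (gauge_mk hP).1]
    refine ((mX_bd hd0 hI).gmap _ back).mono le_rfl ?_
    rw [hd2, l_succ]
    push_cast
    have e1 : 2 * (C ^ 2 * 𝔤.Gam (j + 1) ^ 2 / (50 * p.l j)) = 1 / 25 * (C ^ 2 * 𝔤.Gam (j + 1) ^ 2 / p.l j) := by
      field_simp; ring
    have e2 : C ^ 2 * (p.L : ℝ) ^ 2 * 𝔤.Gam (j + 1) ^ 2 / (p.L * p.l j) = p.L * (C ^ 2 * 𝔤.Gam (j + 1) ^ 2 / p.l j) := by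
      field_simp
    rw [e1, e2]
    exact mul_le_mul_of_nonneg_right (by linarith) hq
  · rw [bd_single, ← (gauge_mk hP).2]
    refine ((kX_bd hJ hd0 (by positivity)).gmap _ back).mono le_rfl ?_
    rw [l_succ]
    push_cast
    have e1 : 8 * ((d / (50 * p.l j)) ^ 2 + 2 * d * (d / (50 * p.l j))) =
        8 * (1 / (50 * p.l j) + 2) / (50 * p.l j) * d ^ 2 := by
      field_simp
    have e2 : C ^ 2 * (p.L : ℝ) ^ 2 * 𝔤.Gam (j + 1) ^ 2 / (p.L * p.l j) ^ 2 =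
        50 / p.l j * (C ^ 2 * 𝔤.Gam (j + 1) ^ 2 / (50 * p.l j)) := by
      field_simp
    rw [e1, e2, hd2]
    refine mul_le_mul_of_nonneg_right ?_ (by positivity)
    have h5 : 1 / (50 * (p.l j : ℝ)) ≤ 1 := by
      rw [div_le_one (by positivity)]; linarith
    rw [div_le_div_iff₀ (by positivity) (by positivity)]
    nlinarith

section
variable {p : Par} {K : ℕ} {Γs : ℝ} {𝔤 : Geom} {j : ℕ}

theorem sb_obsC (h : Hyp p K Γs 𝔤 j) {Z : Finset Site} {x : Site} {F : Al} {c a : ℝ} (k : ℕ) (ha : 0 ≤ a)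
    (hZ : geoZ.Small (p.l j) Z) (hx : x ∈ Z) (hF : 𝔤.Bd p j Z F c)
    (h1 : Dn (gaugeV (sgn 𝔤.S (𝔤.y k).1) '' Aset p 𝔤 j x) (cSol 1) a)
    (h2 : Dn (gaugeV (sgn 𝔤.S (𝔤.y k).1) '' Aset p 𝔤 j x) (cSol Complex.I) a) :
    |𝔤.obsC k (F : Gr Ix)| ≤ 5 * a ^ 2 * c / 𝔤.h j := by
  have h0 := h.geo.wt.1
  have hb := bd_small hZ hx hF
  have h3 := (gbd_dTau k (Real.rpow_pos_of_pos h0 (-(1 / 2 : ℝ))).le (fun u hu => by
    rcases hu with hu | ⟨x', -, hu⟩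
    · exact Or.inl (aset_supp h.ok hu).sf
    · obtain ⟨k', b, t, -, -, ht, e⟩ := uz_spec h.ok hu
      exact Or.inr ⟨k', b, t, ht, e⟩) hb).gmap (gaugeV (sgn 𝔤.S (𝔤.y k).1)) fun u hu => Set.mem_image_of_mem _ hu
  have h4 := abs_ev2_le (f := extF (cSol 1)) (f' := extF (cSol Complex.I)) ha ha (by
    rintro _ ⟨u, hu | ⟨x', -, hu⟩, rfl⟩
    · exact ⟨h1 _ (Set.mem_image_of_mem _ hu), h2 _ (Set.mem_image_of_mem _ hu)⟩
    · obtain ⟨k', b, t, -, -, -, rfl⟩ := uz_spec h.ok hu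
      simp only [map_smul, gaugeV_dz, pr_smul, pr_dz, mul_zero, abs_zero, ha, and_self]) h3
  have h5 : (𝔤.h j ^ (-(1 / 2 : ℝ))) ^ 2 = (𝔤.h j)⁻¹ := by
    rw [← Real.rpow_natCast, ← Real.rpow_mul h0.le, ← Real.rpow_neg_one]
    norm_num
  have h6 : |-1 / tc| ≤ 5 / 2 := by
    have : 2 / 5 ≤ tc := by
      have := Real.le_sqrt_of_sq_le (show (7 / 5 : ℝ) ^ 2 ≤ 2 by norm_num)
      unfold tc
      linarith
    rw [neg_div, abs_neg, abs_of_pos (one_div_pos.2 tc_pos.1), div_le_iff₀ tc_pos.1]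
    linarith
  rw [h5] at h4
  refine (abs_mul _ _).trans_le ((mul_le_mul h6 h4 (abs_nonneg _) (by norm_num)).trans_eq ?_)
  ring

theorem sb_big (h : Hyp p K Γs 𝔤 j) : 800 ≤ p.l j ∧ 100000 * p.l j ≤ p.lam (j + 1) ∧ 100 * p.lam (j + 1) ≤ K * p.l (j + 1) := by
  have h1 := l_eq h.ok j
  have h2 := lam_ge h.ok j
  have h3 := h.lam_big
  have h4 : 100 * p.l j ≤ p.T * p.l j := Nat.mul_le_mul_right _ h.hT
  have h5 : 1 ≤ K := by have := h.ok.1; have := h.hK; omega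
  refine ⟨by omega, by omega, ?_⟩
  rw [← l_eq h.ok]
  exact Nat.le_mul_of_pos_left _ h5

theorem sb_dn0 (hΓ : 0 < 𝔤.Gam 0) {σ : Site → ℝ} (hσ : IsSign σ) (x : Site) {f : Fn} (hf : ∀ i, |f i| ≤ 1) :
    Dn (gaugeV σ '' Aset p 𝔤 0 x) f (1 / 𝔤.Gam 0) := by
  rintro _ ⟨u, ⟨x', -, -, hu⟩, rfl⟩
  rw [if_pos rfl] at hu
  rw [pr_gaugeV, b1_pr, le_div_iff₀' hΓ]
  refine (mul_le_mul_of_nonneg_left ((Finset.abs_sum_le_sum_abs _ _).trans (Finset.sum_le_sum fun i _ => ?_)) hΓ.le).trans hu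
  rw [abs_mul]
  refine mul_le_of_le_one_right (abs_nonneg _) ?_
  rcases i with i | q
  · exact (abs_gaugeF hσ f i).trans_le (hf i)
  · simp [extF]

/-- `bd_small`, `gbd_dTau` (`τ = h^(-1/2)`), `GBd.gmap`, `abs_ev2_le` (sources pair to `0`), `fb` at `z = (y k).1` (`obs_far`, `pl_of_far`);
`(1/tc) 2 · 400 λ ≤ 2000 λ = 20 ℓ` -/
theorem obsC_bd (h : Hyp p K Γs 𝔤 j) {Z : Finset Site} {x : Site} {F : Al} {c : ℝ} {k : ℕ} (hk : k < 𝔤.m) (hj : (j : ℕ∞) < 𝔤.jN)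
    (hZ : geoZ.Small (p.l j) Z) (hx : x ∈ Z) (hy : supd x (𝔤.y k).1 ≤ 3 * p.l j) (hF : 𝔤.Bd p j Z F c) :
    |𝔤.obsC k (F : Gr Ix)| ≤ 20 * c * p.l j / (𝔤.Gam j ^ 2 * 𝔤.h j) := by
  obtain ⟨b1, b2, b3⟩ := sb_big h
  have h1 := fb h (z := (𝔤.y k).1) (x := x) (by rwa [supd_comm])
    (pl_of_far h (j₀ := (𝔤.y k).2) (h.geo.obs k hk).1 (obs_far h hj hk) (by omega))
  have hΓ := h.gam_pos.1
  refine (sb_obsC h k (by positivity) hZ hx hF h1.c1 h1.cI).trans_eq ?_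
  rw [div_pow, mul_pow, Real.sq_sqrt (Nat.cast_nonneg _), l_eq h.ok j]
  push_cast
  ring

/-- `gbd_tau`, `in_dl` with `d = λ'` (`obs_far`, `DU.dB_eq_of_far`), `coe_eM`, `|w| = tc ≤ 1` -/
theorem oK_bd (h : Hyp p K Γs 𝔤 j) {x : Site} {k : ℕ} (hk : k < 𝔤.m) (hj : (j : ℕ∞) < 𝔤.jN) (hy : supd x (𝔤.y k).1 ≤ 4 * p.l j) :
    𝔤.Bd p (j + 1) {x} (tau k * 𝔤.oK k) (100 * 𝔤.h (j + 1) * 𝔤.Gam (j + 1) ^ 2 / p.l (j + 1)) := by
  obtain ⟨b1, b2, b3⟩ := sb_big h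
  have hΓ := h.gam_pos.2
  have hh := h.geo.wt.2.1
  have hl : (0 : ℝ) < p.lam (j + 1) := by exact_mod_cast (by omega : 0 < p.lam (j + 1))
  have key : ∀ i : HE, supd i.1 (𝔤.y k).1 ≤ 1 →
      GBd (𝔤.U p (j + 1) x) (ExteriorAlgebra.ι ℝ (dl i)) (𝔤.Gam (j + 1) / Real.sqrt (p.lam (j + 1))) := fun i hi => by
    have t1 := supd_triangle i.1 (𝔤.y k).1 x
    rw [supd_comm (𝔤.y k).1 x] at t1
    refine ((in_dl h.ok hΓ (mem_box.2 (by omega)) hl (DU.dB_eq_of_far fun v hv => ?_).ge).subset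
      Set.subset_union_left).gbd (by positivity)
    have t2 := obs_far h hj hk v (Or.inr hv)
    have t3 := supd_triangle (𝔤.y k).1 i.1 v
    rw [supd_comm (𝔤.y k).1 i.1] at t3
    omega
  have h1 := gbd_tau (p := p) (x := x) hk hh (by
    rw [if_neg (Nat.succ_ne_zero j), mem_box, supd_comm]
    omega)
  have h2 := h1.mul (((key (he0 (𝔤.y k)) (by simp [he0, supd_self])).mul
    (key (he1 (𝔤.y k)) (B3.supd_uv _ _).le)).smul (𝔤.w (𝔤.y k)))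
  rw [← coe_eM, (h.geo.obs k hk).1, ← sq, div_pow, Real.sq_sqrt hl.le] at h2
  refine bd_single.2 (h2.mono subset_rfl ?_)
  rw [l_eq h.ok (j + 1)]
  push_cast
  calc _ = tc * (𝔤.h (j + 1) * 𝔤.Gam (j + 1) ^ 2 / p.lam (j + 1)) := by ring
    _ ≤ 1 * (𝔤.h (j + 1) * 𝔤.Gam (j + 1) ^ 2 / p.lam (j + 1)) := mul_le_mul_of_nonneg_right tc_pos.2.le (by positivity)
    _ = _ := by field_simp

/-- `mvG_clu`, `mvG_none`, `mvG_one` (`obs_unique`), `obsC_bd`, `oK_bd`, `h' ≤ L h`, `Γ' ≤ 2 Γ`, `coe_mvG` -/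
theorem mv_bd (h : Hyp p K Γs 𝔤 j) {Z : Finset Site} {x : Site} {F : Al} {c : ℝ} (hZ : geoZ.Small (p.l j) Z) (hx : x ∈ Z)
    (hF : 𝔤.Bd p j Z F c) : 𝔤.Bd p (j + 1) {x} (toEv (𝔤.mvG p j x) F) (8000 * c) := by
  have hc := (bd_small hZ hx hF).nonneg
  rw [bd_single, coe_mvG]
  by_cases hj : 𝔤.jN ≤ j
  · rw [mvG_clu hj]
    exact (GBd.zero _).mono subset_rfl (by positivity)
  by_cases hk : ∀ k < 𝔤.m, ¬ supd x (𝔤.y k).1 ≤ 3 * p.l j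
  · rw [mvG_none hk]
    exact (GBd.zero _).mono subset_rfl (by positivity)
  push Not at hj hk
  obtain ⟨k, hk, hy⟩ := hk
  obtain ⟨b1, b2, b3⟩ := sb_big h
  have b4 := l_eq h.ok (j + 1)
  rw [mvG_one hj hk hy fun k' hk' hy' => obs_unique (x := x) h hj hk hk' (by omega) (by omega)]
  refine ((bd_single.1 (oK_bd h hk hj (by omega))).smul _).mono subset_rfl ?_
  obtain ⟨h0, h1, h2⟩ := h.geo.wt
  obtain ⟨g0, g1⟩ := h.gam_pos
  have hl : (0 : ℝ) < p.l (j + 1) := by exact_mod_cast (by omega : 0 < p.l (j + 1))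
  rw [if_pos hj] at h2
  split_ifs at h2 with hj0
  · subst hj0
    have h3 := sb_obsC h k (by positivity) hZ hx hF
      (sb_dn0 g0 (isSign_sgn _ _) x fun i => by simpa using abs_cSol_le 1 i)
      (sb_dn0 g0 (isSign_sgn _ _) x fun i => by simpa using abs_cSol_le Complex.I i)
    calc _ ≤ 5 * (1 / 𝔤.Gam 0) ^ 2 * c / 𝔤.h 0 *
          (100 * (𝔤.Gam 0 ^ 2 * p.l 1 / 𝔤.Gam 1 ^ 2 * 𝔤.h 0) * 𝔤.Gam (0 + 1) ^ 2 / p.l (0 + 1)) := by gcongr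
      _ = 500 * c := by
        simp only [zero_add] at hl g1 ⊢
        field_simp
        ring
      _ ≤ _ := by linarith
  · have h3 := obsC_bd h hk hj hZ hx hy hF
    have h4 := h.geo.gam.2.2.1
    have hL : (p.l (j + 1) : ℝ) = p.L * p.l j := by exact_mod_cast l_succ p j
    calc _ ≤ 20 * c * p.l j / (𝔤.Gam j ^ 2 * 𝔤.h j) *
          (100 * (p.L * 𝔤.h j) * (2 * 𝔤.Gam j) ^ 2 / p.l (j + 1)) := by gcongr
      _ = 8000 * c * (p.L * p.l j / p.l (j + 1)) := by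
        field_simp
        ring
      _ = _ := by rw [← hL, div_self hl.ne', mul_one]

/-- `sgn ∅ = 1`, `Pl` holds for every radius, `gaugeV 1 = id`; `fb` extends to `Aset ∪ Bset` (`pr_dz`); `abs_nuF_zF_le` -/
theorem coup_bd (h : Hyp p K Γs 𝔤 j) (hw : 𝔤.w = wPl) (hS : 𝔤.S = ∅) {Z : Finset Site} {x : Site} {F : Al} {c : ℝ}
    (hZ : geoZ.Small (p.l j) Z) (hx : x ∈ Z) (hF : 𝔤.Bd p j Z F c) :
    |nuF (F : Gr Ix)| ≤ 400 * c * p.l j / 𝔤.Gam j ^ 2 ∧ |zF x (F : Gr Ix)| ≤ 400 * c * (p.l j : ℝ) ^ 2 / 𝔤.Gam j ^ 2 := by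
  have hσ : sgn 𝔤.S x = fun _ => 1 := by
    funext y
    simp [sgn, hS]
  have hP : Pl 𝔤 x (6 * p.l j) := fun y _ α => by simp [gaugeW, hσ, hw, wPl]
  have hid : ∀ u : GV Ix, gaugeV (sgn 𝔤.S x) u = u := fun u => by
    ext i
    rw [b1_gauge_apply, hσ]
    rcases i with a | q <;> simp
  have hfb := fb h (z := x) (x := x) (by rw [supd_self]; omega) hP
  rw [Set.image_congr' hid, Set.image_id'] at hfb
  have hΓ := h.gam_pos.1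
  have ext : ∀ {f : Fn} {a : ℝ}, 0 ≤ a → Dn (Aset p 𝔤 j x) f a → Dn (Aset p 𝔤 j x ∪ Bset p 𝔤 j x) f a := by
    rintro f a ha hf u (hu | ⟨x', -, k, b, t, -, -, -, rfl⟩)
    · exact hf u hu
    · rw [pr_smul, pr_dz, mul_zero, abs_zero]; exact ha
  have ha : 0 ≤ 20 * Real.sqrt (p.lam j) / 𝔤.Gam j := by positivity
  have ha' : 0 ≤ 240 * p.l j * Real.sqrt (p.lam j) / 𝔤.Gam j := by positivity
  have hG := bd_small hZ hx hF
  have hc := hG.nonneg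
  obtain ⟨k1, k2⟩ := abs_nuF_zF_le (z := x) ⟨ext ha hfb.c1, ext ha hfb.cI, ext ha' hfb.l1, ext ha' hfb.lI⟩ ha ha' hG
  have h3 : (p.l j : ℝ) = 100 * p.lam j := by exact_mod_cast l_eq h.ok j
  have h4 : (8 : ℝ) ≤ p.lam j := by exact_mod_cast lam_ge h.ok j
  have hs : Real.sqrt (p.lam j) ^ 2 = p.lam j := Real.sq_sqrt (by positivity)
  have hq : 0 ≤ c / 𝔤.Gam j ^ 2 := by positivity
  refine ⟨k1.trans ?_, k2.trans ?_⟩
  · have e1 : (20 * Real.sqrt (p.lam j) / 𝔤.Gam j) ^ 2 * c = 400 * Real.sqrt (p.lam j) ^ 2 * (c / 𝔤.Gam j ^ 2) := by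
      field_simp; ring
    have e2 : 400 * c * p.l j / 𝔤.Gam j ^ 2 = 400 * p.l j * (c / 𝔤.Gam j ^ 2) := by ring
    rw [e1, e2, hs]
    exact mul_le_mul_of_nonneg_right (by linarith) hq
  · have e1 : (6 * (20 * Real.sqrt (p.lam j) / 𝔤.Gam j) * (240 * p.l j * Real.sqrt (p.lam j) / 𝔤.Gam j) +
        3 * (20 * Real.sqrt (p.lam j) / 𝔤.Gam j) ^ 2) * c =
        (28800 * p.l j + 1200) * Real.sqrt (p.lam j) ^ 2 * (c / 𝔤.Gam j ^ 2) := by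
      field_simp; ring
    have e2 : 400 * c * (p.l j : ℝ) ^ 2 / 𝔤.Gam j ^ 2 = 400 * (p.l j : ℝ) ^ 2 * (c / 𝔤.Gam j ^ 2) := by ring
    rw [e1, e2, hs, h3]
    exact mul_le_mul_of_nonneg_right (by nlinarith) hq
end

/-- `dl i = Γ₀ • (Γ₀⁻¹ • dl i)`, `Γ₀⁻¹ • dl i ∈ Ups 0 x` for `i.1 ∈ box x 3`; `coe_eM`; six monomials in `a0M` -/
theorem bd0_eM' (p : Par) (𝔤 : Geom) (hΓ : 0 < 𝔤.Gam 0) (e : Edge) (x : Site) (hx : supd x e.1 ≤ 2) :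
    𝔤.Bd p 0 {x} (eM Sum.inl e) (𝔤.Gam 0 ^ 2) ∧ 𝔤.Bd p 0 {x} (a0M Sum.inl x) (6 * 𝔤.Gam 0 ^ 2) := by
  have hin : ∀ i : HE, supd i.1 x ≤ 3 → GBd (𝔤.U p 0 x) (ExteriorAlgebra.ι ℝ (dl i : GV Ix)) (𝔤.Gam 0) := fun i hi => by
    refine In.gbd ⟨(𝔤.Gam 0)⁻¹ • dl i, Or.inl ⟨fun k hk => ?_, ?_⟩, by rw [smul_smul, mul_inv_cancel₀ hΓ.ne', one_smul]⟩ hΓ.le
    · have := Finsupp.support_single_subset (Finsupp.support_smul hk)
      exact ⟨i, Finset.mem_singleton.1 this, by rw [if_pos rfl]; exact mem_box.2 hi⟩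
    · rw [if_pos rfl, dl, Finsupp.smul_single, smul_eq_mul, mul_one, Finsupp.support_single _ (inv_ne_zero hΓ.ne'),
        Finset.sum_singleton, Finsupp.single_eq_same, abs_of_pos (inv_pos.2 hΓ), mul_inv_cancel₀ hΓ.ne']
  rw [supd_comm] at hx
  constructor
  · rw [bd_single, coe_eM, sq]
    refine (hin _ (hx.trans (by norm_num))).mul (hin _ ?_)
    have h1 : supd (e.1 + uv e.2) e.1 ≤ 1 := by
      obtain ⟨y, k⟩ := e
      fin_cases k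
      · exact (supd_dv y 0).le
      · exact (supd_dv y 1).le
    exact (supd_triangle (e.1 + uv e.2) e.1 x).trans (by omega)
  · rw [bd_single, a0M]
    simp only [AddSubmonoidClass.coe_finsetSum]
    refine (GBd.sum _ (c := fun α : Fin 4 => ∑ β : Fin 4, if α < β then 𝔤.Gam 0 * 𝔤.Gam 0 else 0) fun α _ =>
      GBd.sum _ fun β _ => ?_).mono le_rfl (le_of_eq ?_)
    · split_ifs
      · exact (hin (x, α) (by rw [supd_self]; omega)).mul (hin (x, β) (by rw [supd_self]; omega))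
      · exact GBd.zero _
    · simp [Fin.sum_univ_four]
      ring

end Crest.Agent.R165.D2
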