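import Crest.Agent.R165.D2.OPd
import Crest.Agent.R165.D2.Rem
import Crest.Agent.R165.D2.Side

/-! # R165 block D2: the analytic axioms of the RG step
(statements FROZEN, add lemmas freely in namespace `R165.D2`). route.md §D2. -/

set_option autoImplicit false
noncomputable section
open Classical

namespace Crest.Agent.R165

/-- all estimates on one step that the flow uses -/
structure StepOK (p : Par) (Λ θ : ℝ) (𝔤 : Geom) (j : ℕ) : Prop where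
  ana : ∃ κ, (𝔤.sp p j).Ana geoZ (𝔤.Lc p j) (𝔤.Bd p j) (𝔤.Bd p (j + 1)) Λ θ κ
  gram : Gram (⋃ x, 𝔤.U p j x) (𝔤.Cov p j) (1 / 60)
  /-- no loss in the cluster regime -/
  noloss : 𝔤.jN ≤ j → ∀ {Z F c}, 𝔤.Bd p j Z F c → 𝔤.Bd p (j + 1) Z ((𝔤.sp p j).mu F) c
  /-- norms of the kept local forms at the next scale -/
  mkn : ∀ x, 𝔤.Bulk p j x → 𝔤.Bd p (j + 1) {x} (mX 𝔤.w x) (Λ * 𝔤.Gam (j + 1) ^ 2 / p.l (j + 1)) ∧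
    𝔤.Bd p (j + 1) {x} (kX 𝔤.w x) (Λ * 𝔤.Gam (j + 1) ^ 2 / (p.l (j + 1) : ℝ) ^ 2)
  /-- the moved part -/
  mv : ∀ {Z x F c}, geoZ.Small (p.l j) Z → x ∈ Z → 𝔤.Bd p j Z F c →
    𝔤.Bd p (j + 1) {x} (toEv (𝔤.mvG p j x) F) (Λ * c)
  obsC : ∀ {Z x F c} k, k < 𝔤.m → (j : ℕ∞) < 𝔤.jN → geoZ.Small (p.l j) Z → x ∈ Z → supd x (𝔤.y k).1 ≤ 3 * p.l j →
    𝔤.Bd p j Z F c → |𝔤.obsC k (F : Gr Ix)| ≤ Λ * c * p.l j / (𝔤.Gam j ^ 2 * 𝔤.h j)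
  oK : ∀ k x, k < 𝔤.m → (j : ℕ∞) < 𝔤.jN → supd x (𝔤.y k).1 ≤ 4 * p.l j →
    𝔤.Bd p (j + 1) {x} (tau k * 𝔤.oK k) (Λ * 𝔤.h (j + 1) * 𝔤.Gam (j + 1) ^ 2 / p.l (j + 1))
  /-- the two couplings (plane gauge) -/
  coup : 𝔤.w = wPl → 𝔤.S = ∅ → ∀ {Z x F c}, geoZ.Small (p.l j) Z → x ∈ Z → 𝔤.Bd p j Z F c →
    |nuF (F : Gr Ix)| ≤ Λ * c * p.l j / 𝔤.Gam j ^ 2 ∧ |zF x (F : Gr Ix)| ≤ Λ * c * (p.l j : ℝ) ^ 2 / 𝔤.Gam j ^ 2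

/-- Gram constant and loss on the sources: `gram_step` with `κ = L`, or `gram_zero` with `κ = Γ₀ √ℓ₁ / Γ₁` -/
theorem D2.exists_gram (L : ℕ) (ε : ℝ) (hε : 0 < ε) : ∃ K₁ : ℕ, ∀ p : Par, p.L = L → ∃ Γs : ℝ, 1 ≤ Γs ∧
    ∀ (K : ℕ) (𝔤 : Geom) (j : ℕ), K₁ ≤ K → D2.Hyp p K Γs 𝔤 j → ∃ δ κ : ℝ, 0 ≤ δ ∧ δ ≤ 1 / 60 ∧
      Gram (⋃ x, 𝔤.U p j x) (𝔤.Cov p j) δ ∧ 2 ≤ κ ∧ κ ≤ 4 * Γs * (p.l 1 : ℝ) ^ 2 + p.L ∧
      𝔤.h (j + 1) ≤ κ ^ 2 * 𝔤.h j ∧ δ ^ 2 * (1 + 2 * κ) ^ 3 ≤ ε := by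
  obtain ⟨δ, hδ, hδ6, hδε⟩ : ∃ δ : ℝ, 0 < δ ∧ δ ≤ 1 / 60 ∧ δ ^ 2 * (1 + 2 * (L : ℝ)) ^ 3 ≤ ε := by
    have hq : 0 < ε / (1 + 2 * (L : ℝ)) ^ 3 := by positivity
    refine ⟨min (1 / 60) (ε / (1 + 2 * (L : ℝ)) ^ 3), lt_min (by norm_num) hq, min_le_left _ _, ?_⟩
    set d := min (1 / 60 : ℝ) (ε / (1 + 2 * (L : ℝ)) ^ 3) with hd
    have d0 : 0 < d := lt_min (by norm_num) hq
    have d1 : d ≤ 1 := (min_le_left _ _).trans (by norm_num)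
    have d2 : d * (1 + 2 * (L : ℝ)) ^ 3 ≤ ε := (le_div_iff₀ (by positivity)).1 (min_le_right _ _)
    have d3 := mul_le_mul d1 d2 (by positivity) one_pos.le
    rw [sq, mul_assoc]; linarith
  obtain ⟨K₁, Γ₁, hΓ₁, hstep⟩ := gram_step L δ hδ
  obtain ⟨K₂, C, hC, hzero⟩ := gram_zero
  refine ⟨max K₁ K₂, fun p eL => ?_⟩
  have n1 : 0 ≤ 108 * C * (p.l 1 : ℝ) ^ 4 / ε := by positivity
  have n2 : 0 ≤ 3600 * C * (p.l 1 : ℝ) := by positivity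
  obtain ⟨Γs, hΓs⟩ : ∃ Γs : ℝ, Γs = Γ₁ + 108 * C * (p.l 1 : ℝ) ^ 4 / ε + 3600 * C * p.l 1 := ⟨_, rfl⟩
  refine ⟨Γs, by linarith, fun K 𝔤 j hK h => ?_⟩
  have hl0 := h.hl0
  by_cases hj : j = 0 ∧ (j : ℕ∞) < 𝔤.jN
  · obtain ⟨rfl, hj⟩ := hj
    obtain ⟨g0, g1⟩ := h.gam_pos
    obtain ⟨a0, a1, -, a2⟩ := h.geo.gam
    obtain ⟨-, a3⟩ := a2 rfl
    have hΓ := h.hΓ
    have hl : (4 : ℝ) ≤ p.l 1 := D2.ob_l h 1
    rw [zero_add] at g1 a1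
    have hsq : (Real.sqrt (C * p.l 1) / 𝔤.Gam 0) ^ 2 = C * p.l 1 / 𝔤.Gam 0 ^ 2 := by
      rw [div_pow, Real.sq_sqrt (by positivity)]
    refine ⟨Real.sqrt (C * p.l 1) / 𝔤.Gam 0, D2.kL p 𝔤 0, by positivity, ?_,
      hzero p K Γs 𝔤 h.ok (by omega) (by omega) hΓ ?_ h.geo, h.two_le_kL, h.kL_le, h.h_le_kL, ?_⟩
    · refine abs_le_of_sq_le_sq' ?_ (by norm_num) |>.2
      rw [hsq, div_le_iff₀ (by positivity)]
      nlinarith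
    · by_cases h1 : 𝔤.jN = 1
      · exact Or.inr (h.geo.one h1)
      · exact Or.inl (lt_of_le_of_ne (Order.one_le_iff_pos.2 (by simpa using hj)) (Ne.symm h1))
    · have k2 := h.two_le_kL
      have e : D2.kL p 𝔤 0 = 𝔤.Gam 0 * Real.sqrt (p.l 1) / 𝔤.Gam 1 := if_pos rfl
      have s1 : Real.sqrt (p.l 1) ≤ p.l 1 := Real.sqrt_le_iff.2 ⟨by linarith, by nlinarith⟩
      have s2 : Real.sqrt (p.l 1) ^ 2 = p.l 1 := Real.sq_sqrt (by linarith)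
      have s0 := Real.sqrt_nonneg (p.l 1 : ℝ)
      calc _ ≤ C * p.l 1 / 𝔤.Gam 0 ^ 2 * (3 * D2.kL p 𝔤 0) ^ 3 := by
            rw [hsq]
            exact mul_le_mul_of_nonneg_left (pow_le_pow_left₀ (by linarith) (by linarith) 3) (by positivity)
        _ = 27 * C * p.l 1 * (Real.sqrt (p.l 1) ^ 2 * Real.sqrt (p.l 1)) * 𝔤.Gam 0 / 𝔤.Gam 1 ^ 3 := by
            rw [e]; field_simp; ring
        _ ≤ 27 * C * p.l 1 * (p.l 1 * p.l 1) * (4 * Γs * p.l 1 * 𝔤.Gam 1) / (Γs * Γs * 𝔤.Gam 1) := by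
            rw [s2, pow_succ (𝔤.Gam 1) 2, sq (𝔤.Gam 1)]
            gcongr
        _ = 108 * C * (p.l 1 : ℝ) ^ 4 / Γs := by field_simp; ring
        _ ≤ ε := by
            rw [div_le_iff₀ (by linarith), mul_comm ε, ← div_le_iff₀ hε]
            linarith
  · have hL := D2.ob_L h
    obtain ⟨w0, -, w⟩ := h.geo.wt
    refine ⟨δ, p.L, hδ.le, hδ6, hstep p K Γs 𝔤 j h.ok eL (by omega) (by linarith) (by omega) h.geo, hL,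
      le_add_of_nonneg_left (by have := h.hΓ; positivity), w.trans (mul_le_mul_of_nonneg_right ?_ w0.le), eL ▸ hδε⟩
    split_ifs with h1 h2
    · exact absurd ⟨h2, h1⟩ hj
    · nlinarith
    · nlinarith

/-- **main estimate**: order of the constants `θ → T → L → K → l0 → (Γs, Λ)` -/
theorem step_ok (θ : ℝ) (hθ : 0 < θ) (K₀ : ℕ → ℕ) : ∃ T L K : ℕ, 20 ≤ T ∧ 20 * T ≤ L ∧ K₀ L ≤ K ∧
    ∀ p : Par, p.OK → p.T = T → p.L = L → K ≤ p.l0 → ∃ Γs Λ : ℝ, 1 ≤ Γs ∧ 1 ≤ Λ ∧ ∀ (𝔤 : Geom) (j : ℕ),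
      GeoOK p K Γs 𝔤 j → StepOK p Λ θ 𝔤 j := by
  obtain ⟨C, T₀, hC, hrem⟩ := D2.rem_bound
  obtain ⟨C', hC', hsum⟩ := D2.kap_sum
  obtain ⟨Cm, hCm, hmk⟩ := D2.mkn_bd
  obtain ⟨T, hT⟩ : ∃ T : ℕ, 100 ≤ T ∧ T₀ ≤ T ∧ 2 * C' * C / θ ≤ T := by
    obtain ⟨n, hn⟩ := exists_nat_ge (2 * C' * C / θ)
    refine ⟨max (max 100 T₀) n, by omega, by omega, hn.trans (by exact_mod_cast le_max_right _ _)⟩
  obtain ⟨L₀, hpkg⟩ := D2.exists_pkg T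
  obtain ⟨L, hL₀, hL⟩ : ∃ L : ℕ, L₀ ≤ L ∧ 1000 * T ^ 3 ≤ L := ⟨max L₀ (1000 * T ^ 3), le_max_left _ _, le_max_right _ _⟩
  obtain ⟨K₂, hpkg⟩ := hpkg L hL₀
  have hT3 : T ≤ T ^ 3 := Nat.le_self_pow (by norm_num) T
  have hLpos : (0 : ℝ) < L := by exact_mod_cast (by omega : 0 < L)
  obtain ⟨ε, hε, hεθ⟩ : ∃ ε : ℝ, 0 < ε ∧ C' * (33 * ε * (L : ℝ) ^ 2) = θ / 2 :=
    ⟨θ / 2 / (C' * (33 * (L : ℝ) ^ 2)), by positivity, by field_simp⟩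
  obtain ⟨K₁, hgram⟩ := D2.exists_gram L ε hε
  refine ⟨T, L, max (max K₂ K₁) (max (100 * L) (K₀ L)), by omega, by omega, by omega, fun p hp eT eL hl0 => ?_⟩
  obtain ⟨Γs, hΓs, hgram⟩ := hgram p eL
  set K := max (max K₂ K₁) (max (100 * L) (K₀ L)) with hK
  obtain ⟨Λ₀, hΛ₀⟩ : ∃ Λ₀ : ℝ, Λ₀ = (1 + 2 * (4 * Γs * (p.l 1 : ℝ) ^ 2 + p.L)) ^ 3 := ⟨_, rfl⟩
  have hΛ₀1 : 1 ≤ Λ₀ := hΛ₀ ▸ one_le_pow₀ (le_add_of_nonneg_right (by positivity))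
  have n2 : 0 ≤ Cm * (p.L : ℝ) ^ 2 := by positivity
  obtain ⟨Λ, hΛ⟩ : ∃ Λ : ℝ, Λ = Λ₀ + θ + Cm * (p.L : ℝ) ^ 2 + 8000 := ⟨_, rfl⟩
  refine ⟨Γs, Λ, hΓs, by linarith, fun 𝔤 j hg => ?_⟩
  have h : D2.Hyp p K Γs 𝔤 j := ⟨hp, eT ▸ hT.1, by rw [eT, eL]; exact hL, by rw [eL]; omega, hl0, hΓs, hg⟩
  have hP : D2.Pkg p K 𝔤 j := hpkg p K Γs 𝔤 j h eT eL (by omega)
  obtain ⟨δ, κ, hδ, hδ6, hG, hκ, hκ', hh, hδκ⟩ := hgram K 𝔤 j (by omega) h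
  have hδ4 : δ ≤ 1 / 4 := by linarith
  have hG4 := D2.gram_mono hG hδ hδ4
  have hκΛ : (1 + 2 * κ) ^ 3 ≤ Λ₀ := hΛ₀ ▸ pow_le_pow_left₀ (by linarith) (by linarith) 3
  have hB' : BdAx (𝔤.Bd p (j + 1)) augE := bdAx_BdU _
  have hB : BdAx (𝔤.Bd p j) augE := bdAx_BdU _
  have hl : (0 : ℝ) < p.l j := by
    have := D2.l_eq hp j; have := D2.lam_ge hp j
    exact_mod_cast (by omega : 0 < p.l j)
  have hl' : (0 : ℝ) < p.l (j + 1) := by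
    have := D2.l_eq hp (j + 1); have := D2.lam_ge hp (j + 1)
    exact_mod_cast (by omega : 0 < p.l (j + 1))
  obtain ⟨g0, g1⟩ := h.gam_pos
  obtain ⟨w0, w1, -⟩ := hg.wt
  have hks := hsum p K Γs 𝔤 j C (33 * ε) h hC.le (by positivity)
  have hθ' : C' * (33 * ε * (p.L : ℝ) ^ 2 + C / p.T) ≤ θ := by
    rw [eT, eL, mul_add]
    have hT0 : (0 : ℝ) < T := by exact_mod_cast (by omega : 0 < T)
    have : C' * (C / T) ≤ θ / 2 := by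
      have := (div_le_iff₀ hθ).1 hT.2.2
      rw [← mul_div_assoc, div_le_iff₀ hT0]; linarith
    linarith
  have hκ0 : ∀ x, 0 ≤ D2.kap p K 𝔤 j C (33 * ε) x := D2.kap_nonneg h hC.le (by positivity)
  have hκθ : ∀ x, D2.kap p K 𝔤 j C (33 * ε) x ≤ θ := fun x => by
    obtain ⟨N, kb, h1, h2, h3⟩ := hks x
    obtain ⟨c, hc, hd⟩ := h1 x ((geoZ.mem_ball _ _ _).2 (by rw [geoZ.d_self]; omega))
    refine (h2 c hc x ((geoZ.mem_ball _ _ _).2 (by omega))).trans (le_trans ?_ (h3.trans hθ'))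
    exact Finset.single_le_sum (fun c hc => (hκ0 c).trans
      (h2 c hc c ((geoZ.mem_ball _ _ _).2 (by rw [geoZ.d_self]; omega)))) hc
  have key : ∀ {Z x F c}, geoZ.Small (p.l j) Z → x ∈ Z → F ∈ 𝔤.Lc p j Z → 𝔤.Bd p j Z F c →
      𝔤.Bd p (j + 1) {x} ((𝔤.sp p j).mu F - (𝔤.sp p j).loc x ((𝔤.sp p j).mu F))
        (D2.kap p K 𝔤 j C (33 * ε) x * c) := fun {Z x F c} hZ hx hF hc => by
    have h1 := (D2.mu_bd_small h hP hδ hδ4 hG hZ hx hc hκ hh).2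
    have h2 := hrem p K Γs 𝔤 j ε h (eT ▸ hT.2.1) hP hε Z x F c hZ hx hF.2 hc
    have h3 := hB'.add (hB'.add h1 (hB'.neg (D2.cst_bd h1))) h2
    have c0 := hB.nonneg hc
    have e : (𝔤.sp p j).mu F - (𝔤.sp p j).loc x ((𝔤.sp p j).mu F) = muE (𝔤.Cov p j) F - F + -cstA (muE (𝔤.Cov p j) F - F) +
        (F - cstA F - toEv (𝔤.loc2G p j x) F - toEv (𝔤.mvG p j x) F) := by
      rw [sp_loc_mu, map_sub]
      change muE (𝔤.Cov p j) F - (cstA (muE (𝔤.Cov p j) F) + _ + _) = _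
      abel
    rw [e]
    refine hB'.mono h3 subset_rfl ?_
    have e2 : D2.kap p K 𝔤 j C (33 * ε) x = 32 * ε + D2.kap p K 𝔤 j C ε x := by unfold D2.kap; ring
    rw [e2]
    nlinarith [mul_le_mul_of_nonneg_right hδκ c0]
  have up : ∀ {a b c : ℝ}, a ≤ Λ → 0 ≤ b → 0 ≤ c → a * b / c ≤ Λ * b / c := fun h1 h2 h3 =>
    div_le_div_of_nonneg_right (mul_le_mul_of_nonneg_right h1 h2) h3
  refine ⟨⟨_, ⟨fun {Z F c} _ hc => hB'.mono (D2.mu_bd h hP hG4 hc hκ hh).1 subset_rfl ?_,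
    fun {Z x F c} hZ hx hF hc => hB'.mono (key hZ hx hF hc) (Finset.singleton_subset_iff.2 hx) le_rfl,
    fun {Z x F c} hZ hx hF hc => ?_, hκ0, fun y => ?_⟩⟩, D2.gram_mono hG hδ hδ6,
    fun hj {Z F c} hc => (D2.mu_bd h hP hG4 hc hκ hh).2 hj, fun x hx => ?_,
    fun {Z x F c} hZ hx hc => hB'.mono (D2.mv_bd h hZ hx hc) subset_rfl
      (mul_le_mul_of_nonneg_right (by linarith) (hB.nonneg hc)),
    fun {Z x F c} k hk hj hZ hx hy hc => (D2.obsC_bd h hk hj hZ hx hy hc).trans ?_,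
    fun k x hk hj hy => hB'.mono (D2.oK_bd h hk hj hy) subset_rfl ?_, fun hw hS {Z x F c} hZ hx hc => ?_⟩
  · exact mul_le_mul_of_nonneg_right (pow_le_pow_left₀ (by positivity) (by linarith) _) (hB.nonneg hc)
  · have h1 := hB'.add (D2.mu_bd_small h hP hδ hδ4 hG hZ hx hc hκ hh).1 (hB'.neg (key hZ hx hF hc))
    change 𝔤.Bd p (j + 1) {x} ((𝔤.sp p j).mu F + _) _ at h1
    rw [neg_sub, add_sub_cancel] at h1
    refine hB'.mono h1 subset_rfl ?_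
    rw [← add_mul]
    exact mul_le_mul_of_nonneg_right (by linarith [hκθ x]) (hB.nonneg hc)
  · obtain ⟨N, kb, h1, h2, h3⟩ := hks y
    exact ⟨N, kb, h1, h2, h3.trans hθ'⟩
  · obtain ⟨h1, h2⟩ := hmk p K Γs 𝔤 j x h hx
    exact ⟨hB'.mono h1 subset_rfl (up (by linarith) (by positivity) hl'.le),
      hB'.mono h2 subset_rfl (up (by linarith) (by positivity) (by positivity))⟩
  · have c0 := hB.nonneg hc
    rw [mul_assoc, mul_assoc]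
    exact up (by linarith) (by positivity) (by positivity)
  · rw [mul_assoc, mul_assoc]
    exact up (by linarith) (by positivity) hl'.le
  · have c0 := hB.nonneg hc
    obtain ⟨h1, h2⟩ := D2.coup_bd h hw hS hZ hx hc
    rw [mul_assoc] at h1 h2 ⊢
    rw [mul_assoc]
    exact ⟨h1.trans (up (by linarith) (by positivity) (by positivity)),
      h2.trans (up (by linarith) (by positivity) (by positivity))⟩

/-- generators at scale `0` -/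
theorem bd0_eM (p : Par) (𝔤 : Geom) (hΓ : 0 < 𝔤.Gam 0) (e : Edge) (x : Site) (hx : supd x e.1 ≤ 2) :
    𝔤.Bd p 0 {x} (eM Sum.inl e) (𝔤.Gam 0 ^ 2) ∧ 𝔤.Bd p 0 {x} (a0M Sum.inl x) (6 * 𝔤.Gam 0 ^ 2) :=
  D2.bd0_eM' p 𝔤 hΓ e x hx

theorem bd_tau (p : Par) (𝔤 : Geom) (j k : ℕ) (hk : k < 𝔤.m) (hh : 0 < 𝔤.h j) :
    𝔤.Bd p j {(𝔤.y k).1} (tau k) (𝔤.h j) :=
  D2.bd_single.2 (D2.gbd_tau hk hh (self_mem_box _ _))

end Crest.Agent.R165
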