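import Crest.Agent.R165.D2.Mode

/-! # R165/D2/OPd (owner helper6): the one-particle data of `op_h1`, `op_sub` -/

set_option autoImplicit false
set_option linter.unusedVariables false
noncomputable section
open Classical

namespace Crest.Agent.R165.D2

variable {p : Par} {K : ℕ} {Γs : ℝ} {𝔤 : Geom} {j : ℕ}

theorem gram_mono {I : Type} {U : Set (GV I)} {g : I → I → ℝ} {δ δ' : ℝ} (h : Gram U g δ) (hδ : 0 ≤ δ) (hδ' : δ ≤ δ') : Gram U g δ' := by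
  intro s hs
  obtain ⟨κ, i, X, Y, h1, h2⟩ := h s hs
  have e := pow_le_pow_left₀ hδ hδ' 2
  exact ⟨κ, i, X, Y, h1, fun u hu => ⟨(h2 u hu).1.trans e, (h2 u hu).2.trans e⟩⟩

theorem bil_src (g : HE → HE → ℝ) {u : GV Ix} (hu : Src u) (v : GV Ix) : bil (extG g) u v = 0 := by
  obtain ⟨k, b, t, rfl⟩ := hu
  rw [map_smul, LinearMap.smul_apply]
  suffices h : bil (extG g) (dz k b) v = 0 by rw [h, smul_zero]
  induction v using Finsupp.induction_linear with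
  | zero => exact map_zero _
  | add v w hv hw => rw [map_add, hv, hw, add_zero]
  | single i a =>
    rw [← mul_one a, ← smul_eq_mul, ← Finsupp.smul_single, map_smul, dz, bil_single]
    cases i <;> simp [extG]

/-- a cover with `cov` centres exists (`Nat.sInf_mem`, `C = Z` is a cover) -/
theorem exists_cover (l : ℕ) (Z : Finset Site) : ∃ C : Finset Site, C.card = geoZ.cov l Z ∧ ∀ z ∈ Z, ∃ c ∈ C, supd c z ≤ l := by
  obtain ⟨C, h1, h2⟩ := Nat.sInf_mem (s := {n | ∃ C : Finset Site, C.card = n ∧ ∀ z ∈ Z, ∃ c ∈ C, geoZ.d c z ≤ l})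
    ⟨Z.card, Z, rfl, fun z hz => ⟨z, hz, by rw [geoZ.d_self]; exact Nat.zero_le _⟩⟩
  exact ⟨C, h1, fun z hz => by simpa only [geoZ_d] using h2 z hz⟩

/-- labels met by `Z` in the separated regime: for each centre `c` of `exists_cover` at most one spin (`fp_sep`) and one observable (`obs_unique`) are within `2 ℓ'` -/
theorem labels (h : Hyp p K Γs 𝔤 j) (hj : (j : ℕ∞) < 𝔤.jN) (Z : Finset Site) : ∃ s : Finset (Site ⊕ ℕ × Bool),
    s.card ≤ 3 * geoZ.cov (p.l (j + 1)) Z ∧ (∀ x ∈ Z, ∀ v ∈ 𝔤.S, supd x v ≤ p.l j → Sum.inl v ∈ s) ∧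
      ∀ x ∈ Z, ∀ k < 𝔤.m, supd (𝔤.y k).1 x ≤ p.l j → ∀ b, Sum.inr (k, b) ∈ s := by
  obtain ⟨C, hC, hZ⟩ := exists_cover (p.l (j + 1)) Z
  have hL : 400 ≤ p.L := h.ok.1
  have hK := h.hK
  have h1 := l_eq h.ok (j + 1)
  have h2 := lam_ge h.ok (j + 1)
  have h3 : p.l j ≤ p.l (j + 1) := by rw [l_succ]; exact Nat.le_mul_of_pos_left _ (by omega)
  have h4 : 5 * p.l (j + 1) ≤ K * p.l (j + 1) := Nat.mul_le_mul_right _ (by omega)
  refine ⟨C.biUnion fun c => (𝔤.S.filter fun v => supd c v ≤ 2 * p.l (j + 1)).image Sum.inl ∪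
    (((Finset.range 𝔤.m).filter fun k => supd c (𝔤.y k).1 ≤ 2 * p.l (j + 1)) ×ˢ (Finset.univ : Finset Bool)).image Sum.inr,
    ?_, fun x hx v hv hxv => ?_, fun x hx k hk hxk b => ?_⟩
  · rw [← hC, mul_comm 3]
    refine Finset.card_biUnion_le_card_mul _ _ _ fun c _ => ?_
    refine (Finset.card_union_le _ _).trans ?_
    have e1 : (𝔤.S.filter fun v => supd c v ≤ 2 * p.l (j + 1)).card ≤ 1 := by
      refine Finset.card_le_one.2 fun a ha b hb => ?_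
      obtain ⟨ha1, ha2⟩ := Finset.mem_filter.1 ha
      obtain ⟨hb1, hb2⟩ := Finset.mem_filter.1 hb
      by_contra hab
      have h5 := fp_sep h hj (a := a) (b := b) (Or.inl ha1) (Or.inl hb1) hab
      have h6 := supd_triangle a c b
      rw [supd_comm a c] at h6
      omega
    have e2 : ((Finset.range 𝔤.m).filter fun k => supd c (𝔤.y k).1 ≤ 2 * p.l (j + 1)).card ≤ 1 := by
      refine Finset.card_le_one.2 fun a ha b hb => ?_
      obtain ⟨ha1, ha2⟩ := Finset.mem_filter.1 ha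
      obtain ⟨hb1, hb2⟩ := Finset.mem_filter.1 hb
      exact obs_unique h hj (Finset.mem_range.1 hb1) (Finset.mem_range.1 ha1) hb2 ha2
    have e3 := Finset.card_image_le (s := 𝔤.S.filter fun v => supd c v ≤ 2 * p.l (j + 1))
      (f := (Sum.inl : Site → Site ⊕ ℕ × Bool))
    have e4 := Finset.card_image_le (f := (Sum.inr : ℕ × Bool → Site ⊕ ℕ × Bool))
      (s := ((Finset.range 𝔤.m).filter fun k => supd c (𝔤.y k).1 ≤ 2 * p.l (j + 1)) ×ˢ (Finset.univ : Finset Bool))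
    rw [Finset.card_product, Finset.card_univ, Fintype.card_bool] at e4
    omega
  · obtain ⟨c, hc, hcx⟩ := hZ x hx
    have h6 := supd_triangle c x v
    exact Finset.mem_biUnion.2 ⟨c, hc, Finset.mem_union_left _
      (Finset.mem_image_of_mem _ (Finset.mem_filter.2 ⟨hv, by omega⟩))⟩
  · obtain ⟨c, hc, hcx⟩ := hZ x hx
    have h6 := supd_triangle c x (𝔤.y k).1
    rw [supd_comm x] at h6
    exact Finset.mem_biUnion.2 ⟨c, hc, Finset.mem_union_right _ (Finset.mem_image_of_mem _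
      (Finset.mem_product.2 ⟨Finset.mem_filter.2 ⟨Finset.mem_range.2 hk, by dsimp only; omega⟩, Finset.mem_univ _⟩))⟩

/-- **cluster regime: no labels.** `u ∈ Ups`: `gen_in` far from the spins; near a spin `Pkg.clu` (`g / T² ≤ 1/2`) or `triv_in` + `Hyp.gr_bad`;
`u ∈ Uz`: `in_uz`, `bil_src` -/
theorem op_clu (h : Hyp p K Γs 𝔤 j) (hP : Pkg p K 𝔤 j) (hj : 𝔤.jN ≤ j) (hG : Gram (⋃ x, 𝔤.U p j x) (𝔤.Cov p j) (1 / 4))
    (b : Site → Site) (hb : ∀ x, supd (b x) x ≤ 2 * p.l j) (κL : ℝ) :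
    OP geoZ (p.l (j + 1)) (𝔤.U p j) (fun x => 𝔤.U p (j + 1) (b x)) (𝔤.Cov p j) κL 0 Empty (fun _ _ => none) Empty.elim := by
  refine ⟨fun x => (bal_U (b x)).2, fun x => (bal_U (b x)).1, hG, fun x u hu _ => ?_, fun x u _ a => a.elim,
    fun Z => ⟨∅, by simp, fun x _ u _ a => a.elim⟩⟩
  rcases hu with hu | hu
  · left
    have hg := h.gr_pos
    suffices H : In (1 / 2) (𝔤.Ups p (j + 1) (b x)) u from H.subset Set.subset_union_left
    by_cases hS : ∀ v ∈ 𝔤.S, 20 * p.lam j ≤ supd x v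
    · exact gen_in h (hb x) hS u hu
    · push Not at hS
      obtain ⟨v, hv, hxv⟩ := hS
      by_cases hgd : Good p K 𝔤 j
      · have h1 := l_eq h.ok j
        have h2 : 2 * p.l j ≤ (p.T + 2) * p.l j := Nat.mul_le_mul_right _ (by omega)
        have hT : (100 : ℝ) ≤ p.T := by exact_mod_cast h.hT
        refine (hP.clu hj hgd (b x) x v (Or.inl hv) (by omega) (hb x) u hu).mono (bal_ups _) (by have := hg.1; positivity) ?_
        rw [div_le_iff₀ (by positivity)]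
        nlinarith [hg.2]
      · have h1 := (h.gr_bad hgd).2
        have hK : (2 : ℝ) ≤ K := by
          have := h.hK
          have := h.ok.1
          exact_mod_cast (show 2 ≤ K by omega)
        refine (triv_in h (hb x) u hu).mono (bal_ups _) hg.1.le ?_
        have h2 : (0 : ℝ) ≤ 𝔤.S.card + 𝔤.m := by positivity
        have h3 : (2 : ℝ) ≤ K * (𝔤.S.card + 𝔤.m + 1) := by nlinarith
        nlinarith [mul_le_mul_of_nonneg_right h3 hg.1.le]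
  · right
    refine ⟨Or.inr ((in_uz h (hb x) hu).2 hj), fun v => ?_⟩
    obtain ⟨k, c, t, -, -, -, rfl⟩ := hu
    exact bil_src _ ⟨k, c, t, rfl⟩ v

/-- the loss on the sources: `h' ≤ kL² h` (for `j = 0`, `GeoOK.wt` only gives `h 1 ≤ Γ₀² ℓ₁ / Γ₁² h 0`); use `κ = kL p 𝔤 j` in `op_sep`, `mu_bd`,
`mu_bd_small` with `Hyp.two_le_kL`, `Hyp.h_le_kL`, `Hyp.kL_le` -/
def kL (p : Par) (𝔤 : Geom) (j : ℕ) : ℝ := if j = 0 then 𝔤.Gam 0 * Real.sqrt (p.l 1) / 𝔤.Gam 1 else p.L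

theorem ob_L (h : Hyp p K Γs 𝔤 j) : (2 : ℝ) ≤ p.L := by
  have h1 := h.hL
  have h2 : 1 ≤ p.T ^ 3 := Nat.one_le_pow _ _ (by have := h.hT; omega)
  exact_mod_cast (show 2 ≤ p.L by omega)

theorem ob_l (h : Hyp p K Γs 𝔤 j) (i : ℕ) : (4 : ℝ) ≤ p.l i := by
  have h1 := l_eq h.ok i
  have h2 := lam_ge h.ok i
  exact_mod_cast (show 4 ≤ p.l i by omega)

theorem Hyp.two_le_kL (h : Hyp p K Γs 𝔤 j) : 2 ≤ kL p 𝔤 j := by
  unfold kL
  split_ifs with hj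
  · subst hj
    have h1 := (h.geo.gam.2.2.2 rfl).1
    have h2 : 0 < 𝔤.Gam 1 := h.gam_pos.2
    have h3 := ob_l h 1
    have h4 : 2 ≤ Real.sqrt (p.l 1) := Real.le_sqrt_of_sq_le (by linarith)
    have h5 : 𝔤.Gam 1 ≤ 𝔤.Gam 0 := by
      have : 1 ≤ Γs * p.l 1 := one_le_mul_of_one_le_of_one_le h.hΓ (by linarith)
      nlinarith
    rw [le_div_iff₀ h2]
    nlinarith
  · exact ob_L h

theorem Hyp.h_le_kL (h : Hyp p K Γs 𝔤 j) : 𝔤.h (j + 1) ≤ kL p 𝔤 j ^ 2 * 𝔤.h j := by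
  obtain ⟨h0, h1, h2⟩ := h.geo.wt
  refine h2.trans (mul_le_mul_of_nonneg_right ?_ h0.le)
  have h3 := h.two_le_kL
  by_cases hj : (j : ℕ∞) < 𝔤.jN
  · rw [if_pos hj]
    unfold kL
    split_ifs with h4
    · rw [div_pow, mul_pow, Real.sq_sqrt (Nat.cast_nonneg _)]
    · have := ob_L h
      nlinarith
  · rw [if_neg hj]
    nlinarith

theorem Hyp.kL_le (h : Hyp p K Γs 𝔤 j) : kL p 𝔤 j ≤ 4 * Γs * (p.l 1 : ℝ) ^ 2 + p.L := by
  have h3 := ob_l h 1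
  have h6 := h.hΓ
  unfold kL
  split_ifs with hj
  · subst hj
    have h1 := (h.geo.gam.2.2.2 rfl).2
    have h2 : 0 < 𝔤.Gam 1 := h.gam_pos.2
    have h4 : Real.sqrt (p.l 1) ≤ p.l 1 := Real.sqrt_le_iff.2 ⟨by linarith, by nlinarith⟩
    have h5 := ob_L h
    rw [div_le_iff₀ h2]
    calc 𝔤.Gam 0 * Real.sqrt (p.l 1) ≤ (4 * Γs * p.l 1 * 𝔤.Gam 1) * p.l 1 :=
          mul_le_mul h1 h4 (Real.sqrt_nonneg _) (by positivity)
      _ = 4 * Γs * (p.l 1 : ℝ) ^ 2 * 𝔤.Gam 1 := by ring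
      _ ≤ _ := by gcongr; linarith
  · have : 0 ≤ 4 * Γs * (p.l 1 : ℝ) ^ 2 := by positivity
    linarith

/-- **separated regime.** `lab x u = some (inl v)` if `u ∈ Ups j x` and `v ∈ S`, `supd x v < 20 λ`; `none` if `u ∈ Ups j x` and there is no such `v` (`gen_in`);
otherwise `some (inr (k, b))` with `k, b` from `uz_spec`. `ζ (inl v) = dl q_v` (`Pkg.sp`, `t = pr u (extF φ_v)`, `g ≤ 2 ≤ κ`, `g / T³ ≤ 1/2`),
`ζ (inr (k, b)) = dz k b` (`in_uz_of`, `h' ≤ κ² h`); `labels` -/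
theorem op_sep (h : Hyp p K Γs 𝔤 j) (hP : Pkg p K 𝔤 j) (hj : (j : ℕ∞) < 𝔤.jN) (hG : Gram (⋃ x, 𝔤.U p j x) (𝔤.Cov p j) (1 / 4))
    (b : Site → Site) (hb : ∀ x, supd (b x) x ≤ 2 * p.l j) {κ : ℝ} (hκ : 2 ≤ κ) (hh : 𝔤.h (j + 1) ≤ κ ^ 2 * 𝔤.h j) :
    ∃ (lab : Site → GV Ix → Option (Site ⊕ ℕ × Bool)) (ζ : Site ⊕ ℕ × Bool → GV Ix),
      OP geoZ (p.l (j + 1)) (𝔤.U p j) (fun x => 𝔤.U p (j + 1) (b x)) (𝔤.Cov p j) κ 3 (Site ⊕ ℕ × Bool) lab ζ := by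
  have hsp : ∀ v : Site, ∃ (q : HE) (φ : Fn), v ∈ 𝔤.S → ∀ x x', supd x' v ≤ (p.T + 2) * p.l j → supd x x' ≤ 2 * p.l j →
      ∀ u ∈ 𝔤.Ups p j x', In (gr 𝔤 j) (𝔤.Ups p (j + 1) x) (rk1 (extF φ) (dl q) u) ∧
        In (gr 𝔤 j / (p.T : ℝ) ^ 3) (𝔤.Ups p (j + 1) x) (u - rk1 (extF φ) (dl q) u) := by
    intro v
    by_cases hv : v ∈ 𝔤.S
    · obtain ⟨q, φ, H⟩ := hP.sp hj v hv
      exact ⟨q, φ, fun _ => H⟩
    · exact ⟨(v, 0), 0, fun h' => absurd h' hv⟩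
  choose q φ hq using hsp
  have hlab : ∀ (x : Site) (u : GV Ix), ∃ o : Option (Site ⊕ ℕ × Bool), u ∈ 𝔤.U p j x →
      (o = none ∧ u ∈ 𝔤.Ups p j x ∧ ∀ v ∈ 𝔤.S, 20 * p.lam j ≤ supd x v) ∨
      (∃ v ∈ 𝔤.S, o = some (Sum.inl v) ∧ u ∈ 𝔤.Ups p j x ∧ supd x v ≤ p.l j) ∨
      (∃ k bb, ∃ t : ℝ, o = some (Sum.inr (k, bb)) ∧ u ∈ 𝔤.Uz p j x ∧ k < 𝔤.m ∧ supd (𝔤.y k).1 x ≤ p.l j ∧ u = t • dz k bb) := by
    intro x u
    have hl := l_eq h.ok j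
    by_cases h1 : u ∈ 𝔤.Ups p j x
    · by_cases h2 : ∀ v ∈ 𝔤.S, 20 * p.lam j ≤ supd x v
      · exact ⟨none, fun _ => Or.inl ⟨rfl, h1, h2⟩⟩
      · push Not at h2
        obtain ⟨v, hv, h3⟩ := h2
        exact ⟨some (Sum.inl v), fun _ => Or.inr (Or.inl ⟨v, hv, rfl, h1, by omega⟩)⟩
    · by_cases h2 : u ∈ 𝔤.Uz p j x
      · obtain ⟨k, bb, t, hk, h3, -, h4⟩ := uz_spec h.ok h2
        exact ⟨some (Sum.inr (k, bb)), fun _ => Or.inr (Or.inr ⟨k, bb, t, rfl, h2, hk, by omega, h4⟩)⟩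
      · exact ⟨none, fun h3 => (h3.elim h1 h2).elim⟩
  choose lab hlab using hlab
  obtain ⟨g0, g2⟩ := h.gr_pos
  refine ⟨lab, Sum.elim (fun v => dl (q v)) fun kb => dz kb.1 kb.2, fun x => (bal_U (b x)).2, fun x => (bal_U (b x)).1, hG,
    fun x u hu e => ?_, fun x u hu a e => ?_, fun Z => ?_⟩
  · rcases hlab x u hu with ⟨-, h1, h2⟩ | ⟨v, -, h1, -⟩ | ⟨k, bb, t, h1, -⟩
    · exact Or.inl ((gen_in h (hb x) h2 u h1).subset Set.subset_union_left)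
    · rw [e] at h1; cases h1
    · rw [e] at h1; cases h1
  · rcases hlab x u hu with ⟨h1, -⟩ | ⟨v, hv, h1, h2, h3⟩ | ⟨k, bb, t, h1, h2, hk, h3, h4⟩
    · rw [e] at h1; cases h1
    · rw [e] at h1
      obtain rfl : a = Sum.inl v := Option.some.inj h1
      have h4 : supd x v ≤ (p.T + 2) * p.l j := h3.trans (Nat.le_mul_of_pos_left _ (by omega))
      obtain ⟨i1, i2⟩ := hq v hv (b x) x h4 (hb x) u h2
      have hT : (100 : ℝ) ≤ p.T := by exact_mod_cast h.hT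
      have hT3 : (4 : ℝ) ≤ (p.T : ℝ) ^ 3 := by
        calc (4 : ℝ) ≤ 100 ^ 3 := by norm_num
          _ ≤ _ := by gcongr
      refine ⟨pr u (extF (φ v)), (i1.mono (bal_ups _) g0.le (g2.trans hκ)).subset Set.subset_union_left,
        (i2.mono (bal_ups _) (by positivity) ?_).subset Set.subset_union_left⟩
      rw [div_le_iff₀ (by linarith)]
      linarith
    · rw [e] at h1
      obtain rfl : a = Sum.inr (k, bb) := Option.some.inj h1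
      have i1 := in_uz_of h (hb x) h2 hh
      rw [Real.sqrt_sq (by linarith)] at i1
      refine ⟨t, ?_, ?_⟩
      · have := i1.subset (Set.subset_union_right (s := 𝔤.Ups p (j + 1) (b x)))
        rw [h4] at this
        exact this
      · refine ⟨0, (bal_U (b x)).1, ?_⟩
        rw [h4, smul_zero]
        exact sub_self _
  · obtain ⟨s, h1, h2, h3⟩ := labels h hj Z
    refine ⟨s, h1, fun x hx u hu a e => ?_⟩
    rcases hlab x u hu with ⟨h4, -⟩ | ⟨v, hv, h4, -, h5⟩ | ⟨k, bb, t, h4, -, hk, h5, -⟩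
    · rw [e] at h4; cases h4
    · rw [e] at h4
      obtain rfl : a = Sum.inl v := Option.some.inj h4
      exact h2 x hx v hv h5
    · rw [e] at h4
      obtain rfl : a = Sum.inr (k, bb) := Option.some.inj h4
      exact h3 x hx k hk h5 bb

theorem ob_both (h : Hyp p K Γs 𝔤 j) (hP : Pkg p K 𝔤 j) (hG : Gram (⋃ x, 𝔤.U p j x) (𝔤.Cov p j) (1 / 4))
    (b : Site → Site) (hb : ∀ x, supd (b x) x ≤ 2 * p.l j) {κ : ℝ} (hκ : 2 ≤ κ) (hh : 𝔤.h (j + 1) ≤ κ ^ 2 * 𝔤.h j) :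
    ∃ (N₀ : ℕ) (Lb : Type) (lab : Site → GV Ix → Option Lb) (ζ : Lb → GV Ix), N₀ ≤ 3 ∧
      OP geoZ (p.l (j + 1)) (𝔤.U p j) (fun x => 𝔤.U p (j + 1) (b x)) (𝔤.Cov p j) κ N₀ Lb lab ζ := by
  rcases lt_or_ge (j : ℕ∞) 𝔤.jN with hj | hj
  · obtain ⟨lab, ζ, H⟩ := op_sep h hP hj hG b hb hκ hh
    exact ⟨3, _, lab, ζ, le_rfl, H⟩
  · exact ⟨0, _, _, _, Nat.zero_le _, op_clu h hP hj hG b hb κ⟩

/-- stability (`op_h1`) -/
theorem mu_bd (h : Hyp p K Γs 𝔤 j) (hP : Pkg p K 𝔤 j) (hG : Gram (⋃ x, 𝔤.U p j x) (𝔤.Cov p j) (1 / 4)) {Z : Finset Site} {F : Al} {c : ℝ}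
    (hF : 𝔤.Bd p j Z F c) {κ : ℝ} (hκ : 2 ≤ κ) (hh : 𝔤.h (j + 1) ≤ κ ^ 2 * 𝔤.h j) :
    𝔤.Bd p (j + 1) Z (muE (𝔤.Cov p j) F) (((1 + 2 * κ) ^ 3) ^ geoZ.cov (p.l (j + 1)) Z * c) ∧
      (𝔤.jN ≤ j → 𝔤.Bd p (j + 1) Z (muE (𝔤.Cov p j) F) c) := by
  have hc : 0 ≤ c := GBd.nonneg hF
  have hb : ∀ x : Site, supd (id x) x ≤ 2 * p.l j := fun x => by simp [supd_self]
  refine ⟨?_, fun hj => ?_⟩
  · obtain ⟨N₀, Lb, lab, ζ, hN, H⟩ := ob_both h hP hG id hb hκ hh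
    refine GBd.mono (op_h1 H (by linarith) hF) le_rfl ?_
    gcongr
    linarith
  · have := op_h1 (op_clu h hP hj hG id hb κ) (by linarith) hF
    rw [pow_zero, one_pow, one_mul] at this
    exact this

/-- the same at the base point of a small polymer: `b x' = if x' ∈ Z then x else x'`, `cov_small`, `op_h1`, `op_sub` -/
theorem mu_bd_small (h : Hyp p K Γs 𝔤 j) (hP : Pkg p K 𝔤 j) {δ : ℝ} (hδ : 0 ≤ δ) (hδ' : δ ≤ 1 / 4)
    (hG : Gram (⋃ x, 𝔤.U p j x) (𝔤.Cov p j) δ) {Z : Finset Site} {x : Site} {F : Al} {c : ℝ} (hZ : geoZ.Small (p.l j) Z) (hx : x ∈ Z)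
    (hF : 𝔤.Bd p j Z F c) {κ : ℝ} (hκ : 2 ≤ κ) (hh : 𝔤.h (j + 1) ≤ κ ^ 2 * 𝔤.h j) :
    𝔤.Bd p (j + 1) {x} (muE (𝔤.Cov p j) F) ((1 + 2 * κ) ^ 3 * c) ∧
      𝔤.Bd p (j + 1) {x} (muE (𝔤.Cov p j) F - F) (16 * δ ^ 2 * (1 + 2 * κ) ^ 3 * c) := by
  have hc : 0 ≤ c := GBd.nonneg hF
  have hb : ∀ x' : Site, supd (if x' ∈ Z then x else x') x' ≤ 2 * p.l j := fun x' => by
    split_ifs with h1
    · exact geoZ_d x x' ▸ hZ.2 x hx x' h1
    · simp [supd_self]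
  obtain ⟨N₀, Lb, lab, ζ, hN, H⟩ := ob_both h hP (gram_mono hG hδ hδ') _ hb hκ hh
  have hcov : geoZ.cov (p.l (j + 1)) Z ≤ 1 := by
    refine cov_small ?_ hZ
    rw [l_succ]
    exact Nat.mul_le_mul_right _ (by exact_mod_cast ob_L h)
  have h1 : (1 : ℝ) ≤ 1 + 2 * κ := by linarith
  have hA : ((1 + 2 * κ) ^ N₀) ^ geoZ.cov (p.l (j + 1)) Z ≤ (1 + 2 * κ) ^ 3 := by
    rw [← pow_mul]
    exact pow_le_pow_right₀ h1 (by nlinarith)
  have hU : (⋃ x' ∈ Z, 𝔤.U p (j + 1) (if x' ∈ Z then x else x')) ⊆ 𝔤.U p (j + 1) x := by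
    refine Set.iUnion₂_subset fun x' hx' => ?_
    rw [if_pos hx']
  refine ⟨bd_single.2 (GBd.mono (op_h1 H (by linarith) hF) hU ?_),
    bd_single.2 (GBd.mono (op_sub H (by linarith) hδ hδ' hG hF) hU ?_)⟩
  · gcongr
  · gcongr

/-- `GBd.gmap`: half-edge vectors go to `0`, sources are fixed -/
theorem cst_bd {x : Site} {F : Al} {c : ℝ} (hF : 𝔤.Bd p (j + 1) {x} F c) : 𝔤.Bd p (j + 1) {x} (cstA F) c := by
  rw [bd_single] at hF ⊢
  refine GBd.gmap hF (vmap (Sum.elim (fun _ => 0) fun q => dz q.1 q.2)) ?_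
  rintro u (hu | ⟨k, b, t, hk, hb, ht, rfl⟩)
  · have : (vmap (Sum.elim (fun _ => 0) fun q => dz q.1 q.2) : GV Ix →ₗ[ℝ] GV Ix) u = 0 := by
      rw [vmap, Finsupp.linearCombination_apply, Finsupp.sum]
      refine Finset.sum_eq_zero fun i hi => ?_
      obtain ⟨a, rfl, -⟩ := hu.1 i hi
      simp
    rw [this]
    exact (bal_U x).1
  · refine Or.inr ⟨k, b, t, hk, hb, ht, ?_⟩
    rw [map_smul, vmap, dz, Finsupp.linearCombination_single, one_smul]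
    rfl

end Crest.Agent.R165.D2
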