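import Crest.Agent.R165.D2.Geo
import Crest.Agent.R165.D2.Smo
import Crest.Agent.R165.D2.Alg2

/-! # R165/D2/One (owner helper6): jets and functionals in the bulk -/

set_option autoImplicit false
set_option linter.unusedVariables false
noncomputable section
open Classical

namespace Crest.Agent.R165.D2

section
variable {p : Par} {K : ℕ} {Γs : ℝ} {𝔤 : Geom} {j : ℕ}

/-- `smo_split`, `pr_gaugeV`, `pr_congr` (`ups_supp`), `dn_cls` with `s = gaugeF σ (cSol 1)`, `gaugeF σ (cSol I)` (`Pl.sol`, `opA_cSol`,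
`dB ≤ λ`, `κ = √λ / Γ`) -/
theorem dn_smo (h : Hyp p K Γs 𝔤 j) {z x' : Site} {R : ℕ} (hz : Pl 𝔤 z R) (hx : supd x' z + 2 * p.lam j ≤ R) {φ : Fn} {c : ℝ}
    (hc : 0 ≤ c) (hφ : Smo (box x' (2 * p.lam j)) (p.lam j) c φ) :
    Dn (gaugeV (sgn 𝔤.S z) '' 𝔤.Ups p j x') φ (20 * c * Real.sqrt (p.lam j) / 𝔤.Gam j) := by
  have hΓ := h.gam_pos.1
  have hl : 1 ≤ p.lam j := le_trans (by norm_num) (lam_ge h.ok j)
  obtain ⟨m₁, m₂, h1, h2, hd⟩ := smo_split hl hc hφ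
  have key : ∀ (a : ℂ) (m : Fn), |a.re| + |a.im| ≤ 1 → Mult (box x' (2 * p.lam j)) (p.lam j) m →
      Dn (𝔤.Ups p j x') (m * gaugeF (sgn 𝔤.S z) (cSol a)) (Real.sqrt (p.lam j) / 𝔤.Gam j) := by
    intro a m ha hm
    refine dn_cls h.ok hΓ (by positivity) hm ⟨?_, fun y _ α => ?_⟩
    · refine (hz.sol (Finset.coe_subset.2 (box_subset_box (mem_box.2 le_rfl) hx))).2 fun y _ α => opA_cSol _ _
    · rw [div_mul_cancel₀ _ hΓ.ne', Real.sq_sqrt (Nat.cast_nonneg _), ← sq_abs, abs_gaugeF (isSign_sgn _ _)]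
      have h3 := (abs_cSol_le a (y, α)).trans ha
      have h4 : |cSol a (y, α)| ^ 2 ≤ 1 := pow_le_one₀ (abs_nonneg _) h3
      have h5 := B3.dB_le 𝔤.S (p.lam j) y
      have h6 := B3.one_le_dB 𝔤.S hl y
      nlinarith
  rintro _ ⟨u, hu, rfl⟩
  have e : pr u (extF (gaugeF (sgn 𝔤.S z) φ)) = pr u (extF ((10 * c) • (m₁ * gaugeF (sgn 𝔤.S z) (cSol 1) +
      m₂ * gaugeF (sgn 𝔤.S z) (cSol Complex.I)))) := by
    refine pr_congr (ups_supp h.ok hu) fun i hi => ?_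
    simp only [gaugeF, Pi.smul_apply, Pi.add_apply, Pi.mul_apply, smul_eq_mul]
    rw [hd i (box_mono x' (by omega) hi)]
    ring
  rw [pr_gaugeV, e, pr_extF_smul, pr_extF_add, abs_mul, abs_of_nonneg (by positivity : 0 ≤ 10 * c)]
  have k1 := key 1 m₁ (by simp) h1 u hu
  have k2 := key Complex.I m₂ (by simp) h2 u hu
  calc _ ≤ 10 * c * (Real.sqrt (p.lam j) / 𝔤.Gam j + Real.sqrt (p.lam j) / 𝔤.Gam j) :=
        mul_le_mul_of_nonneg_left ((abs_add_le _ _).trans (add_le_add k1 k2)) (by positivity)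
    _ = _ := by ring

/-- `dn_smo`, `smo_cSol`, `smo_fOf` with `r = 6 ℓ` -/
theorem fb (h : Hyp p K Γs 𝔤 j) {z x : Site} (hx : supd z x ≤ 3 * p.l j) (hz : Pl 𝔤 z (6 * p.l j)) :
    Fb z (gaugeV (sgn 𝔤.S z) '' Aset p 𝔤 j x) (20 * Real.sqrt (p.lam j) / 𝔤.Gam j)
      (240 * p.l j * Real.sqrt (p.lam j) / 𝔤.Gam j) := by
  have hl : 1 ≤ p.lam j := le_trans (by norm_num) (lam_ge h.ok j)
  have he := l_eq h.ok j
  have key : ∀ (φ : Fn) (c : ℝ), 0 ≤ c → Smo (box z (6 * p.l j)) (p.lam j) c φ →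
      Dn (gaugeV (sgn 𝔤.S z) '' Aset p 𝔤 j x) φ (20 * c * Real.sqrt (p.lam j) / 𝔤.Gam j) := by
    rintro φ c hc hφ _ ⟨u, ⟨x', hx', hu⟩, rfl⟩
    have h1 : supd x' z + 2 * p.lam j ≤ 6 * p.l j := by
      have h2 := supd_triangle x' x z
      rw [supd_comm x' x, supd_comm x z] at h2
      omega
    exact dn_smo h hz h1 hc (hφ.mono (Finset.coe_subset.2 (box_subset_box (mem_box.2 le_rfl) h1)) hl le_rfl hc le_rfl)
      _ ⟨u, hu, rfl⟩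
  have h6 := smo_fOf (z := z) (r := 6 * p.l j) hl (by omega)
  have e : (20 * (2 * ((6 * p.l j : ℕ) : ℝ)) * Real.sqrt (p.lam j) / 𝔤.Gam j) =
      240 * p.l j * Real.sqrt (p.lam j) / 𝔤.Gam j := by
    push_cast
    ring
  refine ⟨?_, ?_, e ▸ key _ _ (by positivity) h6.1, e ▸ key _ _ (by positivity) h6.2⟩
  · simpa using key _ _ (by positivity) (smo_cSol 1 _ _)
  · simpa using key _ _ (by positivity) (smo_cSol Complex.I _ _)
end

/-- a bulk base point `z` for the target `x`: no feature within `D`, no spin within `Ds` -/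
structure Bp (p : Par) (𝔤 : Geom) (j : ℕ) (x z : Site) (D Ds : ℕ) : Prop where
  near : supd z x ≤ 3 * p.l j
  ins : ∃ j₀, |𝔤.w (z, j₀)| = tc
  far : 𝔤.Far D z
  farS : ∀ v ∈ 𝔤.S, Ds ≤ supd z v
  lo : 50 * p.l j ≤ D
  le : D ≤ Ds
  hi : 2 * Ds ≤ p.lam (j + 1)

/-- `gaugeF σ (m * s) = m * gaugeF σ s`; `smo_mul` with `R = D / 8`, `l = λ'`, `M = 2 Γ' / √Ds` (`dB S λ' ≥ Ds / 4` on `box z (4R+16)`: `B3.le_dB`);
`pl_of_far`, `Pl.sol` -/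
theorem smo_tst : ∃ C : ℝ, 1 ≤ C ∧ ∀ (p : Par) (K : ℕ) (Γs : ℝ) (𝔤 : Geom) (j : ℕ) (x z : Site) (D Ds : ℕ), Hyp p K Γs 𝔤 j →
    Bp p 𝔤 j x z D Ds → ∀ m s : Fn, Mult (box x (2 * p.lam (j + 1))) (p.lam (j + 1)) m → Cls p 𝔤 (j + 1) x (𝔤.Gam (j + 1)) s →
      Smo (box z (D / 8)) (D / 8) (C * 𝔤.Gam (j + 1) / Real.sqrt Ds) (gaugeF (sgn 𝔤.S z) (m * s)) := by
  obtain ⟨C, hC1, hC⟩ := smo_mul
  refine ⟨2 * C, by linarith, fun p K Γs 𝔤 j x z D Ds h hb m s hm hs => ?_⟩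
  have hl := l_eq h.ok j
  have hl8 := lam_ge h.ok j
  have h1 := hb.near
  have h2 := hb.lo
  have h3 := hb.le
  have h4 := hb.hi
  obtain ⟨j₀, hj₀⟩ := hb.ins
  have hΓ := h.gam_pos.2
  have hDs : (0 : ℝ) < Ds := by exact_mod_cast (by omega : 0 < Ds)
  have hsq := Real.sqrt_pos.2 hDs
  have hPl : Pl 𝔤 z (4 * (D / 8) + 16) := pl_of_far h hj₀ hb.far (by omega)
  have sub : ∀ r, r ≤ 4 * (D / 8) + 16 → box z r ⊆ box x (2 * p.lam (j + 1)) := fun r hr =>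
    box_subset_box (n := 3 * p.l j) (mem_box.2 h1) (by omega)
  have e : gaugeF (sgn 𝔤.S z) (m * s) = m * gaugeF (sgn 𝔤.S z) s := by
    funext i; simp only [gaugeF, Pi.mul_apply]; ring
  rw [e, show 2 * C * 𝔤.Gam (j + 1) / Real.sqrt Ds = C * (2 * 𝔤.Gam (j + 1) / Real.sqrt Ds) by ring]
  refine hC m _ z (D / 8) (p.lam (j + 1)) _ (by omega) (by omega) (by positivity)
    (fun y hy => hm y (sub _ (by omega) hy))
    ((hPl.sol subset_rfl).1 fun y hy => hs.1 y (sub _ le_rfl hy)) fun y hy α => ?_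
  rw [abs_gaugeF (isSign_sgn _ _)]
  have a1 := hs.2 y (box_mono x (by omega) (sub _ le_rfl hy)) α
  have a2 : ((Ds / 4 + 1 : ℕ) : ℝ) ≤ dB 𝔤.S (p.lam (j + 1)) y := B3.le_dB (by omega) fun v hv => by
    have b1 := hb.farS v hv
    have b2 := supd_triangle z y v
    have b3 := mem_box.1 hy
    rw [supd_comm z y] at b2
    omega
  have a3 : (Ds : ℝ) ≤ 4 * ((Ds / 4 + 1 : ℕ) : ℝ) := by exact_mod_cast (by omega : Ds ≤ 4 * (Ds / 4 + 1))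
  rw [le_div_iff₀ hsq]
  refine abs_le_of_sq_le_sq' ?_ (by positivity) |>.2
  rw [mul_pow, Real.sq_sqrt hDs.le, sq_abs]
  nlinarith [sq_nonneg (s (y, α))]

/-- to show `In κ (gσ '' U') w` show `In κ (Ups (j+1) x) (gσ w)` (`In.map`, `gaugeV_gaugeV`) by `in_ups` -/
theorem in_gauge {p : Par} {𝔤 : Geom} {j : ℕ} (hp : p.OK) {x : Site} {σ : Site → ℝ} (hσ : IsSign σ) {u : GV Ix} {κ : ℝ} (hκ : 0 < κ)
    (hu : SuppIn (box x (p.lam (j + 1))) u)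
    (h : ∀ m s : Fn, Mult (box x (2 * p.lam (j + 1))) (p.lam (j + 1)) m → Cls p 𝔤 (j + 1) x (𝔤.Gam (j + 1)) s →
      |pr u (extF (gaugeF σ (m * s)))| ≤ κ) : In κ (gaugeV σ '' 𝔤.U p (j + 1) x) u := by
  have h1 := (in_ups hp hκ (hu.gauge σ) fun m s hm hs => by rw [pr_gaugeV]; exact h m s hm hs).map (gaugeV σ)
  rw [gaugeV_gaugeV hσ] at h1
  exact h1.subset (Set.image_mono Set.subset_union_left)

theorem onec_key {p : Par} {K : ℕ} {Γs : ℝ} {𝔤 : Geom} {j : ℕ} {x z : Site} {D Ds : ℕ} (h : Hyp p K Γs 𝔤 j)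
    (hb : Bp p 𝔤 j x z D Ds) {u : GV Ix} (hu : u ∈ gaugeV (sgn 𝔤.S z) '' Aset p 𝔤 j x) {φ : Fn} {c : ℝ} (hc : 0 ≤ c)
    (hφ : Smo (box z (6 * p.l j)) (p.lam j) c φ) : |pr u (extF φ)| ≤ 20 * (c * (Real.sqrt (p.l j) / 𝔤.Gam j)) := by
  obtain ⟨u₀, ⟨x', hx', hu₀⟩, rfl⟩ := hu
  have h1 := l_eq h.ok j
  have h2 := lam_ge h.ok j
  have h3 := hb.near
  have h4 := hb.lo
  have h5 := supd_triangle x' x z
  rw [supd_comm x' x, supd_comm x z] at h5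
  obtain ⟨j₀, hj₀⟩ := hb.ins
  have hpl : Pl 𝔤 z (6 * p.l j) := pl_of_far h hj₀ hb.far (by omega)
  have hsub : (↑(box x' (2 * p.lam j)) : Set Site) ⊆ box z (6 * p.l j) := fun y hy => by
    have e1 := mem_box.1 (Finset.mem_coe.1 hy)
    have e2 := supd_triangle y x' z
    exact Finset.mem_coe.2 (mem_box.2 (by omega))
  refine (dn_smo h hpl (x' := x') (by omega) hc (hφ.mono hsub (by omega) le_rfl hc le_rfl) _ ⟨u₀, hu₀, rfl⟩).trans ?_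
  have hΓ := h.gam_pos.1
  have e : Real.sqrt (p.lam j) ≤ Real.sqrt (p.l j) := Real.sqrt_le_sqrt (by exact_mod_cast (by omega : p.lam j ≤ p.l j))
  rw [← mul_div_assoc, ← mul_div_assoc, ← mul_assoc]
  gcongr

/-- **jets of the scale `j` vectors**: `in_gauge`, `pr_P0`, `pr_P1`, `smo_tst`, `smo_T0`, `smo_taylor1/2` (`r = 6 ℓ`, `l = λ`, `R = D / 8 ≥ D / 16`), `dn_smo` -/
theorem jets : ∃ C : ℝ, 1 ≤ C ∧ ∀ (p : Par) (K : ℕ) (Γs : ℝ) (𝔤 : Geom) (j : ℕ) (x z : Site) (D Ds : ℕ), Hyp p K Γs 𝔤 j →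
    Bp p 𝔤 j x z D Ds →
      Jet z (gaugeV (sgn 𝔤.S z) '' Aset p 𝔤 j x) (gaugeV (sgn 𝔤.S z) '' 𝔤.U p (j + 1) x)
        (C * gr 𝔤 j * Real.sqrt (p.l j / Ds)) (C * gr 𝔤 j * Real.sqrt (p.l j / Ds) * (p.l j / D))
        (C * gr 𝔤 j * Real.sqrt (p.l j / Ds) * (p.l j / D) ^ 2) := by
  obtain ⟨C, hC, hS⟩ := smo_tst
  refine ⟨10 ^ 7 * C, by linarith, fun p K Γs 𝔤 j x z D Ds h hb => ?_⟩
  have h1 := l_eq h.ok j
  have h2 := lam_ge h.ok j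
  have h3 := hb.near
  have h4 := hb.lo
  have h5 := hb.le
  have h6 := hb.hi
  have hΓ := h.gam_pos
  have hg := h.gr_pos.1
  have hl : (0 : ℝ) < p.l j := by exact_mod_cast (by omega : 0 < p.l j)
  have hD : (0 : ℝ) < D := by exact_mod_cast (by omega : 0 < D)
  have hDs : (0 : ℝ) < Ds := by exact_mod_cast (by omega : 0 < Ds)
  have hR : (0 : ℝ) < (D / 8 : ℕ) := by exact_mod_cast (by omega : 0 < D / 8)
  have hR' : (D : ℝ) ≤ 16 * (D / 8 : ℕ) := by exact_mod_cast (by omega : D ≤ 16 * (D / 8))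
  have hq : (p.l j : ℝ) / (D / 8 : ℕ) ≤ 16 * (p.l j / D) := by
    rw [← mul_div_assoc, div_le_div_iff₀ hR hD]
    nlinarith
  have hsq := Real.sqrt_pos.2 hDs
  have hc : 0 ≤ C * 𝔤.Gam (j + 1) / Real.sqrt Ds := by have := hΓ.2; positivity
  have ha : 0 < C * gr 𝔤 j * Real.sqrt (p.l j / Ds) := by positivity
  have e : C * 𝔤.Gam (j + 1) / Real.sqrt Ds * (Real.sqrt (p.l j) / 𝔤.Gam j) = C * gr 𝔤 j * Real.sqrt (p.l j / Ds) := by
    rw [Real.sqrt_div' _ hDs.le, gr]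
    ring
  have hz : (↑(box z 1) : Set Site) ⊆ box x (p.lam (j + 1)) := fun y hy => by
    have e1 := mem_box.1 (Finset.mem_coe.1 hy)
    have e2 := supd_triangle y z x
    exact Finset.mem_coe.2 (mem_box.2 (by omega))
  have hu' : ∀ u ∈ gaugeV (sgn 𝔤.S z) '' Aset p 𝔤 j x, SuppIn (box x (p.lam (j + 1))) u := by
    rintro _ ⟨u, hu, rfl⟩
    exact ((aset_supp h.ok hu).mono (Finset.coe_subset.2 (box_mono x (by omega)))).gauge _
  have e' : 10 ^ 7 * C * gr 𝔤 j * Real.sqrt (p.l j / Ds) = 10 ^ 7 * (C * gr 𝔤 j * Real.sqrt (p.l j / Ds)) := by ring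
  rw [e']
  generalize C * gr 𝔤 j * Real.sqrt (p.l j / Ds) = a at ha e
  have hS' := hS p K Γs 𝔤 j x z D Ds h hb
  generalize C * 𝔤.Gam (j + 1) / Real.sqrt Ds = c at hc e hS'
  have hlam : 1 ≤ p.lam j := by omega
  have hr : p.lam j ≤ 6 * p.l j := by omega
  have hr' : 6 * p.l j ≤ D / 8 := by omega
  have ht : 0 < (p.l j : ℝ) / D := by positivity
  have ht' : 0 ≤ (p.l j : ℝ) / (D / 8 : ℕ) := by positivity
  refine ⟨fun u hu => ?_, fun u hu => ?_, fun u hu => ?_⟩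
  · refine in_gauge h.ok (isSign_sgn _ _) (by positivity) ((suppIn_P0 z u).mono hz) fun m s hm hs => ?_
    rw [pr_P0]
    refine (onec_key h hb hu (by positivity) (smo_T0 (fun α => (hS' m s hm hs z
      (Finset.mem_coe.2 (self_mem_box _ _)) α α α).1) _ _)).trans ?_
    rw [mul_assoc, e]
    linarith
  · refine in_gauge h.ok (isSign_sgn _ _) (by positivity) ((hu' u hu).sub ((suppIn_P0 z u).mono hz)) fun m s hm hs => ?_
    rw [pr_sub, pr_P0, ← pr_extF_sub]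
    refine (onec_key h hb hu (by positivity) (smo_taylor1 hc hlam hr hr' (hS' m s hm hs))).trans ?_
    have e1 : 5 * c * (6 * p.l j : ℕ) / (D / 8 : ℕ) * (Real.sqrt (p.l j) / 𝔤.Gam j) = 30 * (a * (p.l j / (D / 8 : ℕ))) := by
      rw [← e, Nat.cast_mul]
      ring
    rw [e1]
    nlinarith [mul_le_mul_of_nonneg_left hq ha.le, mul_pos ha ht]
  · refine in_gauge h.ok (isSign_sgn _ _) (by positivity)
      (((hu' u hu).sub ((suppIn_P0 z u).mono hz)).sub ((suppIn_P1 z u).mono hz)) fun m s hm hs => ?_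
    rw [pr_sub, pr_sub, pr_P0, pr_P1, ← pr_extF_sub, ← pr_extF_sub]
    refine (onec_key h hb hu (by positivity) (smo_taylor2 hc hlam hr hr' (hS' m s hm hs))).trans ?_
    have e1 : 40 * c * ((6 * p.l j : ℕ) : ℝ) ^ 2 / ((D / 8 : ℕ) : ℝ) ^ 2 * (Real.sqrt (p.l j) / 𝔤.Gam j) =
        1440 * (a * (p.l j / (D / 8 : ℕ)) ^ 2) := by
      rw [← e, Nat.cast_mul]
      ring
    rw [e1]
    have hq2 : ((p.l j : ℝ) / (D / 8 : ℕ)) ^ 2 ≤ (16 * (p.l j / D)) ^ 2 := by gcongr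
    nlinarith [mul_le_mul_of_nonneg_left hq2 ha.le, mul_pos ha (pow_pos ht 2)]

/-- **jets of the generators next to `z`**: the same with `pr_dl`, `r = l = 1` -/
theorem jets_dl : ∃ C : ℝ, 1 ≤ C ∧ ∀ (p : Par) (K : ℕ) (Γs : ℝ) (𝔤 : Geom) (j : ℕ) (x z : Site) (D Ds : ℕ), Hyp p K Γs 𝔤 j →
    Bp p 𝔤 j x z D Ds →
      Jet z (Dl z) (gaugeV (sgn 𝔤.S z) '' 𝔤.U p (j + 1) x) (C * 𝔤.Gam (j + 1) / Real.sqrt Ds)
        (C * 𝔤.Gam (j + 1) / Real.sqrt Ds / D) (C * 𝔤.Gam (j + 1) / Real.sqrt Ds / (D : ℝ) ^ 2) ∧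
      ∀ u ∈ Dl z, In (C * 𝔤.Gam (j + 1) / Real.sqrt Ds) (gaugeV (sgn 𝔤.S z) '' 𝔤.U p (j + 1) x) u := by
  obtain ⟨C, hC1, hC⟩ := smo_tst
  refine ⟨10240 * C, by linarith, fun p K Γs 𝔤 j x z D Ds h hb => ?_⟩
  have hl := l_eq h.ok j
  have hl8 := lam_ge h.ok j
  have h1 := hb.near
  have h2 := hb.lo
  have h3 := hb.le
  have h4 := hb.hi
  have hΓ := h.gam_pos.2
  have hDs : (0 : ℝ) < Ds := by exact_mod_cast (by omega : 0 < Ds)
  have hD : (0 : ℝ) < D := by exact_mod_cast (by omega : 0 < D)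
  have hR : (0 : ℝ) < ((D / 8 : ℕ) : ℝ) := by exact_mod_cast (by omega : 0 < D / 8)
  have hDR : (D : ℝ) ≤ 16 * ((D / 8 : ℕ) : ℝ) := by exact_mod_cast (by omega : D ≤ 16 * (D / 8))
  have hsq := Real.sqrt_pos.2 hDs
  have hσ := isSign_sgn 𝔤.S z
  have sub : (box z 1 : Set Site) ⊆ box x (p.lam (j + 1)) := fun y hy =>
    box_subset_box (n := 3 * p.l j) (mem_box.2 h1) (by omega) hy
  have e : 10240 * C * 𝔤.Gam (j + 1) / Real.sqrt Ds = 10240 * (C * 𝔤.Gam (j + 1) / Real.sqrt Ds) := by ring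
  have hc : 0 < C * 𝔤.Gam (j + 1) / Real.sqrt Ds := by positivity
  have hS := hC p K Γs 𝔤 j x z D Ds h hb
  rw [e]
  generalize C * 𝔤.Gam (j + 1) / Real.sqrt Ds = c at hc hS
  have hz : ∀ {i : HE}, supd i.1 z ≤ 1 → SuppIn (box z 1) (dl i) := fun hi => suppIn_dl (mem_box.2 hi)
  refine ⟨⟨?_, ?_, ?_⟩, ?_⟩ <;> rintro _ ⟨i, hi, rfl⟩
  · refine in_gauge h.ok hσ (by positivity) ((suppIn_P0 z _).mono sub) fun m s hm hs => ?_
    rw [pr_P0, pr_dl]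
    have := (smo_T0 (fun α => (hS m s hm hs z (self_mem_box _ _) α 0 0).1) Set.univ 1 i.1 trivial i.2 0 0).1
    exact this.trans (by linarith)
  · refine in_gauge h.ok hσ (by positivity) (((hz hi).sub (suppIn_P0 z _)).mono sub) fun m s hm hs => ?_
    rw [pr_sub, pr_P0, pr_dl, pr_dl]
    have := (smo_taylor1 hc.le le_rfl le_rfl (by omega) (hS m s hm hs) i.1 (mem_box.2 hi) i.2 0 0).1
    refine this.trans ?_
    rw [div_le_div_iff₀ hR hD]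
    rw [Nat.cast_one]
    nlinarith
  · refine in_gauge h.ok hσ (by positivity) ((((hz hi).sub (suppIn_P0 z _)).sub (suppIn_P1 z _)).mono sub)
      fun m s hm hs => ?_
    rw [pr_sub, pr_sub, pr_P0, pr_P1, pr_dl, pr_dl, pr_dl]
    have := (smo_taylor2 hc.le le_rfl le_rfl (by omega) (hS m s hm hs) i.1 (mem_box.2 hi) i.2 0 0).1
    refine this.trans ?_
    rw [div_le_div_iff₀ (by positivity) (by positivity)]
    have b : (D : ℝ) ^ 2 ≤ (16 * ((D / 8 : ℕ) : ℝ)) ^ 2 := by gcongr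
    rw [Nat.cast_one]
    nlinarith
  · refine in_gauge h.ok hσ (by positivity) ((hz hi).mono sub) fun m s hm hs => ?_
    rw [pr_dl]
    have := (hS m s hm hs i.1 (box_mono z (by omega) (mem_box.2 hi)) i.2 0 0).1
    exact this.trans (by linarith)

/-! ### `j = 0`: the true sizes (helper6) -/

theorem dn_sup0 {p : Par} {𝔤 : Geom} (hΓ : 0 < 𝔤.Gam 0) {x' : Site} {σ : Site → ℝ} (hσ : IsSign σ) {φ : Fn} {c : ℝ}
    (hφ : ∀ y ∈ box x' 3, ∀ α, |φ (y, α)| ≤ c) : Dn (gaugeV σ '' 𝔤.Ups p 0 x') φ (c / 𝔤.Gam 0) := by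
  rintro _ ⟨u, ⟨h1, h2⟩, rfl⟩
  rw [if_pos rfl] at h1 h2
  have hc : 0 ≤ c := (abs_nonneg _).trans (hφ x' (self_mem_box _ _) 0)
  rw [pr_gaugeV, b1_pr]
  refine (Finset.abs_sum_le_sum_abs _ _).trans ((Finset.sum_le_sum (g := fun i => c * |u i|) fun i hi => ?_).trans ?_)
  · obtain ⟨⟨y, α⟩, rfl, ha⟩ := h1 i hi
    rw [abs_mul, mul_comm]
    exact mul_le_mul_of_nonneg_right ((abs_gaugeF hσ φ _).trans_le (hφ y ha α)) (abs_nonneg _)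
  · rw [← Finset.mul_sum, div_eq_mul_one_div]
    exact mul_le_mul_of_nonneg_left ((le_div_iff₀' hΓ).2 h2) hc

theorem key0 {p : Par} {K : ℕ} {Γs : ℝ} {𝔤 : Geom} {x z : Site} (h : Hyp p K Γs 𝔤 0) (hx : supd z x ≤ 3 * p.l 0) {u : GV Ix}
    (hu : u ∈ gaugeV (sgn 𝔤.S z) '' Aset p 𝔤 0 x) {φ : Fn} {c : ℝ} {l : ℕ} (hφ : Smo (box z (6 * p.l 0)) l c φ) :
    |pr u (extF φ)| ≤ c / 𝔤.Gam 0 := by
  obtain ⟨u₀, ⟨x', hx', hu₀⟩, rfl⟩ := hu
  have h1 := l_eq h.ok 0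
  have h2 := lam_ge h.ok 0
  have h5 := supd_triangle x' x z
  rw [supd_comm x' x, supd_comm x z] at h5
  refine dn_sup0 h.gam_pos.1 (isSign_sgn _ _) (x' := x') (fun y hy α => (hφ y ?_ α α α).1) _ ⟨u₀, hu₀, rfl⟩
  have e1 := mem_box.1 hy
  have e2 := supd_triangle y x' z
  exact Finset.mem_coe.2 (mem_box.2 (by omega))

theorem fb0 {p : Par} {K : ℕ} {Γs : ℝ} {𝔤 : Geom} (h : Hyp p K Γs 𝔤 0) {z x : Site} (hx : supd z x ≤ 3 * p.l 0) :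
    Fb z (gaugeV (sgn 𝔤.S z) '' Aset p 𝔤 0 x) (1 / 𝔤.Gam 0) (12 * p.l 0 / 𝔤.Gam 0) := by
  have h1 := l_eq h.ok 0
  have h2 := lam_ge h.ok 0
  obtain ⟨s1, s2⟩ := smo_fOf (z := z) (l := p.lam 0) (r := 6 * p.l 0) (by omega) (by omega)
  have e : (12 * p.l 0 : ℝ) = 2 * (6 * p.l 0 : ℕ) := by push_cast; ring
  refine ⟨fun u hu => ?_, fun u hu => ?_, fun u hu => ?_, fun u hu => ?_⟩
  · simpa using key0 h hx hu (smo_cSol 1 _ (p.lam 0))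
  · simpa using key0 h hx hu (smo_cSol Complex.I _ (p.lam 0))
  · rw [e]; exact key0 h hx hu s1
  · rw [e]; exact key0 h hx hu s2

theorem key0' {p : Par} {K : ℕ} {Γs : ℝ} {𝔤 : Geom} {x z : Site} (h : Hyp p K Γs 𝔤 0) (hx : supd z x ≤ 3 * p.l 0) {u : GV Ix}
    (hu : u ∈ gaugeV (sgn 𝔤.S z) '' Aset p 𝔤 0 x) {φ : Fn} {c : ℝ} (hc : 0 ≤ c) {l : ℕ} (hφ : Smo (box z (6 * p.l 0)) l c φ) :
    |pr u (extF φ)| ≤ 20 * (c * (1 / 𝔤.Gam 0)) := by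
  have h1 := key0 h hx hu hφ
  have h2 : 0 ≤ c / 𝔤.Gam 0 := div_nonneg hc h.gam_pos.1.le
  rw [mul_one_div]
  linarith

theorem jets0 : ∃ C : ℝ, 1 ≤ C ∧ ∀ (p : Par) (K : ℕ) (Γs : ℝ) (𝔤 : Geom) (x z : Site) (D Ds : ℕ), Hyp p K Γs 𝔤 0 →
    Bp p 𝔤 0 x z D Ds →
      Jet z (gaugeV (sgn 𝔤.S z) '' Aset p 𝔤 0 x) (gaugeV (sgn 𝔤.S z) '' 𝔤.U p (0 + 1) x)
        (C * gr 𝔤 0 / Real.sqrt Ds) (C * gr 𝔤 0 / Real.sqrt Ds * (p.l 0 / D))
        (C * gr 𝔤 0 / Real.sqrt Ds * (p.l 0 / D) ^ 2) := by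
  obtain ⟨C, hC, hS⟩ := smo_tst
  refine ⟨10 ^ 7 * C, by linarith, fun p K Γs 𝔤 x z D Ds h hb => ?_⟩
  have h1 := l_eq h.ok 0
  have h2 := lam_ge h.ok 0
  have h3 := hb.near
  have h4 := hb.lo
  have h5 := hb.le
  have h6 := hb.hi
  have hΓ := h.gam_pos
  have hg := h.gr_pos.1
  have hl : (0 : ℝ) < p.l 0 := by exact_mod_cast (by omega : 0 < p.l 0)
  have hD : (0 : ℝ) < D := by exact_mod_cast (by omega : 0 < D)
  have hDs : (0 : ℝ) < Ds := by exact_mod_cast (by omega : 0 < Ds)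
  have hR : (0 : ℝ) < (D / 8 : ℕ) := by exact_mod_cast (by omega : 0 < D / 8)
  have hR' : (D : ℝ) ≤ 16 * (D / 8 : ℕ) := by exact_mod_cast (by omega : D ≤ 16 * (D / 8))
  have hq : (p.l 0 : ℝ) / (D / 8 : ℕ) ≤ 16 * (p.l 0 / D) := by
    rw [← mul_div_assoc, div_le_div_iff₀ hR hD]
    nlinarith
  have hsq := Real.sqrt_pos.2 hDs
  have hc : 0 ≤ C * 𝔤.Gam (0 + 1) / Real.sqrt Ds := by have := hΓ.2; positivity
  have ha : 0 < C * gr 𝔤 0 / Real.sqrt Ds := by positivity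
  have e : C * 𝔤.Gam (0 + 1) / Real.sqrt Ds * (1 / 𝔤.Gam 0) = C * gr 𝔤 0 / Real.sqrt Ds := by
    rw [gr]
    ring
  have hz : (↑(box z 1) : Set Site) ⊆ box x (p.lam (0 + 1)) := fun y hy => by
    have e1 := mem_box.1 (Finset.mem_coe.1 hy)
    have e2 := supd_triangle y z x
    exact Finset.mem_coe.2 (mem_box.2 (by omega))
  have hu' : ∀ u ∈ gaugeV (sgn 𝔤.S z) '' Aset p 𝔤 0 x, SuppIn (box x (p.lam (0 + 1))) u := by
    rintro _ ⟨u, hu, rfl⟩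
    exact ((aset_supp h.ok hu).mono (Finset.coe_subset.2 (box_mono x (by omega)))).gauge _
  have e' : 10 ^ 7 * C * gr 𝔤 0 / Real.sqrt Ds = 10 ^ 7 * (C * gr 𝔤 0 / Real.sqrt Ds) := by ring
  rw [e']
  generalize C * gr 𝔤 0 / Real.sqrt Ds = a at ha e
  have hS' := hS p K Γs 𝔤 0 x z D Ds h hb
  generalize C * 𝔤.Gam (0 + 1) / Real.sqrt Ds = c at hc e hS'
  have hlam : 1 ≤ p.lam 0 := by omega
  have hr : p.lam 0 ≤ 6 * p.l 0 := by omega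
  have hr' : 6 * p.l 0 ≤ D / 8 := by omega
  have ht : 0 < (p.l 0 : ℝ) / D := by positivity
  have ht' : 0 ≤ (p.l 0 : ℝ) / (D / 8 : ℕ) := by positivity
  refine ⟨fun u hu => ?_, fun u hu => ?_, fun u hu => ?_⟩
  · refine in_gauge h.ok (isSign_sgn _ _) (by positivity) ((suppIn_P0 z u).mono hz) fun m s hm hs => ?_
    rw [pr_P0]
    refine (key0' h h3 hu (by positivity) (smo_T0 (fun α => (hS' m s hm hs z
      (Finset.mem_coe.2 (self_mem_box _ _)) α α α).1) _ 1)).trans ?_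
    rw [mul_assoc, e]
    linarith
  · refine in_gauge h.ok (isSign_sgn _ _) (by positivity) ((hu' u hu).sub ((suppIn_P0 z u).mono hz)) fun m s hm hs => ?_
    rw [pr_sub, pr_P0, ← pr_extF_sub]
    refine (key0' h h3 hu (by positivity) (smo_taylor1 hc hlam hr hr' (hS' m s hm hs))).trans ?_
    have e1 : 5 * c * (6 * p.l 0 : ℕ) / (D / 8 : ℕ) * (1 / 𝔤.Gam 0) = 30 * (a * (p.l 0 / (D / 8 : ℕ))) := by
      rw [← e, Nat.cast_mul]
      ring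
    rw [e1]
    nlinarith [mul_le_mul_of_nonneg_left hq ha.le, mul_pos ha ht]
  · refine in_gauge h.ok (isSign_sgn _ _) (by positivity)
      (((hu' u hu).sub ((suppIn_P0 z u).mono hz)).sub ((suppIn_P1 z u).mono hz)) fun m s hm hs => ?_
    rw [pr_sub, pr_sub, pr_P0, pr_P1, ← pr_extF_sub, ← pr_extF_sub]
    refine (key0' h h3 hu (by positivity) (smo_taylor2 hc hlam hr hr' (hS' m s hm hs))).trans ?_
    have e1 : 40 * c * ((6 * p.l 0 : ℕ) : ℝ) ^ 2 / ((D / 8 : ℕ) : ℝ) ^ 2 * (1 / 𝔤.Gam 0) =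
        1440 * (a * (p.l 0 / (D / 8 : ℕ)) ^ 2) := by
      rw [← e, Nat.cast_mul]
      ring
    rw [e1]
    have hq2 : ((p.l 0 : ℝ) / (D / 8 : ℕ)) ^ 2 ≤ (16 * (p.l 0 / D)) ^ 2 := by gcongr
    nlinarith [mul_le_mul_of_nonneg_left hq2 ha.le, mul_pos ha (pow_pos ht 2)]

end Crest.Agent.R165.D2
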