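import Crest.Agent.R165.D2.RemD

/-! # R165/D2/RemD0 (helper51): the remainder next to an energy observable at `j = 0` (proofs of `rem_obs0`, `rem_mix_sep0`) -/

set_option autoImplicit false
set_option linter.unusedVariables false
noncomputable section
open Classical

namespace Crest.Agent.R165.D2

theorem remd_obs0 : ∃ (C : ℝ) (T₀ : ℕ), 0 < C ∧ ∀ (p : Par) (K : ℕ) (Γs : ℝ) (𝔤 : Geom) (x : Site) (k : ℕ), Hyp p K Γs 𝔤 0 →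
    T₀ ≤ p.T → ((0 : ℕ) : ℕ∞) < 𝔤.jN → k < 𝔤.m → supd x (𝔤.y k).1 ≤ 3 * p.l 0 →
    ∀ l : List (GV Ix), (∀ u ∈ l, u ∈ Aset p 𝔤 0 x) → Even l.length → l ≠ [] →
      GBd (𝔤.U p (0 + 1) x)
        (wedge l - ((-1 / tc) * nu0 (gmap (gaugeV (sgn 𝔤.S (𝔤.y k).1)) (wedge l))) • ((𝔤.oK k : Al) : Gr Ix))
        (C * gr 𝔤 0 ^ 2 / (p.L * p.l 1)) := by
  obtain ⟨C, hC, hJ⟩ := jets0
  obtain ⟨C', hC', hD⟩ := jets_dl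
  refine ⟨(3 * C ^ 2 + 6 * C' ^ 2 + 44 * C ^ 4) * 200 ^ 2, ⌈C⌉₊, by positivity,
    fun p K Γs 𝔤 x k h hT hj hk hx l hl he hne => ?_⟩
  obtain ⟨hB, hP, hR⟩ := remd_bp h hj hk hx
  have J := hJ p K Γs 𝔤 x _ _ _ h hB
  have J' := (hD p K Γs 𝔤 0 x _ _ _ h hB).1
  have F := fb0 h hB.near
  refine remd_ungauge hP l ?_
  have hl' : ∀ u ∈ l.map (gaugeV (sgn 𝔤.S (𝔤.y k).1)), u ∈ gaugeV (sgn 𝔤.S (𝔤.y k).1) '' Aset p 𝔤 0 x := fun u hu => by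
    obtain ⟨v, hv, rfl⟩ := List.mem_map.1 hu
    exact ⟨v, hl v hv, rfl⟩
  have he' : Even (l.map (gaugeV (sgn 𝔤.S (𝔤.y k).1))).length := by rwa [List.length_map]
  have hne' : l.map (gaugeV (sgn 𝔤.S (𝔤.y k).1)) ≠ [] := by simpa using hne
  generalize l.map (gaugeV (sgn 𝔤.S (𝔤.y k).1)) = l' at hl' he' hne'
  have h1 := l_eq h.ok 0
  have h2 := lam_ge h.ok 0
  have hl1 : (1 : ℝ) ≤ p.l 0 := by exact_mod_cast (show 1 ≤ p.l 0 by omega)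
  have hls : (p.l 1 : ℝ) = p.L * p.l 0 := by exact_mod_cast l_succ p 0
  have hT1 : (100 : ℝ) ≤ p.T := by exact_mod_cast h.hT
  have hL1 : 1000 * (p.T : ℝ) ^ 3 ≤ p.L := by exact_mod_cast h.hL
  have hTC : C ≤ p.T := (Nat.le_ceil C).trans (by exact_mod_cast hT)
  have hT3 : (p.T : ℝ) ≤ (p.T : ℝ) ^ 3 := le_self_pow₀ (by linarith) (by norm_num)
  have hL0 : (0 : ℝ) < p.L := by linarith
  obtain ⟨hg0, hg2⟩ := h.gr_pos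
  obtain ⟨hΓ, hΓ'⟩ := h.gam_pos
  obtain ⟨ρ, hρ⟩ : ∃ ρ : ℝ, ρ = 200 / p.L := ⟨_, rfl⟩
  have hρ0 : 0 < ρ := by rw [hρ]; positivity
  have hρC : C * ρ ≤ 1 / 5 := by
    rw [hρ, ← mul_div_assoc, div_le_iff₀ hL0]; linarith
  have hρ1 : ρ ≤ 1 := by nlinarith
  obtain ⟨D, hDd⟩ : ∃ D : ℝ, D = ((p.lam (0 + 1) / 2 : ℕ) : ℝ) := ⟨_, rfl⟩
  have hlD : (p.l 0 : ℝ) / D = ρ := by rw [hDd, hR, hρ]; field_simp
  have hD1 : 1 ≤ D := by rw [hDd]; exact_mod_cast (show 1 ≤ p.lam (0 + 1) / 2 by have := lam_ge h.ok (0 + 1); omega)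
  have hD0 : 0 < D := by linarith
  have hfin : (3 * C ^ 2 + 6 * C' ^ 2 + 44 * C ^ 4) * 200 ^ 2 * gr 𝔤 0 ^ 2 / (p.L * p.l 1) =
      (3 * C ^ 2 + 6 * C' ^ 2 + 44 * C ^ 4) * (gr 𝔤 0 ^ 2 * ρ / D) := by
    rw [hρ, hDd, hR, hls]; field_simp
  rw [← hDd] at J J'
  rw [hlD] at J
  rw [hfin]
  have hs1 : 1 ≤ Real.sqrt D := Real.one_le_sqrt.2 hD1
  have hs0 : 0 < Real.sqrt D := by linarith
  have hκ0 : (C * gr 𝔤 0 / Real.sqrt D) ^ 2 = C ^ 2 * gr 𝔤 0 ^ 2 / D := by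
    rw [div_pow, mul_pow, Real.sq_sqrt hD0.le]
  have hX : 0 ≤ gr 𝔤 0 ^ 2 * ρ / D := by positivity
  by_cases h2l : l'.length = 2
  · obtain ⟨u, v, rfl⟩ := List.length_eq_two.1 h2l
    have e : wedge [u, v] = ExteriorAlgebra.ι ℝ u * ExteriorAlgebra.ι ℝ v := by
      rw [wedge_cons, wedge_cons, wedge_nil, mul_one]
    rw [e]
    refine (obs2 J J' F (by positivity) (by positivity) (by positivity) (by positivity) (by positivity)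
      (hl' u (by simp)) (hl' v (by simp))).mono subset_rfl ?_
    have a1 : (C * gr 𝔤 0 / Real.sqrt D * ρ) ^ 2 ≤ C ^ 2 * (gr 𝔤 0 ^ 2 * ρ / D) := by
      rw [mul_pow, hκ0]
      have : C ^ 2 * (gr 𝔤 0 ^ 2 * ρ / D) * ρ ≤ C ^ 2 * (gr 𝔤 0 ^ 2 * ρ / D) :=
        mul_le_of_le_one_right (by positivity) hρ1
      refine le_trans (le_of_eq ?_) this
      ring
    have a2 : 2 * (C * gr 𝔤 0 / Real.sqrt D) * (C * gr 𝔤 0 / Real.sqrt D * ρ) = 2 * C ^ 2 * (gr 𝔤 0 ^ 2 * ρ / D) := by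
      linear_combination (2 * ρ) * hκ0
    have a4 : (C' * 𝔤.Gam (0 + 1) / Real.sqrt D) ^ 2 = C' ^ 2 * 𝔤.Gam (0 + 1) ^ 2 / D := by
      rw [div_pow, mul_pow, Real.sq_sqrt hD0.le]
    have a5 : (C' * 𝔤.Gam (0 + 1) / Real.sqrt D / D) ^ 2 + 2 * (C' * 𝔤.Gam (0 + 1) / Real.sqrt D) *
        (C' * 𝔤.Gam (0 + 1) / Real.sqrt D / D) ≤ 3 * (C' ^ 2 * 𝔤.Gam (0 + 1) ^ 2 / D ^ 2) := by
      have b1 : (C' * 𝔤.Gam (0 + 1) / Real.sqrt D / D) ^ 2 = C' ^ 2 * 𝔤.Gam (0 + 1) ^ 2 / D ^ 2 / D := by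
        rw [div_pow _ D, a4]; ring
      have b2 : 2 * (C' * 𝔤.Gam (0 + 1) / Real.sqrt D) * (C' * 𝔤.Gam (0 + 1) / Real.sqrt D / D) =
          2 * (C' ^ 2 * 𝔤.Gam (0 + 1) ^ 2 / D ^ 2) := by
        rw [show 2 * (C' * 𝔤.Gam (0 + 1) / Real.sqrt D) * (C' * 𝔤.Gam (0 + 1) / Real.sqrt D / D) =
          2 * (C' * 𝔤.Gam (0 + 1) / Real.sqrt D) ^ 2 / D by ring, a4]; ring
      have b3 : C' ^ 2 * 𝔤.Gam (0 + 1) ^ 2 / D ^ 2 / D ≤ C' ^ 2 * 𝔤.Gam (0 + 1) ^ 2 / D ^ 2 :=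
        div_le_self (by positivity) hD1
      linarith
    have a6 : 2 * (1 / 𝔤.Gam 0) ^ 2 * (3 * (C' ^ 2 * 𝔤.Gam (0 + 1) ^ 2 / D ^ 2)) ≤
        6 * C' ^ 2 * (gr 𝔤 0 ^ 2 * ρ / D) := by
      calc 2 * (1 / 𝔤.Gam 0) ^ 2 * (3 * (C' ^ 2 * 𝔤.Gam (0 + 1) ^ 2 / D ^ 2))
          = 6 * C' ^ 2 * (gr 𝔤 0 ^ 2 * ρ / D) / p.l 0 := by rw [← hlD, gr]; field_simp; ring
        _ ≤ _ := div_le_self (by positivity) hl1
    rw [a2]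
    have a7 := mul_le_mul_of_nonneg_left a5 (show 0 ≤ 2 * (1 / 𝔤.Gam 0) ^ 2 by positivity)
    have a8 : 0 ≤ 44 * C ^ 4 * (gr 𝔤 0 ^ 2 * ρ / D) := by positivity
    linarith
  · rw [show nu0 (wedge l') = 0 from ev2_wedge _ _ l' h2l, zero_smul, add_zero]
    have h4 : 4 ≤ l'.length := by
      have := List.length_pos_iff.2 hne'
      obtain ⟨n, hn⟩ := he'
      omega
    have hk1 : C * gr 𝔤 0 / Real.sqrt D * ρ ≤ 1 / 2 := by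
      have b1 : gr 𝔤 0 / Real.sqrt D ≤ 2 := (div_le_self hg0.le hs1).trans hg2
      have b2 := mul_le_mul hρC b1 (by positivity) (by norm_num)
      have b3 : C * gr 𝔤 0 / Real.sqrt D * ρ = C * ρ * (gr 𝔤 0 / Real.sqrt D) := by ring
      linarith
    refine (pauli2 (by positivity) (mul_le_of_le_one_right (by positivity) hρ1) hk1 _ l'
      (fun u hu => ⟨J.h0 u (hl' u hu), J.h1 u (hl' u hu)⟩) h4).mono subset_rfl ?_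
    rw [mul_pow _ ρ, hκ0]
    have b1 : gr 𝔤 0 ^ 2 * ρ / D ≤ 4 := by
      refine (div_le_self (by positivity) hD1).trans ((mul_le_of_le_one_right (by positivity) hρ1).trans ?_)
      nlinarith
    have b2 := mul_le_mul_of_nonneg_left b1 (show 0 ≤ 11 * C ^ 4 * (gr 𝔤 0 ^ 2 * ρ / D) by positivity)
    have b3 : 0 ≤ (3 * C ^ 2 + 6 * C' ^ 2) * (gr 𝔤 0 ^ 2 * ρ / D) := by positivity
    have b4 : 11 * (C ^ 2 * gr 𝔤 0 ^ 2 / D) * (C ^ 2 * gr 𝔤 0 ^ 2 / D * ρ ^ 2) =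
      11 * C ^ 4 * (gr 𝔤 0 ^ 2 * ρ / D) * (gr 𝔤 0 ^ 2 * ρ / D) := by ring
    linarith

theorem remd_mix0 : ∃ (C : ℝ) (T₀ : ℕ), 0 < C ∧ ∀ (p : Par) (K : ℕ) (Γs : ℝ) (𝔤 : Geom) (x : Site), Hyp p K Γs 𝔤 0 →
    T₀ ≤ p.T → ((0 : ℕ) : ℕ∞) < 𝔤.jN → ∀ lB lA : List (GV Ix), (∀ u ∈ lB, u ∈ Bset p 𝔤 0 x) → (∀ u ∈ lA, u ∈ Aset p 𝔤 0 x) →
      Even lB.length → Even lA.length → lB ≠ [] → lA ≠ [] →
      GBd (𝔤.U p (0 + 1) x) (Rm p 𝔤 0 x (wedge lB * wedge lA)) (kap p K 𝔤 0 C 0 x) := by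
  obtain ⟨C, T₀, hC, H⟩ := remd_obs0
  exact ⟨C, T₀, hC, fun p K Γs 𝔤 x h hT hj lB lA hB hA heB heA hB' hA' =>
    remd_mix_sep0 hC h hj lB lA hB hA heB hB' hA' fun k hk hx => H p K Γs 𝔤 x k h hT hj hk hx lA hA heA hA'⟩

end Crest.Agent.R165.D2
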